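import Mathlib

/-! Classical continuum particle systems in Euclidean 3-space with a radial pair potential. -/

open MeasureTheory Set

namespace Vale.Agent.P171

/-- Euclidean three-space. -/
abbrev E : Type := EuclideanSpace ℝ (Fin 3)

/-- The energy `U_N(x) = ∑_{i<j} φ(|x_i - x_j|)`. -/
noncomputable def energy (φ : ℝ → ℝ) {N : ℕ} (x : Fin N → E) : ℝ :=
  ∑ i : Fin N, ∑ j ∈ Finset.Ioi i, φ (dist (x i) (x j))

/-- `φ` is bounded on every compact subinterval of `(0, ∞)`. -/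
def LocallyBoundedPos (φ : ℝ → ℝ) : Prop :=
  ∀ a b : ℝ, 0 < a → ∃ M : ℝ, ∀ r ∈ Icc a b, |φ r| ≤ M

/-- Stability: `U_N ≥ -B N` for all configurations of distinct points. -/
def Stable (φ : ℝ → ℝ) : Prop :=
  ∃ B : ℝ, ∀ (N : ℕ) (x : Fin N → E), Function.Injective x → -(B * N) ≤ energy φ x

/-- Temperedness: `φ(r) ≤ C r^(-3-ε)` for `r ≥ R₀`. -/
def Tempered (φ : ℝ → ℝ) : Prop :=
  ∃ C ε R₀ : ℝ, 0 < C ∧ 0 < ε ∧ 0 < R₀ ∧ ∀ r : ℝ, R₀ ≤ r → φ r ≤ C * r ^ (-3 - ε)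

/-- The cube `Λ_L = [0, L]^3`. -/
def cube (L : ℝ) : Set E := {x | ∀ i, x i ∈ Icc 0 L}

/-- The set `Λ_L^N` of `N`-point configurations in the cube. -/
def cubeConf (L : ℝ) (N : ℕ) : Set (Fin N → E) := Set.pi univ fun _ => cube L

/-- The canonical partition function `Z_{L,N}(β) = (1/N!) ∫_{Λ_L^N} exp(-β U_N)`. -/
noncomputable def canonicalZ (φ : ℝ → ℝ) (β L : ℝ) (N : ℕ) : ℝ :=
  (1 / (N.factorial : ℝ)) * ∫ x in cubeConf L N, Real.exp (-β * energy φ x)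

/-- The grand canonical partition function `∑_N z^N Z_{L,N}(β)`. -/
noncomputable def grandZ (φ : ℝ → ℝ) (β z L : ℝ) : ℝ :=
  ∑' N : ℕ, z ^ N * canonicalZ φ β L N

end Vale.Agent.P171
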