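import Mathlib

/-! Grand canonical sums over finite configurations (multisets). -/

open MeasureTheory Set
open scoped ENNReal Nat

namespace Vale.Agent.P171

variable {α : Type} [MeasurableSpace α]

def cfg {α : Type} {N : ℕ} (x : Fin N → α) : Multiset α := (List.ofFn x : Multiset α)

lemma cfg_zero {α : Type} (x : Fin 0 → α) : cfg x = 0 := by simp [cfg]

lemma cfg_succ {α : Type} {N : ℕ} (x : Fin (N + 1) → α) :
    cfg x = x 0 ::ₘ cfg (fun i => x i.succ) := by
  simp [cfg, List.ofFn_succ]

lemma cfg_cons {α : Type} {N : ℕ} (a : α) (x : Fin N → α) :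
    cfg (Fin.cons a x : Fin (N + 1) → α) = a ::ₘ cfg x := by
  rw [cfg_succ]; simp

lemma card_cfg {α : Type} {N : ℕ} (x : Fin N → α) : (cfg x).card = N := by simp [cfg]

lemma cfg_map {α β : Type} {N : ℕ} (x : Fin N → α) (f : α → β) :
    (cfg x).map f = cfg (fun i => f (x i)) := by
  simp [cfg, List.map_ofFn, Function.comp_def]

lemma sum_cfg {N : ℕ} (x : Fin N → ℝ) : (cfg x).sum = ∑ i, x i := by
  simp [cfg, List.sum_ofFn]

scoped instance msp : MeasurableSpace (Multiset α) :=
  ⨅ N : ℕ, MeasurableSpace.map (fun x : Fin N → α => cfg x) inferInstance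

lemma measurable_cfg (N : ℕ) : Measurable (fun x : Fin N → α => cfg x) := by
  intro s hs
  exact (MeasurableSpace.measurableSet_iInf.1 hs) N

lemma measurable_of_cfg {β : Type*} [MeasurableSpace β] {F : Multiset α → β}
    (h : ∀ N, Measurable (fun x : Fin N → α => F (cfg x))) : Measurable F := by
  intro s hs
  exact MeasurableSpace.measurableSet_iInf.2 fun N => h N hs

lemma measurable_fincons {γ : Type*} [MeasurableSpace γ] {N : ℕ} {a : γ → α}
    {x : γ → Fin N → α} (ha : Measurable a) (hx : Measurable x) :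
    Measurable (fun g => (Fin.cons (a g) (x g) : Fin (N + 1) → α)) := by
  refine measurable_pi_lambda _ fun i => ?_
  refine Fin.cases ?_ (fun j => ?_) i
  · simpa using ha
  · simpa [Function.comp_def] using (measurable_pi_apply j).comp hx

lemma measurable_cons (a : α) : Measurable (fun m : Multiset α => a ::ₘ m) := by
  refine measurable_of_cfg fun N => ?_
  simp_rw [← cfg_cons]
  exact (measurable_cfg _).comp (measurable_fincons measurable_const measurable_id)

lemma measurable_mapm {β : Type} [MeasurableSpace β] {f : α → β} (hf : Measurable f) :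
    Measurable (fun m : Multiset α => m.map f) := by
  refine measurable_of_cfg fun N => ?_
  simp_rw [cfg_map]
  exact (measurable_cfg _).comp
    (measurable_pi_lambda _ fun i => hf.comp (measurable_pi_apply i))

lemma measurable_card : Measurable (fun m : Multiset α => m.card) := by
  refine measurable_of_cfg fun N => ?_
  simp_rw [card_cfg]; exact measurable_const

open Classical in
lemma measurable_filter_aux {A : Set α} (hA : MeasurableSet A) (N : ℕ) : ∀ k : ℕ,
    Measurable (fun p : (Fin k → α) × (Fin N → α) => cfg p.1 + (cfg p.2).filter (· ∈ A)) := by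
  induction N with
  | zero => intro k; simpa [cfg_zero, Function.comp_def] using (measurable_cfg k).comp measurable_fst
  | succ N ih =>
    intro k
    have htail : Measurable (fun p : (Fin k → α) × (Fin (N + 1) → α) =>
        (fun i : Fin N => p.2 i.succ)) :=
      measurable_pi_lambda _ fun i => (measurable_pi_apply _).comp measurable_snd
    have h0 : Measurable (fun p : (Fin k → α) × (Fin (N + 1) → α) => p.2 0) :=
      (measurable_pi_apply _).comp measurable_snd
    have h1 := (ih (k + 1)).comp ((measurable_fincons h0 measurable_fst).prodMk htail)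
    have h2 := (ih k).comp (measurable_fst.prodMk htail)
    have := @Measurable.ite _ _ _ _ _ _ (fun p : (Fin k → α) × (Fin (N + 1) → α) => p.2 0 ∈ A)
      (fun _ => Classical.propDecidable _) (h0 hA) h1 h2
    convert this using 1
    funext p
    rw [cfg_succ p.2]
    by_cases h : p.2 0 ∈ A
    · simp [h, cfg_cons]
    · simp [h]

open Classical in
lemma measurable_filter {A : Set α} (hA : MeasurableSet A) :
    Measurable (fun m : Multiset α => m.filter (· ∈ A)) := by
  refine measurable_of_cfg fun N => ?_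
  have := (measurable_filter_aux hA N 0).comp
    (measurable_const.prodMk measurable_id :
      Measurable fun x : Fin N → α => ((Fin.elim0 : Fin 0 → α), x))
  simpa [Function.comp_def, cfg_zero] using this

noncomputable def I (ν : Measure α) : ℕ → (Multiset α → ℝ≥0∞) → ℝ≥0∞
  | 0, F => F 0
  | N + 1, F => ∫⁻ x, I ν N (fun m => F (x ::ₘ m)) ∂ν

noncomputable def Xi (ν : Measure α) (F : Multiset α → ℝ≥0∞) : ℝ≥0∞ :=
  ∑' N, ((N ! : ℕ) : ℝ≥0∞)⁻¹ * I ν N F

lemma measurable_I_aux (ν : Measure α) [SFinite ν] {F : Multiset α → ℝ≥0∞} (hF : Measurable F)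
    (N : ℕ) : ∀ k, Measurable (fun y : Fin k → α => I ν N (fun m => F (cfg y + m))) := by
  induction N with
  | zero => intro k; simpa [I, Function.comp_def] using hF.comp (measurable_cfg k)
  | succ N ih =>
    intro k
    simp only [I]
    apply Measurable.lintegral_prod_right
    have := (ih (k + 1)).comp (measurable_fincons (measurable_snd (α := Fin k → α))
      measurable_fst)
    convert this using 1
    funext p
    simp [Function.uncurry, cfg_cons]

lemma measurable_I_cons (ν : Measure α) [SFinite ν] {F : Multiset α → ℝ≥0∞} (hF : Measurable F)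
    (N : ℕ) : Measurable (fun x : α => I ν N (fun m => F (x ::ₘ m))) := by
  have := (measurable_I_aux ν hF N 1).comp
    (measurable_pi_lambda (fun (x : α) (_ : Fin 1) => x) fun _ => measurable_id)
  convert this using 1
  funext x
  simp [cfg]

lemma I_mono_aux (ν : Measure α) [NullSingletonClass ν] (p : α → Prop) (hp : ∀ᵐ x ∂ν, p x) (N : ℕ) :
    ∀ (s : Multiset α) (F G : Multiset α → ℝ≥0∞), s.Nodup →
      (∀ m, (s + m).Nodup → (∀ x ∈ m, p x) → m.card = N → F m ≤ G m) → I ν N F ≤ I ν N G := by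
  induction N with
  | zero => intro s F G hs h; exact h 0 (by simpa using hs) (by simp) rfl
  | succ N ih =>
    intro s F G hs h
    simp only [I]
    have hs' : ∀ᵐ x ∂ν, x ∉ s := by
      classical
      have : ν (s.toFinset : Set α) = 0 := s.toFinset.countable_toSet.measure_zero ν
      filter_upwards [measure_eq_zero_iff_ae_notMem.1 this] with x hx
      simpa using hx
    refine lintegral_mono_ae ?_
    filter_upwards [hp, hs'] with x hx hxs
    refine ih (x ::ₘ s) _ _ (Multiset.nodup_cons.2 ⟨hxs, hs⟩) fun m hm hpm hc => ?_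
    refine h _ (by simpa using hm) ?_ (by simp [hc])
    intro y hy
    rcases Multiset.mem_cons.1 hy with rfl | hy
    · exact hx
    · exact hpm y hy

lemma I_mono (ν : Measure α) [NullSingletonClass ν] (p : α → Prop) (hp : ∀ᵐ x ∂ν, p x) (N : ℕ)
    {F G : Multiset α → ℝ≥0∞}
    (h : ∀ m, m.Nodup → (∀ x ∈ m, p x) → m.card = N → F m ≤ G m) : I ν N F ≤ I ν N G :=
  I_mono_aux ν p hp N 0 F G Multiset.nodup_zero (by simpa using h)

lemma Xi_mono (ν : Measure α) [NullSingletonClass ν] (p : α → Prop) (hp : ∀ᵐ x ∂ν, p x)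
    {F G : Multiset α → ℝ≥0∞}
    (h : ∀ m, m.Nodup → (∀ x ∈ m, p x) → F m ≤ G m) : Xi ν F ≤ Xi ν G :=
  ENNReal.tsum_le_tsum fun N => by
    gcongr
    exact I_mono ν p hp N fun m h1 h2 _ => h m h1 h2

lemma I_mono_meas {ν ν' : Measure α} (h : ν ≤ ν') (N : ℕ) :
    ∀ F : Multiset α → ℝ≥0∞, I ν N F ≤ I ν' N F := by
  induction N with
  | zero => intro F; exact le_rfl
  | succ N ih => intro F; exact lintegral_mono' h fun x => ih _

lemma Xi_mono_meas {ν ν' : Measure α} (h : ν ≤ ν') (F : Multiset α → ℝ≥0∞) :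
    Xi ν F ≤ Xi ν' F :=
  ENNReal.tsum_le_tsum fun N => by
    gcongr
    exact I_mono_meas h N F

lemma I_map {ν : Measure α} {e : α → α} (he : MeasurableEmbedding e) (N : ℕ) :
    ∀ F : Multiset α → ℝ≥0∞, I (ν.map e) N F = I ν N (fun m => F (m.map e)) := by
  induction N with
  | zero => intro F; simp [I]
  | succ N ih =>
    intro F
    simp only [I]
    rw [he.lintegral_map]
    simp [ih]

lemma Xi_map {ν : Measure α} {e : α → α} (he : MeasurableEmbedding e)
    (F : Multiset α → ℝ≥0∞) : Xi (ν.map e) F = Xi ν (fun m => F (m.map e)) := by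
  simp [Xi, I_map he]

lemma I_add (ν : Measure α) [SFinite ν] (N : ℕ) : ∀ F G : Multiset α → ℝ≥0∞, Measurable F →
    I ν N (fun m => F m + G m) = I ν N F + I ν N G := by
  induction N with
  | zero => intro F G _; simp [I]
  | succ N ih =>
    intro F G hF
    simp only [I]
    rw [← lintegral_add_left (measurable_I_cons ν hF N)]
    congr 1; funext x
    exact ih _ _ (hF.comp (measurable_cons x))

lemma Xi_add (ν : Measure α) [SFinite ν] {F : Multiset α → ℝ≥0∞} (G : Multiset α → ℝ≥0∞)
    (hF : Measurable F) : Xi ν (fun m => F m + G m) = Xi ν F + Xi ν G := by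
  simp [Xi, I_add ν _ F G hF, mul_add, ENNReal.tsum_add]

lemma I_const_mul (ν : Measure α) (c : ℝ≥0∞) (hc : c ≠ ∞) (N : ℕ) :
    ∀ F : Multiset α → ℝ≥0∞, I ν N (fun m => c * F m) = c * I ν N F := by
  induction N with
  | zero => intro F; simp [I]
  | succ N ih =>
    intro F
    simp only [I]
    rw [← lintegral_const_mul' _ _ hc]
    congr 1; funext x
    exact ih _

lemma Xi_const_mul (ν : Measure α) (c : ℝ≥0∞) (hc : c ≠ ∞) (F : Multiset α → ℝ≥0∞) :
    Xi ν (fun m => c * F m) = c * Xi ν F := by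
  simp only [Xi, I_const_mul ν c hc, ← ENNReal.tsum_mul_left]
  congr 1; funext N; ring

lemma I_prod_one (ν : Measure α) {f : α → ℝ≥0∞} (hf : Measurable f) (hfin : ∀ x, f x ≠ ∞)
    (N : ℕ) : I ν N (fun m => (m.map f).prod) = (∫⁻ x, f x ∂ν) ^ N := by
  induction N with
  | zero => simp [I]
  | succ N ih =>
    simp only [I, Multiset.map_cons, Multiset.prod_cons]
    simp_rw [fun x => I_const_mul ν (f x) (hfin x) N, ih]
    rw [lintegral_mul_const _ hf, pow_succ']

lemma le_Xi (ν : Measure α) (F : Multiset α → ℝ≥0∞) (N : ℕ) :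
    ((N ! : ℕ) : ℝ≥0∞)⁻¹ * I ν N F ≤ Xi ν F :=
  ENNReal.le_tsum (f := fun N => ((N ! : ℕ) : ℝ≥0∞)⁻¹ * I ν N F) N

lemma Xi_ideal (ν : Measure α) {f : α → ℝ≥0∞} (hf : Measurable f) (hfin : ∀ x, f x ≠ ∞)
    {t : ℝ} (ht : 0 ≤ t) (h : ∫⁻ x, f x ∂ν ≤ ENNReal.ofReal t) :
    Xi ν (fun m => (m.map f).prod) ≤ ENNReal.ofReal (Real.exp t) := by
  have hs : HasSum (fun N : ℕ => t ^ N / (N ! : ℝ)) (Real.exp t) := by
    rw [Real.exp_eq_exp_ℝ]
    exact NormedSpace.expSeries_div_hasSum_exp t
  rw [← hs.tsum_eq, ENNReal.ofReal_tsum_of_nonneg (fun N => by positivity) hs.summable]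
  refine ENNReal.tsum_le_tsum fun N => ?_
  rw [I_prod_one ν hf hfin, ENNReal.ofReal_div_of_pos (by positivity), ENNReal.ofReal_pow ht,
    ENNReal.ofReal_natCast, ENNReal.div_eq_inv_mul]
  gcongr

open Classical in
lemma I_two (ν : Measure α) [SFinite ν] {A B : Set α} (hA : MeasurableSet A)
    (hB : MeasurableSet B) (hAB : Disjoint A B) (N : ℕ) :
    ∀ F G : Multiset α → ℝ≥0∞, Measurable F → Measurable G →
    I (ν.restrict (A ∪ B)) N (fun m => F (m.filter (· ∈ A)) * G (m.filter (· ∈ B))) =
      ∑ p ∈ Finset.HasAntidiagonal.antidiagonal N, (N.choose p.1 : ℝ≥0∞) *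
        (I (ν.restrict A) p.1 F * I (ν.restrict B) p.2 G) := by
  induction N with
  | zero => intro F G _ _; simp [I]
  | succ N ih =>
    intro F G hF hG
    rw [I, lintegral_union hB hAB]
    have h1 : ∫⁻ x in A, I (ν.restrict (A ∪ B)) N (fun m =>
        F ((x ::ₘ m).filter (· ∈ A)) * G ((x ::ₘ m).filter (· ∈ B))) ∂ν =
        ∑ p ∈ Finset.HasAntidiagonal.antidiagonal N, (N.choose p.1 : ℝ≥0∞) *
          (I (ν.restrict A) (p.1 + 1) F * I (ν.restrict B) p.2 G) := by
      rw [setLIntegral_congr_fun hA (g := fun x => ∑ p ∈ Finset.HasAntidiagonal.antidiagonal N,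
        (N.choose p.1 : ℝ≥0∞) * (I (ν.restrict A) p.1 (fun m => F (x ::ₘ m)) *
          I (ν.restrict B) p.2 G))]
      · rw [lintegral_finsetSum]
        · refine Finset.sum_congr rfl fun p _ => ?_
          rw [lintegral_const_mul _ ((measurable_I_cons _ hF _).mul_const _),
            lintegral_mul_const _ (measurable_I_cons _ hF _)]
          rfl
        · intro p _
          exact ((measurable_I_cons _ hF _).mul_const _).const_mul _
      · intro x hx
        have hxB : x ∉ B := fun h => Set.disjoint_left.1 hAB hx h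
        simp only [Multiset.filter_cons_of_pos (p := (· ∈ A)) _ hx,
          Multiset.filter_cons_of_neg (p := (· ∈ B)) _ hxB]
        exact ih (fun m => F (x ::ₘ m)) G (hF.comp (measurable_cons x)) hG
    have h2 : ∫⁻ x in B, I (ν.restrict (A ∪ B)) N (fun m =>
        F ((x ::ₘ m).filter (· ∈ A)) * G ((x ::ₘ m).filter (· ∈ B))) ∂ν =
        ∑ p ∈ Finset.HasAntidiagonal.antidiagonal N, (N.choose p.1 : ℝ≥0∞) *
          (I (ν.restrict A) p.1 F * I (ν.restrict B) (p.2 + 1) G) := by
      rw [setLIntegral_congr_fun hB (g := fun x => ∑ p ∈ Finset.HasAntidiagonal.antidiagonal N,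
        (N.choose p.1 : ℝ≥0∞) * (I (ν.restrict A) p.1 F *
          I (ν.restrict B) p.2 (fun m => G (x ::ₘ m))))]
      · rw [lintegral_finsetSum]
        · refine Finset.sum_congr rfl fun p _ => ?_
          rw [lintegral_const_mul _ ((measurable_I_cons _ hG _).const_mul _),
            lintegral_const_mul _ (measurable_I_cons _ hG _)]
          rfl
        · intro p _
          exact ((measurable_I_cons _ hG _).const_mul _).const_mul _
      · intro x hx
        have hxA : x ∉ A := fun h => Set.disjoint_left.1 hAB h hx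
        simp only [Multiset.filter_cons_of_pos (p := (· ∈ B)) _ hx,
          Multiset.filter_cons_of_neg (p := (· ∈ A)) _ hxA]
        exact ih F (fun m => G (x ::ₘ m)) hF (hG.comp (measurable_cons x))
    rw [h1, h2]
    have := Finset.sum_antidiagonal_choose_succ_mul (R := ℝ≥0∞)
      (fun i j => I (ν.restrict A) i F * I (ν.restrict B) j G) N
    rw [this, add_comm]
    congr 1
    refine Finset.sum_congr rfl fun p hp => ?_
    rw [Nat.choose_symm_of_eq_add (Finset.HasAntidiagonal.mem_antidiagonal.1 hp).symm]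

open Classical in
lemma Xi_two (ν : Measure α) [SFinite ν] {A B : Set α} (hA : MeasurableSet A)
    (hB : MeasurableSet B) (hAB : Disjoint A B) {F G : Multiset α → ℝ≥0∞} (hF : Measurable F)
    (hG : Measurable G) :
    Xi (ν.restrict (A ∪ B)) (fun m => F (m.filter (· ∈ A)) * G (m.filter (· ∈ B))) =
      Xi (ν.restrict A) F * Xi (ν.restrict B) G := by
  simp only [Xi]
  have h : ∀ (f g : ℕ → ℝ≥0∞), (∑' n, f n) * (∑' n, g n) =
      ∑' n, ∑ p ∈ Finset.HasAntidiagonal.antidiagonal n, f p.1 * g p.2 := by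
    intro f g
    rw [← ENNReal.tsum_mul_right]
    simp_rw [← ENNReal.tsum_mul_left]
    rw [← ENNReal.tsum_prod, ← Finset.HasAntidiagonal.sigmaAntidiagonalEquivProd.tsum_eq, ENNReal.tsum_sigma']
    congr 1; funext n
    rw [← Finset.tsum_subtype]
    rfl
  rw [h]
  congr 1; funext N
  rw [I_two ν hA hB hAB N F G hF hG, Finset.mul_sum]
  refine Finset.sum_congr rfl fun p hp => ?_
  have hN := Finset.HasAntidiagonal.mem_antidiagonal.1 hp
  have h1 : ((N ! : ℕ) : ℝ≥0∞) = (N.choose p.1 : ℝ≥0∞) * ((p.1 ! : ℕ) * (p.2 ! : ℕ)) := by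
    have := Nat.add_choose_mul_factorial_mul_factorial p.2 p.1
    rw [add_comm, hN] at this
    rw [← this]; push_cast; ring
  have hc0 : (N.choose p.1 : ℝ≥0∞) ≠ 0 := by
    have : 0 < N.choose p.1 := Nat.choose_pos (by omega)
    exact_mod_cast this.ne'
  have hf0 : ∀ n : ℕ, ((n ! : ℕ) : ℝ≥0∞) ≠ 0 := fun n => by exact_mod_cast n.factorial_ne_zero
  have h2 : ((N ! : ℕ) : ℝ≥0∞)⁻¹ * (N.choose p.1 : ℝ≥0∞) =
      ((p.1 ! : ℕ) : ℝ≥0∞)⁻¹ * ((p.2 ! : ℕ) : ℝ≥0∞)⁻¹ := by
    rw [h1, ENNReal.mul_inv (Or.inl hc0) (Or.inl (ENNReal.natCast_ne_top _)),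
      ENNReal.mul_inv (Or.inl (hf0 _)) (Or.inl (ENNReal.natCast_ne_top _)),
      mul_comm, ← mul_assoc, ENNReal.mul_inv_cancel hc0 (ENNReal.natCast_ne_top _), one_mul]
  rw [← mul_assoc, h2]; ring

lemma I_zero_meas (N : ℕ) (F : Multiset α → ℝ≥0∞) : I (0 : Measure α) (N + 1) F = 0 := by
  simp [I]

lemma Xi_zero_meas (F : Multiset α → ℝ≥0∞) : Xi (0 : Measure α) F = F 0 := by
  rw [Xi, tsum_eq_single 0]
  · simp [I]
  · intro N hN
    obtain ⟨n, rfl⟩ := Nat.exists_eq_succ_of_ne_zero hN
    simp [I_zero_meas]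

open Classical in
lemma Xi_prod (ν : Measure α) [SFinite ν] {ι : Type} (T : Finset ι) (A : ι → Set α)
    (hA : ∀ k, MeasurableSet (A k)) (hd : (T : Set ι).PairwiseDisjoint A)
    (F : ι → Multiset α → ℝ≥0∞) (hF : ∀ k, Measurable (F k)) :
    Xi (ν.restrict (⋃ k ∈ T, A k)) (fun m => ∏ k ∈ T, F k (m.filter (· ∈ A k))) =
      ∏ k ∈ T, Xi (ν.restrict (A k)) (F k) := by
  induction T using Finset.induction_on with
  | empty => simp [Xi_zero_meas]
  | insert k T hk ih =>
    have hd' : (T : Set ι).PairwiseDisjoint A := hd.subset (by simp)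
    have hU : MeasurableSet (⋃ j ∈ T, A j) :=
      MeasurableSet.biUnion T.countable_toSet fun j _ => hA j
    have hdis : Disjoint (A k) (⋃ j ∈ T, A j) := by
      simp only [Set.disjoint_iUnion_right]
      intro j hj
      exact hd (by simp) (by simp [hj]) (fun h => hk (h ▸ hj))
    have hm : Measurable (fun m : Multiset α => ∏ j ∈ T, F j (m.filter (· ∈ A j))) :=
      Finset.measurable_prod _ fun j _ => (hF j).comp (measurable_filter (hA j))
    rw [Finset.prod_insert hk, ← ih hd', Finset.set_biUnion_insert,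
      ← Xi_two ν (hA k) hU hdis (hF k) hm]
    congr 1; funext m
    rw [Finset.prod_insert hk]
    congr 1
    refine Finset.prod_congr rfl fun j hj => ?_
    rw [Multiset.filter_filter]
    congr 1
    refine Multiset.filter_congr fun x _ => ⟨fun h => ⟨h, ?_⟩, fun h => h.1⟩
    exact Set.mem_biUnion hj h

lemma I_eq_pi (ν : Measure α) [SigmaFinite ν] (N : ℕ) :
    ∀ F : Multiset α → ℝ≥0∞, Measurable F →
      I ν N F = ∫⁻ x, F (cfg x) ∂(Measure.pi fun _ : Fin N => ν) := by
  induction N with
  | zero => intro F _; simp [I, cfg_zero]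
  | succ N ih =>
    intro F hF
    have hmp := (measurePreserving_piFinSuccAbove (fun _ : Fin (N + 1) => ν) 0).symm
    have hm : Measurable (fun x : Fin (N + 1) → α => F (cfg x)) := hF.comp (measurable_cfg _)
    rw [← hmp.lintegral_comp hm, lintegral_prod]
    · simp only [I]
      congr 1; funext x
      rw [ih (fun m => F (x ::ₘ m)) (hF.comp (measurable_cons x))]
      congr 1; funext y
      simp [MeasurableEquiv.piFinSuccAbove_symm_apply, Fin.insertNthEquiv, cfg_cons]
    · exact (hm.comp hmp.measurable).aemeasurable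

end Vale.Agent.P171
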