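import Vale.Agent.P171.Defs

/-! Lebesgue-Poisson functional on finite configurations and its factorisation. -/

open MeasureTheory Set
open scoped ENNReal

namespace Vale.Agent.P171.K

noncomputable section

def conf {ι : Type} [Fintype ι] (x : ι → E) : Multiset E := Finset.univ.val.map x

def Meas (W : Multiset E → ℝ≥0∞) : Prop :=
  ∀ (ι : Type) [Fintype ι], Measurable (fun x : ι → E => W (conf x))

def lamI (A : Set E) (W : Multiset E → ℝ≥0∞) (ι : Type) [Fintype ι] : ℝ≥0∞ :=
  ∫⁻ x in Set.pi univ (fun _ : ι => A), W (conf x)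

def lam (A : Set E) (W : Multiset E → ℝ≥0∞) : ℝ≥0∞ :=
  ∑' N : ℕ, ((N.factorial : ℝ≥0∞))⁻¹ * lamI A W (Fin N)

lemma conf_equiv {ι κ : Type} [Fintype ι] [Fintype κ] (e : κ ≃ ι) (x : ι → E) :
    conf (fun k => x (e k)) = conf x := by
  unfold conf
  have : (Finset.univ : Finset ι).val = (Finset.univ : Finset κ).val.map e := by
    rw [← Finset.map_univ_equiv e]; rfl
  rw [this, Multiset.map_map]; rfl

lemma card_conf {ι : Type} [Fintype ι] (x : ι → E) : (conf x).card = Fintype.card ι := by
  simp [conf]

lemma lamI_eq (A : Set E) (W : Multiset E → ℝ≥0∞) (ι : Type) [Fintype ι] :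
    lamI A W ι = ∫⁻ x : ι → E, W (conf x) ∂(Measure.pi fun _ => volume.restrict A) := by
  unfold lamI
  rw [volume_pi, Measure.restrict_pi_pi]

lemma lamI_equiv (A : Set E) (W : Multiset E → ℝ≥0∞) {ι κ : Type} [Fintype ι] [Fintype κ]
    (e : κ ≃ ι) : lamI A W ι = lamI A W κ := by
  rw [lamI_eq, lamI_eq]
  have h := measurePreserving_piCongrLeft (α := fun _ : ι => E)
    (fun _ => (volume : Measure E).restrict A) e
  rw [← h.lintegral_comp_emb (MeasurableEquiv.measurableEmbedding _)]
  refine lintegral_congr fun x => ?_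
  congr 1
  rw [← conf_equiv e]
  congr 1
  ext k
  simp [MeasurableEquiv.piCongrLeft, Equiv.piCongrLeft_apply_apply]

lemma lamI_card (A : Set E) (W : Multiset E → ℝ≥0∞) (ι : Type) [Fintype ι] :
    lamI A W ι = lamI A W (Fin (Fintype.card ι)) :=
  lamI_equiv A W (Fintype.equivFin ι).symm

lemma lam_mono {A : Set E} (hA : MeasurableSet A) {W W' : Multiset E → ℝ≥0∞}
    (h : ∀ (N : ℕ) (x : Fin N → E), (∀ i, x i ∈ A) → W (conf x) ≤ W' (conf x)) :
    lam A W ≤ lam A W' := by
  refine ENNReal.tsum_le_tsum fun N => mul_le_mul_right ?_ _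
  refine setLIntegral_mono' (MeasurableSet.univ_pi fun _ => hA) fun x hx => h N x fun i => ?_
  exact hx i (mem_univ _)

lemma lam_mono_set {A B : Set E} (h : A ⊆ B) (W : Multiset E → ℝ≥0∞) : lam A W ≤ lam B W := by
  refine ENNReal.tsum_le_tsum fun N => mul_le_mul_right ?_ _
  exact lintegral_mono_set (Set.pi_mono fun _ _ => h)

lemma lam_sum {α : Type*} (A : Set E) (s : Finset α) (W : α → Multiset E → ℝ≥0∞)
    (hW : ∀ a ∈ s, Meas (W a)) :
    lam A (fun η => ∑ a ∈ s, W a η) = ∑ a ∈ s, lam A (W a) := by
  unfold lam lamI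
  rw [← Summable.tsum_finsetSum (fun _ _ => ENNReal.summable)]
  refine tsum_congr fun N => ?_
  rw [lintegral_finsetSum _ (fun a ha => hW a ha _), Finset.mul_sum]

lemma lam_add (A : Set E) {W W' : Multiset E → ℝ≥0∞} (hW : Meas W) :
    lam A (fun η => W η + W' η) = lam A W + lam A W' := by
  unfold lam lamI
  rw [← ENNReal.tsum_add]
  refine tsum_congr fun N => ?_
  rw [lintegral_add_left (hW _), mul_add]

lemma lam_const_mul (A : Set E) {W : Multiset E → ℝ≥0∞} (hW : Meas W) (c : ℝ≥0∞) :
    lam A (fun η => c * W η) = c * lam A W := by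
  unfold lam lamI
  rw [← ENNReal.tsum_mul_left]
  refine tsum_congr fun N => ?_
  rw [lintegral_const_mul _ (hW _)]; ring

lemma le_lam (A : Set E) (W : Multiset E → ℝ≥0∞) : W 0 ≤ lam A W := by
  refine le_trans ?_ (ENNReal.le_tsum 0)
  have : ∀ x : Fin 0 → E, conf x = 0 := fun x => by simp [conf]
  simp [lamI_eq, this]

lemma lam_empty (W : Multiset E → ℝ≥0∞) : lam ∅ W = W 0 := by
  unfold lam
  rw [tsum_eq_single 0]
  · have : ∀ x : Fin 0 → E, conf x = 0 := fun x => by simp [conf]
    simp [lamI_eq, this]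
  · intro N hN
    obtain ⟨M, rfl⟩ := Nat.exists_eq_succ_of_ne_zero hN
    have : Set.pi univ (fun _ : Fin (M + 1) => (∅ : Set E)) = ∅ := by
      rw [Set.univ_pi_eq_empty_iff]; exact ⟨0, rfl⟩
    simp [lamI, this]

lemma lam_one (A : Set E) (W : Multiset E → ℝ≥0∞) (c : ℝ≥0∞) (hA : MeasurableSet A)
    (h : ∀ x ∈ A, c ≤ W {x}) : c * volume A ≤ lam A W := by
  refine le_trans ?_ (ENNReal.le_tsum 1)
  have h1 : volume (Set.pi univ (fun _ : Fin 1 => A)) = volume A := by
    rw [volume_pi, Measure.pi_pi]; simp
  simp only [Nat.factorial_one, Nat.cast_one, inv_one, one_mul, lamI]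
  rw [← h1, ← setLIntegral_const]
  refine setLIntegral_mono' (MeasurableSet.univ_pi fun _ => hA) fun x hx => ?_
  have : conf x = {x 0} := by simp [conf]
  rw [this]; exact h _ (hx 0 (mem_univ _))

lemma lam_pow (A : Set E) (c v : ℝ) (hc : 0 ≤ c) (hv : 0 ≤ v) (hA : volume A = ENNReal.ofReal v) :
    lam A (fun η => ENNReal.ofReal (c ^ η.card)) = ENNReal.ofReal (Real.exp (c * v)) := by
  unfold lam lamI
  have h1 : ∀ N : ℕ, ((N.factorial : ℝ≥0∞))⁻¹ *
      ∫⁻ x in Set.pi univ (fun _ : Fin N => A), ENNReal.ofReal (c ^ (conf x).card)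
      = ENNReal.ofReal ((c * v) ^ N / N.factorial) := by
    intro N
    simp only [card_conf, Fintype.card_fin]
    rw [setLIntegral_const, volume_pi, Measure.pi_pi]
    simp only [hA, Finset.prod_const, Finset.card_univ, Fintype.card_fin]
    rw [← ENNReal.ofReal_pow hv, ← ENNReal.ofReal_mul (pow_nonneg hc _),
      ENNReal.ofReal_div_of_pos (by positivity), ENNReal.ofReal_natCast, mul_pow,
      ENNReal.div_eq_inv_mul]
  simp_rw [h1]
  rw [← ENNReal.ofReal_tsum_of_nonneg (fun N => by positivity) (Real.summable_pow_div_factorial _)]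
  congr 1
  rw [Real.exp_eq_exp_ℝ, NormedSpace.exp_eq_tsum_div]

lemma lam_translate (A : Set E) (W : Multiset E → ℝ≥0∞) (v : E)
    (hW : ∀ (N : ℕ) (x : Fin N → E), W (conf (fun i => x i + v)) = W (conf x)) :
    lam ((fun y => y + v) ⁻¹' A) W = lam A W := by
  unfold lam lamI
  refine tsum_congr fun N => ?_
  congr 1
  have h := measurePreserving_add_right (volume : Measure (Fin N → E)) (fun _ => v)
  have h2 := h.setLIntegral_comp_preimage_emb (measurableEmbedding_addRight _)
    (fun x => W (conf x)) (Set.pi univ (fun _ : Fin N => A))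
  rw [← h2]
  have : (fun x : Fin N → E => x + fun _ => v) ⁻¹' Set.pi univ (fun _ : Fin N => A)
      = Set.pi univ (fun _ : Fin N => (fun y => y + v) ⁻¹' A) := by
    ext x; simp
  rw [this]
  refine lintegral_congr fun x => ?_
  exact (hW N x).symm

lemma conf_sub {ι : Type} [Fintype ι] (x : ι → E) (p : ι → Prop) [DecidablePred p]
    [inst : Fintype {i // p i}] :
    conf (fun i : {i // p i} => x i) = (Finset.univ.filter p).val.map x := by
  obtain rfl : inst = Subtype.fintype p := Subsingleton.elim _ _
  unfold conf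
  have : (Finset.univ.filter p).val = (Finset.univ : Finset {i // p i}).val.map Subtype.val := by
    have h := Finset.univ_map_subtype p
    rw [← h]; rfl
  rw [this, Multiset.map_map]; rfl

open Classical in
lemma filter_conf {ι : Type} [Fintype ι] (x : ι → E) (B : Set E) :
    (conf x).filter (· ∈ B) = (Finset.univ.filter fun i => x i ∈ B).val.map x := by
  unfold conf
  rw [Multiset.filter_map]; rfl

open Classical in
lemma Meas.filter {W : Multiset E → ℝ≥0∞} (hW : Meas W) {B : Set E} (hB : MeasurableSet B) :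
    Meas (fun η => W (η.filter (· ∈ B))) := by
  intro ι _
  have : (fun x : ι → E => W ((conf x).filter (· ∈ B))) = fun x =>
      ∑ S : Finset ι, (Set.pi univ (fun i => if i ∈ S then B else Bᶜ)).indicator
        (fun x => W (conf (fun i : {i // i ∈ S} => x i))) x := by
    ext x
    rw [Finset.sum_eq_single (Finset.univ.filter fun i => x i ∈ B)]
    · rw [Set.indicator_of_mem, filter_conf, conf_sub]
      · congr 3; ext i; simp
      · intro i _; by_cases h : x i ∈ B <;> simp [h]
    · intro S _ hS
      rw [Set.indicator_of_notMem]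
      intro h; apply hS; ext i
      have := h i (mem_univ _)
      by_cases hi : i ∈ S <;> simp_all
    · simp
  rw [this]
  refine Finset.measurable_sum _ fun S _ => Measurable.indicator ?_ ?_
  · exact (hW _).comp (measurable_pi_lambda _ fun i => measurable_pi_apply _)
  · refine MeasurableSet.univ_pi fun i => ?_
    split_ifs
    · exact hB
    · exact hB.compl

lemma Meas.mul {W W' : Multiset E → ℝ≥0∞} (hW : Meas W) (hW' : Meas W') :
    Meas (fun η => W η * W' η) := fun ι _ => (hW ι).mul (hW' ι)

lemma Meas.const (c : ℝ≥0∞) : Meas (fun _ => c) := fun _ _ => measurable_const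

lemma Meas.prod {α : Type*} (s : Finset α) {W : α → Multiset E → ℝ≥0∞} (hW : ∀ a ∈ s, Meas (W a)) :
    Meas (fun η => ∏ a ∈ s, W a η) := fun ι _ =>
  Finset.measurable_prod _ fun a ha => hW a ha ι

open Classical in
lemma lamI_split {A B : Set E} (hA : MeasurableSet A) (hB : MeasurableSet B) (hd : Disjoint A B)
    {W1 W2 : Multiset E → ℝ≥0∞} (h1 : Meas W1) (h2 : Meas W2) {ι : Type} [Fintype ι]
    (p : ι → Prop) :
    ∫⁻ x in Set.pi univ (fun i => if p i then A else B),
        W1 ((conf x).filter (· ∈ A)) * W2 ((conf x).filter (· ∈ B))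
      = lamI A W1 {i // p i} * lamI B W2 {i // ¬ p i} := by
  have hm : MeasurableSet (Set.pi univ (fun i : ι => if p i then A else B)) :=
    MeasurableSet.univ_pi fun i => by split_ifs <;> assumption
  rw [setLIntegral_congr_fun hm (g := fun x => W1 (conf fun i : {i // p i} => x i) *
      W2 (conf fun i : {i // ¬ p i} => x i))]
  · rw [volume_pi, Measure.restrict_pi_pi]
    have h := measurePreserving_piEquivPiSubtypeProd (α := fun _ : ι => E)
      (fun i => (volume : Measure E).restrict (if p i then A else B)) p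
    have hf : Measurable (fun q : ({i // p i} → E) × ({i // ¬ p i} → E) =>
        W1 (conf q.1) * W2 (conf q.2)) :=
      ((h1 _).comp measurable_fst).mul ((h2 _).comp measurable_snd)
    have h3 := h.lintegral_comp hf
    refine h3.trans ?_
    rw [lintegral_prod_mul (h1 _).aemeasurable (h2 _).aemeasurable, lamI_eq, lamI_eq]
    have c1 : (fun i : {i // p i} => (volume : Measure E).restrict (if p i.1 then A else B))
        = fun _ => volume.restrict A := by ext1 i; simp [i.2]
    have c2 : (fun i : {i // ¬ p i} => (volume : Measure E).restrict (if p i.1 then A else B))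
        = fun _ => volume.restrict B := by ext1 i; simp [i.2]
    rw [c1, c2]
  · intro x hx
    have hx' : ∀ i, x i ∈ (if p i then A else B) := fun i => hx i (mem_univ _)
    have e1 : (Finset.univ.filter fun i => x i ∈ A) = Finset.univ.filter p := by
      refine Finset.filter_congr fun i _ => ?_
      have := hx' i
      by_cases hi : p i
      · simp_all
      · simp only [hi, if_false] at this
        simp only [hi, iff_false]
        exact fun h => Set.disjoint_left.1 hd h this
    have e2 : (Finset.univ.filter fun i => x i ∈ B) = Finset.univ.filter fun i => ¬ p i := by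
      refine Finset.filter_congr fun i _ => ?_
      have := hx' i
      by_cases hi : p i
      · simp only [hi, if_true] at this
        simp only [hi, not_true, iff_false]
        exact fun h => Set.disjoint_left.1 hd this h
      · simp_all
    simp only
    rw [filter_conf, filter_conf, conf_sub, conf_sub, e1, e2]

open Classical in
lemma lamI_union {A B : Set E} (hA : MeasurableSet A) (hB : MeasurableSet B) (hd : Disjoint A B)
    {W1 W2 : Multiset E → ℝ≥0∞} (h1 : Meas W1) (h2 : Meas W2) (N : ℕ) :
    lamI (A ∪ B) (fun η => W1 (η.filter (· ∈ A)) * W2 (η.filter (· ∈ B))) (Fin N)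
      = ∑ k ∈ Finset.range (N + 1),
        (N.choose k : ℝ≥0∞) * (lamI A W1 (Fin k) * lamI B W2 (Fin (N - k))) := by
  have hS : ∀ S : Finset (Fin N),
      ∫⁻ x in Set.pi univ (fun i => if i ∈ S then A else B),
        W1 ((conf x).filter (· ∈ A)) * W2 ((conf x).filter (· ∈ B))
      = lamI A W1 (Fin S.card) * lamI B W2 (Fin (N - S.card)) := by
    intro S
    have h := lamI_split hA hB hd h1 h2 (fun i => i ∈ S)
    rw [lamI_card A W1, lamI_card B W2, Fintype.card_subtype_compl, Fintype.card_fin,
      Fintype.card_subtype, Fintype.card_coe] at h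
    rw [show (Finset.filter _ Finset.univ : Finset (Fin N)) = S by ext i; simp] at h
    rw [← h]
    have : (fun i => if i ∈ S then A else B) =
        fun i => @ite _ (i ∈ S) (Classical.propDecidable _) A B := by
      ext1 i; by_cases hi : i ∈ S <;> simp [hi]
    rw [this]
  have hU : Set.pi univ (fun _ : Fin N => A ∪ B) =
      ⋃ S : Finset (Fin N), Set.pi univ (fun i => if i ∈ S then A else B) := by
    ext x
    simp only [mem_pi, mem_univ, forall_true_left, mem_iUnion]
    constructor
    · intro h
      refine ⟨Finset.univ.filter fun i => x i ∈ A, fun i => ?_⟩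
      by_cases hi : x i ∈ A
      · simp [hi]
      · simpa [hi] using h i
    · rintro ⟨S, h⟩ i
      have := h i
      split_ifs at this
      · exact Or.inl this
      · exact Or.inr this
  unfold lamI at *
  rw [hU, lintegral_iUnion]
  · simp_rw [hS]
    rw [tsum_fintype, ← Finset.powerset_univ]
    have := Finset.sum_powerset_apply_card (x := (Finset.univ : Finset (Fin N)))
      (fun k => (∫⁻ x in Set.pi univ (fun _ : Fin k => A), W1 (conf x)) *
        ∫⁻ x in Set.pi univ (fun _ : Fin (N - k) => B), W2 (conf x))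
    rw [this]
    simp
  · intro S
    exact MeasurableSet.univ_pi fun i => by split_ifs <;> assumption
  · intro S T hST
    rw [Function.onFun, Set.disjoint_left]
    intro x hS hT
    apply hST
    ext i
    have a := hS i (mem_univ _)
    have b := hT i (mem_univ _)
    by_cases h1 : i ∈ S <;> by_cases h2 : i ∈ T <;> simp only [h1, h2, if_true, if_false] at a b ⊢
    · exact (Set.disjoint_left.1 hd a b).elim
    · exact (Set.disjoint_left.1 hd b a).elim

lemma tsum_range_mul (f g : ℕ → ℝ≥0∞) :
    ∑' N : ℕ, ∑ k ∈ Finset.range (N + 1), f k * g (N - k) = (∑' k, f k) * ∑' k, g k := by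
  have h1 : (∑' k, f k) * ∑' k, g k = ∑' p : ℕ × ℕ, f p.1 * g p.2 := by
    rw [ENNReal.tsum_prod (f := fun a b => f a * g b)]
    simp_rw [ENNReal.tsum_mul_left, ENNReal.tsum_mul_right]
  rw [h1, ← Finset.HasAntidiagonal.sigmaAntidiagonalEquivProd.tsum_eq, ENNReal.tsum_sigma']
  refine tsum_congr fun N => ?_
  rw [← Finset.Nat.sum_antidiagonal_eq_sum_range_succ (fun a b => f a * g b)]
  rw [← Finset.tsum_subtype']
  rfl

open Classical in
lemma lam_union {A B : Set E} (hA : MeasurableSet A) (hB : MeasurableSet B) (hd : Disjoint A B)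
    {W1 W2 : Multiset E → ℝ≥0∞} (h1 : Meas W1) (h2 : Meas W2) :
    lam (A ∪ B) (fun η => W1 (η.filter (· ∈ A)) * W2 (η.filter (· ∈ B)))
      = lam A W1 * lam B W2 := by
  unfold lam
  rw [← tsum_range_mul]
  refine tsum_congr fun N => ?_
  rw [lamI_union hA hB hd h1 h2, Finset.mul_sum]
  refine Finset.sum_congr rfl fun k hk => ?_
  have hk' : k ≤ N := Nat.lt_succ_iff.1 (Finset.mem_range.1 hk)
  have h := Nat.choose_mul_factorial_mul_factorial hk'
  have e : ((N.factorial : ℝ≥0∞))⁻¹ * (N.choose k : ℝ≥0∞)
      = ((k.factorial : ℝ≥0∞))⁻¹ * (((N - k).factorial : ℝ≥0∞))⁻¹ := by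
    have c0 : (N.choose k : ℝ≥0∞) ≠ 0 := by
      exact_mod_cast (Nat.choose_pos hk').ne'
    rw [← h]
    push_cast
    rw [ENNReal.mul_inv (Or.inr (by simp)) (Or.inr (by simp [Nat.factorial_ne_zero])),
      ENNReal.mul_inv (by simp) (by simp)]
    calc _ = ((N.choose k : ℝ≥0∞)⁻¹ * (N.choose k : ℝ≥0∞)) * (((k.factorial : ℝ≥0∞))⁻¹ *
          (((N - k).factorial : ℝ≥0∞))⁻¹) := by ring
      _ = _ := by rw [ENNReal.inv_mul_cancel c0 (by simp), one_mul]
  rw [← mul_assoc, e]; ring

open Classical in
lemma lam_biUnion {α : Type*} (s : Finset α) (B : α → Set E) (hB : ∀ a, MeasurableSet (B a))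
    (hd : Pairwise (Function.onFun Disjoint B)) (W : α → Multiset E → ℝ≥0∞)
    (hW : ∀ a, Meas (W a)) :
    lam (⋃ a ∈ s, B a) (fun η => ∏ a ∈ s, W a (η.filter (· ∈ B a))) = ∏ a ∈ s, lam (B a) (W a) := by
  induction s using Finset.induction_on with
  | empty => simp [lam_empty]
  | insert a s ha ih =>
    rw [Finset.prod_insert ha, ← ih, Finset.set_biUnion_insert]
    have hm : MeasurableSet (⋃ b ∈ s, B b) := Finset.measurableSet_biUnion _ fun b _ => hB b
    rw [← lam_union (hB a) hm _ (hW a) (Meas.prod s fun b _ => (hW b).filter (hB b))]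
    · congr 1
      ext η
      rw [Finset.prod_insert ha]
      congr 1
      refine Finset.prod_congr rfl fun b hb => ?_
      rw [Multiset.filter_filter]
      congr 1
      refine Multiset.filter_congr fun y _ => ?_
      constructor
      · intro h; exact ⟨h, mem_biUnion hb h⟩
      · exact fun h => h.1
    · rw [Set.disjoint_iUnion₂_right]
      intro b hb
      exact hd (fun h => ha (h ▸ hb))

end

end Vale.Agent.P171.K
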