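import Vale.Agent.P171.K1

/-! Pair sums, boxes, product bounds. -/

open MeasureTheory Set
open scoped ENNReal

namespace Vale.Agent.P171.K

noncomputable section

def S (f : E → E → ℝ) (η : Multiset E) : ℝ := (η.map fun x => (η.map fun y => f x y).sum).sum

def Wt (μ : ℝ) (f : E → E → ℝ) (η : Multiset E) : ℝ≥0∞ :=
  ENNReal.ofReal (Real.exp (μ * η.card + S f η))

lemma S_map {ι : Type} (s : Finset ι) (x : ι → E) (f : E → E → ℝ) :
    S f (s.val.map x) = ∑ i ∈ s, ∑ j ∈ s, f (x i) (x j) := by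
  unfold S
  simp only [Multiset.map_map]
  rfl

lemma S_conf {ι : Type} [Fintype ι] (x : ι → E) (f : E → E → ℝ) :
    S f (conf x) = ∑ i, ∑ j, f (x i) (x j) := S_map _ x f

lemma Wt_conf {ι : Type} [Fintype ι] (x : ι → E) (μ : ℝ) (f : E → E → ℝ) :
    Wt μ f (conf x) =
      ENNReal.ofReal (Real.exp (μ * Fintype.card ι + ∑ i, ∑ j, f (x i) (x j))) := by
  rw [Wt, card_conf, S_conf]

lemma Wt_zero (μ : ℝ) (f : E → E → ℝ) : Wt μ f 0 = 1 := by simp [Wt, S]

lemma meas_Wt (μ : ℝ) {f : E → E → ℝ} (hf : Measurable (Function.uncurry f)) : Meas (Wt μ f) := by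
  intro ι _
  simp_rw [Wt_conf]
  refine ENNReal.measurable_ofReal.comp (Real.measurable_exp.comp (measurable_const.add ?_))
  refine Finset.measurable_sum _ fun i _ => Finset.measurable_sum _ fun j _ => ?_
  have h : Measurable (fun a : ι → E => (a i, a j)) :=
    (measurable_pi_apply i).prodMk (measurable_pi_apply j)
  exact hf.comp h

open Classical in
def ind (p : ℕ → Prop) (η : Multiset E) : ℝ≥0∞ := if p η.card then 1 else 0

lemma meas_ind (p : ℕ → Prop) : Meas (ind p) := by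
  intro ι _
  have : (fun x : ι → E => ind p (conf x)) = fun _ => ind p (Multiset.replicate (Fintype.card ι) 0) := by
    ext x; unfold ind; rw [card_conf, Multiset.card_replicate]
  rw [this]
  exact measurable_const

def box (l : ℝ) : Set E := {x | ∀ c, 0 ≤ x c ∧ x c < l}

def boxAt (d s l : ℕ) (b : Fin 3 → ℤ) : Set E :=
  {x | ∀ c, (d : ℝ) * b c - s ≤ x c ∧ x c < d * b c - s + l}

def idx (d s : ℕ) (x : E) : Fin 3 → ℤ := fun c => ⌊(x c + s) / d⌋

lemma meas_coord (c : Fin 3) : Measurable (fun x : E => x c) := by fun_prop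

lemma meas_box (l : ℝ) : MeasurableSet (box l) := by
  have : box l = ⋂ c, ({x : E | 0 ≤ x c} ∩ {x : E | x c < l}) := by ext x; simp [box]
  rw [this]
  exact MeasurableSet.iInter fun c => (measurableSet_le measurable_const (meas_coord c)).inter
    (measurableSet_lt (meas_coord c) measurable_const)

lemma vol_box (l : ℝ) (hl : 0 ≤ l) : volume (box l) = ENNReal.ofReal (l ^ 3) := by
  have h := PiLp.volume_preserving_ofLp (Fin 3)
  have : box l = (WithLp.ofLp : E → (Fin 3 → ℝ)) ⁻¹' (Set.pi univ fun _ => Ico 0 l) := by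
    ext x; simp [box]
  rw [this, h.measure_preimage (MeasurableSet.univ_pi fun _ => measurableSet_Ico).nullMeasurableSet,
    Real.volume_pi_Ico]
  simp [ENNReal.ofReal_pow hl]

def vec (b : Fin 3 → ℤ) : E := WithLp.toLp 2 fun c => (b c : ℝ)

@[simp] lemma vec_apply (b : Fin 3 → ℤ) (c : Fin 3) : vec b c = b c := rfl

lemma boxAt_eq (d s l : ℕ) (b : Fin 3 → ℤ) :
    boxAt d s l b = (fun y => y + vec (fun c => s - d * b c)) ⁻¹' box l := by
  ext x
  simp only [boxAt, box, mem_ofPred_eq, mem_preimage, PiLp.add_apply, vec_apply]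
  refine forall_congr' fun c => ?_
  push_cast
  constructor <;> rintro ⟨h1, h2⟩ <;> constructor <;> linarith

lemma meas_boxAt (d s l : ℕ) (b : Fin 3 → ℤ) : MeasurableSet (boxAt d s l b) := by
  rw [boxAt_eq]; exact (meas_box _).preimage (measurable_add_const _)

lemma idx_of_mem {d s l : ℕ} (hd : 0 < d) (hl : l ≤ d) {b : Fin 3 → ℤ} {x : E}
    (hx : x ∈ boxAt d s l b) : idx d s x = b := by
  ext c
  have h := hx c
  have hd' : (0 : ℝ) < d := by exact_mod_cast hd
  have hl' : (l : ℝ) ≤ d := by exact_mod_cast hl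
  rw [idx, Int.floor_eq_iff, le_div_iff₀ hd', div_lt_iff₀ hd']
  constructor <;> nlinarith [h.1, h.2]

lemma mem_boxAt_idx {d s : ℕ} (hd : 0 < d) (x : E) : x ∈ boxAt d s d (idx d s x) := by
  intro c
  have hd' : (0 : ℝ) < d := by exact_mod_cast hd
  have h1 := Int.floor_le ((x c + s) / d)
  have h2 := Int.lt_floor_add_one ((x c + s) / d)
  rw [le_div_iff₀ hd'] at h1
  rw [div_lt_iff₀ hd'] at h2
  simp only [idx]
  constructor <;> linarith

lemma boxAt_disj {d s l : ℕ} (hd : 0 < d) (hl : l ≤ d) :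
    Pairwise (Function.onFun Disjoint (boxAt d s l)) := by
  intro b b' h
  rw [Function.onFun, Set.disjoint_left]
  intro x h1 h2
  exact h ((idx_of_mem hd hl h1).symm.trans (idx_of_mem hd hl h2))

def ZInv (g : E → E → ℝ) : Prop := ∀ (b : Fin 3 → ℤ) x y, g (x + vec b) (y + vec b) = g x y

lemma lam_boxAt (d s l : ℕ) (b : Fin 3 → ℤ) (μ : ℝ) {g : E → E → ℝ} (hg : ZInv g) (p : ℕ → Prop) :
    lam (boxAt d s l b) (fun η => Wt μ g η * ind p η) = lam (box l) (fun η => Wt μ g η * ind p η) := by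
  rw [boxAt_eq]
  refine lam_translate _ _ _ fun N x => ?_
  simp only [Wt_conf, hg _ _ _]
  unfold ind
  rw [card_conf, card_conf]

open Classical in
lemma prod_Wt {d s l : ℕ} (hd : 0 < d) (hl : l ≤ d) (G : Finset (Fin 3 → ℤ)) (μ : ℝ)
    (g : E → E → ℝ) {N : ℕ} (x : Fin N → E) (hx : ∀ i, x i ∈ ⋃ b ∈ G, boxAt d s l b) :
    ∏ b ∈ G, Wt μ g ((conf x).filter (· ∈ boxAt d s l b)) = ENNReal.ofReal (Real.exp
      (μ * N + ∑ i, ∑ j, if idx d s (x i) = idx d s (x j) then g (x i) (x j) else 0)) := by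
  have h1 : ∀ i, idx d s (x i) ∈ G ∧ x i ∈ boxAt d s l (idx d s (x i)) := by
    intro i
    obtain ⟨b, hb, h⟩ := mem_iUnion₂.1 (hx i)
    rw [idx_of_mem hd hl h]; exact ⟨hb, h⟩
  have h2 : ∀ i b, x i ∈ boxAt d s l b ↔ idx d s (x i) = b := fun i b =>
    ⟨idx_of_mem hd hl, fun h => h ▸ (h1 i).2⟩
  simp only [Wt]
  rw [← ENNReal.ofReal_prod_of_nonneg (fun _ _ => (Real.exp_pos _).le), ← Real.exp_sum]
  congr 2
  rw [Finset.sum_add_distrib, ← Finset.mul_sum]
  simp only [filter_conf, S_map, h2, Multiset.card_map, Finset.card_val]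
  congr 1
  · congr 1
    have := Finset.card_eq_sum_card_fiberwise (s := (Finset.univ : Finset (Fin N))) (t := G)
      (f := fun i => idx d s (x i)) (fun i _ => (h1 i).1)
    simp only [Finset.card_univ, Fintype.card_fin] at this
    exact_mod_cast this.symm
  · simp only [Finset.sum_filter]
    rw [Finset.sum_comm]
    refine Finset.sum_congr rfl fun i _ => ?_
    rw [Finset.sum_eq_single (idx d s (x i))]
    · simp only [if_true]
      refine Finset.sum_congr rfl fun j _ => ?_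
      simp only [eq_comm]
    · intro b _ hb; rw [if_neg (Ne.symm hb)]
    · intro h; exact absurd (h1 i).1 h

def grid (m : ℕ) : Finset (Fin 3 → ℤ) := Fintype.piFinset fun _ => Finset.Ico (0 : ℤ) m

lemma card_grid (m : ℕ) : (grid m).card = m ^ 3 := by simp [grid]

lemma upper_prod {d : ℕ} (hd : 0 < d) (m : ℕ) (μ : ℝ) {f g : E → E → ℝ}
    (hg : ZInv g) (hgm : Measurable (Function.uncurry g))
    (h : ∀ (N : ℕ) (x : Fin N → E), ∃ s ∈ Finset.range d, ∑ i, ∑ j, f (x i) (x j) ≤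
      ∑ i, ∑ j, if idx d s (x i) = idx d s (x j) then g (x i) (x j) else 0) :
    lam (box (m * d : ℕ)) (Wt μ f) ≤ d * (lam (box d) (Wt μ g)) ^ ((m + 1) ^ 3) := by
  classical
  have hsub : ∀ s ∈ Finset.range d, box (m * d : ℕ) ⊆ ⋃ b ∈ grid (m + 1), boxAt d s d b := by
    intro s hs x hx
    refine mem_iUnion₂.2 ⟨idx d s x, ?_, mem_boxAt_idx hd x⟩
    simp only [grid, Fintype.mem_piFinset, Finset.mem_Ico, idx]
    intro c
    have hd' : (0 : ℝ) < d := by exact_mod_cast hd
    have hs' : (s : ℝ) < d := by exact_mod_cast Finset.mem_range.1 hs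
    have h1 := hx c
    push_cast at h1
    rw [Int.floor_nonneg, Int.floor_lt, div_lt_iff₀ hd']
    constructor
    · exact div_nonneg (by linarith [h1.1, (Nat.cast_nonneg s : (0 : ℝ) ≤ s)]) hd'.le
    · push_cast; linarith [h1.2]
  have hm : ∀ s, Meas (fun η => ∏ b ∈ grid (m + 1), Wt μ g (η.filter (· ∈ boxAt d s d b))) :=
    fun s => Meas.prod _ fun b _ => (meas_Wt μ hgm).filter (meas_boxAt _ _ _ _)
  calc lam (box (m * d : ℕ)) (Wt μ f)
      ≤ lam (box (m * d : ℕ)) (fun η => ∑ s ∈ Finset.range d,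
          ∏ b ∈ grid (m + 1), Wt μ g (η.filter (· ∈ boxAt d s d b))) := by
        refine lam_mono (meas_box _) fun N x hx => ?_
        obtain ⟨s, hs, hle⟩ := h N x
        refine le_trans ?_ (Finset.single_le_sum (f := fun s =>
          ∏ b ∈ grid (m + 1), Wt μ g ((conf x).filter (· ∈ boxAt d s d b)))
          (fun _ _ => zero_le) hs)
        rw [prod_Wt hd le_rfl _ _ _ _ (fun i => hsub s hs (hx i)), Wt_conf, Fintype.card_fin]
        exact ENNReal.ofReal_le_ofReal (Real.exp_le_exp.2 (by linarith))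
    _ = ∑ s ∈ Finset.range d, lam (box (m * d : ℕ)) (fun η =>
          ∏ b ∈ grid (m + 1), Wt μ g (η.filter (· ∈ boxAt d s d b))) :=
        lam_sum _ _ _ fun s _ => hm s
    _ ≤ ∑ _s ∈ Finset.range d, (lam (box d) (Wt μ g)) ^ ((m + 1) ^ 3) := by
        refine Finset.sum_le_sum fun s hs => (lam_mono_set (hsub s hs) _).trans ?_
        rw [lam_biUnion _ _ (meas_boxAt d s d) (boxAt_disj hd le_rfl) (fun _ => Wt μ g)
          (fun _ => meas_Wt μ hgm)]
        have : ∀ b, lam (boxAt d s d b) (Wt μ g) = lam (box d) (Wt μ g) := fun b => by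
          have := lam_boxAt d s d b μ hg (fun _ => True)
          simpa [ind] using this
        simp only [this, Finset.prod_const, card_grid, le_refl]
    _ = _ := by simp

open Classical in
lemma lower_prod (l m : ℕ) (μ c : ℝ) {f g : E → E → ℝ} (p : ℕ → Prop)
    (hg : ZInv g) (hgm : Measurable (Function.uncurry g))
    (h : ∀ (N : ℕ) (x : Fin N → E),
      (∀ i, idx (l + 2) 0 (x i) ∈ grid m ∧ x i ∈ boxAt (l + 2) 0 l (idx (l + 2) 0 (x i))) →
      (∀ b ∈ grid m, p (Finset.univ.filter fun i => idx (l + 2) 0 (x i) = b).card) →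
      c + (∑ i, ∑ j, if idx (l + 2) 0 (x i) = idx (l + 2) 0 (x j) then g (x i) (x j) else 0) ≤
        ∑ i, ∑ j, f (x i) (x j)) :
    ENNReal.ofReal (Real.exp c) * (lam (box l) (fun η => Wt μ g η * ind p η)) ^ (m ^ 3) ≤
      lam (box (m * (l + 2) : ℕ)) (Wt μ f) := by
  have hd : 0 < l + 2 := by omega
  have hl : l ≤ l + 2 := by omega
  have hsub : (⋃ b ∈ grid m, boxAt (l + 2) 0 l b) ⊆ box (m * (l + 2) : ℕ) := by
    intro x hx
    obtain ⟨b, hb, h⟩ := mem_iUnion₂.1 hx
    intro c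
    have h1 := h c
    simp only [grid, Fintype.mem_piFinset, Finset.mem_Ico] at hb
    have h2 : (0 : ℝ) ≤ b c := by exact_mod_cast (hb c).1
    have h3 : (b c : ℝ) + 1 ≤ m := by exact_mod_cast (hb c).2
    push_cast at h1 ⊢
    have h4 : (0 : ℝ) ≤ l := Nat.cast_nonneg l
    constructor <;> nlinarith [h1.1, h1.2]
  have hW : Meas (fun η => Wt μ g η * ind p η) := (meas_Wt μ hgm).mul (meas_ind p)
  have hmU : MeasurableSet (⋃ b ∈ grid m, boxAt (l + 2) 0 l b) :=
    Finset.measurableSet_biUnion _ fun b _ => meas_boxAt _ _ _ _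
  have e := lam_biUnion (grid m) _ (meas_boxAt (l + 2) 0 l) (boxAt_disj hd hl)
    (fun _ η => Wt μ g η * ind p η) (fun _ => hW)
  simp only [lam_boxAt _ _ _ _ μ hg p, Finset.prod_const, card_grid] at e
  rw [← e, ← lam_const_mul _ (Meas.prod _ fun b _ => hW.filter (meas_boxAt _ _ _ _))]
  refine le_trans (lam_mono hmU fun N x hx => ?_) (lam_mono_set hsub _)
  have h1 : ∀ i, idx (l + 2) 0 (x i) ∈ grid m ∧ x i ∈ boxAt (l + 2) 0 l (idx (l + 2) 0 (x i)) := by
    intro i
    obtain ⟨b, hb, h⟩ := mem_iUnion₂.1 (hx i)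
    rw [idx_of_mem hd hl h]; exact ⟨hb, h⟩
  have h2 : ∀ i b, x i ∈ boxAt (l + 2) 0 l b ↔ idx (l + 2) 0 (x i) = b := fun i b =>
    ⟨idx_of_mem hd hl, fun h => h ▸ (h1 i).2⟩
  rw [Finset.prod_mul_distrib, prod_Wt hd hl _ _ _ _ hx]
  by_cases hp : ∀ b ∈ grid m, p (Finset.univ.filter fun i => idx (l + 2) 0 (x i) = b).card
  · have : ∏ b ∈ grid m, ind p ((conf x).filter (· ∈ boxAt (l + 2) 0 l b)) = 1 := by
      refine Finset.prod_eq_one fun b hb => ?_
      simp only [ind, filter_conf, h2, Multiset.card_map, Finset.card_val]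
      rw [if_pos (hp b hb)]
    rw [this, mul_one, ← ENNReal.ofReal_mul (Real.exp_pos _).le, ← Real.exp_add, Wt_conf,
      Fintype.card_fin]
    exact ENNReal.ofReal_le_ofReal (Real.exp_le_exp.2 (by linarith [h N x h1 hp]))
  · push Not at hp
    obtain ⟨b, hb, hp⟩ := hp
    have : ∏ b ∈ grid m, ind p ((conf x).filter (· ∈ boxAt (l + 2) 0 l b)) = 0 := by
      refine Finset.prod_eq_zero hb ?_
      simp only [ind, filter_conf, h2, Multiset.card_map, Finset.card_val]
      rw [if_neg hp]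
    simp [this]

end

end Vale.Agent.P171.K
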