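import Vale.Agent.P171.K2

/-! The pressure as a supremum, and the thermodynamic limit. -/

open MeasureTheory Set Filter Topology
open scoped ENNReal

namespace Vale.Agent.P171.K

noncomputable section

def Neg (f : E → E → ℝ) : Prop := ∀ (N : ℕ) (x : Fin N → E), ∑ i, ∑ j, f (x i) (x j) ≤ 0

structure Good (f : E → E → ℝ) : Prop where
  meas : Measurable (Function.uncurry f)
  inv : ZInv f
  neg : Neg f
  attr : ∀ x y, 2 ≤ dist x y → 0 ≤ f x y

def xi (μ : ℝ) (f : E → E → ℝ) (l : ℝ) : ℝ := Real.log (lam (box l) (Wt μ f)).toReal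

def P (f : E → E → ℝ) (μ : ℝ) : ℝ := ⨆ l : ℕ, xi μ f l / ((l : ℝ) + 2) ^ 3

lemma lam_le {f : E → E → ℝ} (hf : Neg f) (μ l : ℝ) (hl : 0 ≤ l) :
    lam (box l) (Wt μ f) ≤ ENNReal.ofReal (Real.exp (Real.exp μ * l ^ 3)) := by
  rw [← lam_pow (box l) _ _ (Real.exp_pos μ).le (by positivity) (vol_box l hl)]
  refine lam_mono (meas_box _) fun N x _ => ?_
  rw [Wt_conf, card_conf, Fintype.card_fin, ← Real.exp_nat_mul]
  exact ENNReal.ofReal_le_ofReal (Real.exp_le_exp.2 (by linarith [hf N x]))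

lemma one_le_lam (A : Set E) (μ : ℝ) (f : E → E → ℝ) : 1 ≤ lam A (Wt μ f) := by
  have := le_lam A (Wt μ f)
  rwa [Wt_zero] at this

lemma eq_exp_log {a : ℝ≥0∞} (h0 : a ≠ 0) (h1 : a ≠ ⊤) :
    a = ENNReal.ofReal (Real.exp (Real.log a.toReal)) := by
  rw [Real.exp_log (ENNReal.toReal_pos h0 h1), ENNReal.ofReal_toReal h1]

lemma lam_eq {f : E → E → ℝ} (hf : Neg f) (μ l : ℝ) (hl : 0 ≤ l) :
    lam (box l) (Wt μ f) = ENNReal.ofReal (Real.exp (xi μ f l)) :=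
  eq_exp_log (zero_lt_one.trans_le (one_le_lam _ _ _)).ne'
    ((lam_le hf μ l hl).trans_lt ENNReal.ofReal_lt_top).ne

lemma le_of_exp {a b : ℝ} (h : ENNReal.ofReal (Real.exp a) ≤ ENNReal.ofReal (Real.exp b)) :
    a ≤ b :=
  Real.exp_le_exp.1 ((ENNReal.ofReal_le_ofReal_iff (Real.exp_pos _).le).1 h)

lemma xi_nonneg {f : E → E → ℝ} (hf : Neg f) (μ l : ℝ) (hl : 0 ≤ l) : 0 ≤ xi μ f l := by
  apply le_of_exp
  rw [← lam_eq hf μ l hl]
  simpa using one_le_lam _ μ f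

lemma xi_le {f : E → E → ℝ} (hf : Neg f) (μ l : ℝ) (hl : 0 ≤ l) :
    xi μ f l ≤ Real.exp μ * l ^ 3 := by
  apply le_of_exp
  rw [← lam_eq hf μ l hl]
  exact lam_le hf μ l hl

lemma box_mono {l l' : ℝ} (h : l ≤ l') : box l ⊆ box l' :=
  fun _ hx c => ⟨(hx c).1, (hx c).2.trans_le h⟩

lemma xi_mono {f : E → E → ℝ} (hf : Neg f) (μ : ℝ) {l l' : ℝ} (hl : 0 ≤ l) (h : l ≤ l') :
    xi μ f l ≤ xi μ f l' := by
  apply le_of_exp
  rw [← lam_eq hf μ l hl, ← lam_eq hf μ l' (hl.trans h)]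
  exact lam_mono_set (box_mono h) _

lemma coord_le_dist (x y : E) (c : Fin 3) : |x c - y c| ≤ dist x y := by
  have := PiLp.dist_apply_le x y c
  rwa [Real.dist_eq] at this

lemma far {l : ℕ} {b b' : Fin 3 → ℤ} {x y : E} (hx : x ∈ boxAt (l + 2) 0 l b)
    (hy : y ∈ boxAt (l + 2) 0 l b') (h : b ≠ b') : 2 ≤ dist x y := by
  obtain ⟨c, hc⟩ := Function.ne_iff.1 h
  refine le_trans ?_ (coord_le_dist x y c)
  have h1 := hx c
  have h2 := hy c
  push_cast at h1 h2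
  have h4 : (0 : ℝ) ≤ l := Nat.cast_nonneg l
  rcases lt_or_gt_of_ne hc with h3 | h3
  · have : (b c : ℝ) + 1 ≤ b' c := by exact_mod_cast h3
    rw [le_abs]; right; nlinarith [h1.2, h2.1]
  · have : (b' c : ℝ) + 1 ≤ b c := by exact_mod_cast h3
    rw [le_abs]; left; nlinarith [h1.1, h2.2]

lemma ofReal_exp_pow (a : ℝ) (n : ℕ) :
    ENNReal.ofReal (Real.exp a) ^ n = ENNReal.ofReal (Real.exp (n * a)) := by
  rw [Real.exp_nat_mul, ENNReal.ofReal_pow (Real.exp_pos _).le]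

lemma ofReal_exp_mul (a b : ℝ) :
    ENNReal.ofReal (Real.exp a) * ENNReal.ofReal (Real.exp b) =
      ENNReal.ofReal (Real.exp (a + b)) := by
  rw [Real.exp_add, ENNReal.ofReal_mul (Real.exp_pos _).le]

lemma superadd {f : E → E → ℝ} (hf : Good f) (μ : ℝ) (l m : ℕ) :
    (m : ℝ) ^ 3 * xi μ f l ≤ xi μ f (m * (l + 2) : ℕ) := by
  have h := lower_prod l m μ 0 (f := f) (fun _ => True) hf.inv hf.meas (fun N x hx _ => by
    rw [zero_add]
    refine Finset.sum_le_sum fun i _ => Finset.sum_le_sum fun j _ => ?_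
    split_ifs with h
    · exact le_rfl
    · exact hf.attr _ _ (far (hx i).2 (hx j).2 h))
  have e : (fun η => Wt μ f η * ind (fun _ => True) η) = Wt μ f := by ext η; simp [ind]
  rw [e, lam_eq hf.neg _ _ (Nat.cast_nonneg _), lam_eq hf.neg _ _ (Nat.cast_nonneg _),
    ofReal_exp_pow, ofReal_exp_mul] at h
  have := le_of_exp h
  push_cast at this ⊢
  linarith

lemma P_bdd {f : E → E → ℝ} (hf : Neg f) (μ : ℝ) (l : ℕ) :
    xi μ f l / ((l : ℝ) + 2) ^ 3 ≤ Real.exp μ := by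
  have h0 : (0 : ℝ) ≤ l := Nat.cast_nonneg l
  rw [div_le_iff₀ (by positivity)]
  refine (xi_le hf μ l h0).trans ?_
  gcongr; linarith

lemma P1 {f : E → E → ℝ} (hf : Neg f) (μ : ℝ) (l : ℕ) : xi μ f l ≤ ((l : ℝ) + 2) ^ 3 * P f μ := by
  have h : xi μ f l / ((l : ℝ) + 2) ^ 3 ≤ P f μ :=
    le_ciSup (f := fun l : ℕ => xi μ f l / ((l : ℝ) + 2) ^ 3)
      ⟨Real.exp μ, by rintro _ ⟨l, rfl⟩; exact P_bdd hf μ l⟩ l
  rwa [div_le_iff₀ (by positivity), mul_comm] at h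

lemma P_le {f : E → E → ℝ} (hf : Neg f) (μ : ℝ) : P f μ ≤ Real.exp μ := ciSup_le (P_bdd hf μ)

lemma P_nonneg {f : E → E → ℝ} (hf : Neg f) (μ : ℝ) : 0 ≤ P f μ := by
  have h1 := P1 hf μ 0
  have h2 := xi_nonneg hf μ (0 : ℕ) (by simp)
  norm_num at h1 h2
  linarith

lemma cubic {a b C : ℝ} (m0 : ℕ) (h : ∀ m : ℕ, m0 ≤ m → 1 ≤ m → a * m ^ 3 ≤ b * m ^ 3 + C * m ^ 2) :
    a ≤ b := by
  by_contra hab
  push Not at hab
  obtain ⟨n, hn⟩ := exists_nat_gt (C / (a - b))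
  have h1 := h (n + m0 + 1) (by omega) (by omega)
  have h2 : (0 : ℝ) < ((n + m0 + 1 : ℕ) : ℝ) := by positivity
  have h3 : (n : ℝ) ≤ ((n + m0 + 1 : ℕ) : ℝ) := by exact_mod_cast (by omega)
  rw [div_lt_iff₀ (by linarith)] at hn
  set t : ℝ := ((n + m0 + 1 : ℕ) : ℝ)
  have h4 : C < t * (a - b) := by nlinarith
  have h5 : 0 < t ^ 2 := by positivity
  nlinarith

lemma P2 {f : E → E → ℝ} (hf : Good f) (μ : ℝ) (d : ℕ) {Y C : ℝ}
    (h : ∀ m : ℕ, 1 ≤ m → xi μ f (m * d : ℕ) ≤ Y * m ^ 3 + C * m ^ 2) :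
    (d : ℝ) ^ 3 * P f μ ≤ Y := by
  have key : ∀ l : ℕ, (d : ℝ) ^ 3 * (xi μ f l / ((l : ℝ) + 2) ^ 3) ≤ Y := by
    intro l
    have hl : (0 : ℝ) < (l : ℝ) + 2 := by positivity
    rw [← mul_div_assoc, div_le_iff₀ (by positivity)]
    refine cubic (C := C * ((l : ℝ) + 2) ^ 2) 0 fun j _ hj => ?_
    have h1 := superadd hf μ l (j * d)
    have h2 := h (j * (l + 2)) (by nlinarith)
    have e : j * d * (l + 2) = j * (l + 2) * d := by ring
    rw [e] at h1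
    have h3 := h1.trans h2
    push_cast at h3
    nlinarith
  rcases Nat.eq_zero_or_pos d with rfl | hd
  · simpa using key 0
  · have hd' : (0 : ℝ) < (d : ℝ) ^ 3 := by positivity
    rw [mul_comm, ← le_div_iff₀ hd']
    refine ciSup_le fun l => ?_
    rw [le_div_iff₀ hd', mul_comm]
    exact key l

lemma P3 {f : E → E → ℝ} (hf : Neg f) (μ : ℝ) (d m0 : ℕ) {Y C : ℝ}
    (h : ∀ m : ℕ, m0 ≤ m → 1 ≤ m → Y * m ^ 3 ≤ xi μ f (m * d : ℕ) + C * m ^ 2) :
    Y ≤ (d : ℝ) ^ 3 * P f μ := by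
  have hP := P_nonneg hf μ
  refine cubic (C := C + (6 * d ^ 2 + 12 * d + 8) * P f μ) m0 fun m hm hm1 => ?_
  have h1 := h m hm hm1
  have h2 := P1 hf μ (m * d)
  have hm' : (1 : ℝ) ≤ m := by exact_mod_cast hm1
  have hd : (0 : ℝ) ≤ d := Nat.cast_nonneg d
  have h3 : (((m * d : ℕ) : ℝ) + 2) ^ 3 ≤ d ^ 3 * m ^ 3 + (6 * d ^ 2 + 12 * d + 8) * m ^ 2 := by
    push_cast
    have a1 : (m : ℝ) ≤ m ^ 2 := by nlinarith
    have a2 : (1 : ℝ) ≤ m ^ 2 := by nlinarith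
    have a3 : (d : ℝ) * m ≤ d * m ^ 2 := mul_le_mul_of_nonneg_left a1 hd
    nlinarith
  have h4 := mul_le_mul_of_nonneg_right h3 hP
  nlinarith

lemma P4 {f : E → E → ℝ} (hf : Good f) (μ : ℝ) (A : ℝ → Set E) (h1 : ∀ L, box L ⊆ A L)
    (h2 : ∀ L, A L ⊆ box (L + 1)) :
    Tendsto (fun L : ℝ => Real.log (lam (A L) (Wt μ f)).toReal / L ^ 3) atTop (𝓝 (P f μ)) := by
  have hP := P_nonneg hf.neg μ
  have hb : ∀ L, 0 ≤ L → xi μ f L ≤ Real.log (lam (A L) (Wt μ f)).toReal ∧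
      Real.log (lam (A L) (Wt μ f)).toReal ≤ xi μ f (L + 1) := by
    intro L hL
    have a1 := lam_mono_set (h1 L) (Wt μ f)
    have a2 := lam_mono_set (h2 L) (Wt μ f)
    rw [lam_eq hf.neg _ _ hL] at a1
    rw [lam_eq hf.neg _ _ (by linarith)] at a2
    have e := eq_exp_log (zero_lt_one.trans_le (one_le_lam (A L) μ f)).ne'
      (a2.trans_lt ENNReal.ofReal_lt_top).ne
    rw [e] at a1 a2
    exact ⟨le_of_exp a1, le_of_exp a2⟩
  have hlim : ∀ u : ℝ, Tendsto (fun L : ℝ => ((L + u) / L) ^ 3) atTop (𝓝 1) := by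
    intro u
    have : Tendsto (fun L : ℝ => 1 + u / L) atTop (𝓝 (1 + 0)) :=
      tendsto_const_nhds.add (tendsto_const_nhds.div_atTop tendsto_id)
    have h3 := this.pow 3
    simp only [add_zero, one_pow] at h3
    refine h3.congr' ?_
    filter_upwards [eventually_gt_atTop 0] with L hL
    field_simp
  rw [tendsto_order]
  constructor
  · intro a ha
    obtain ⟨l, hl⟩ := exists_lt_of_lt_ciSup ha
    have hx := xi_nonneg hf.neg μ l (Nat.cast_nonneg l)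
    set q := xi μ f l / ((l : ℝ) + 2) ^ 3 with hq
    have hq0 : 0 ≤ q := by positivity
    have ht := (hlim (-((l : ℝ) + 2))).mul_const q
    rw [one_mul] at ht
    filter_upwards [ht.eventually (lt_mem_nhds hl), eventually_ge_atTop ((l : ℝ) + 2)] with L hL hL2
    refine hL.trans_le ?_
    have hl2 : (0 : ℝ) < (l : ℝ) + 2 := by positivity
    have hL0 : 0 < L := by linarith
    set m := ⌊L / ((l : ℝ) + 2)⌋₊
    have m1 : (m : ℝ) ≤ L / ((l : ℝ) + 2) := Nat.floor_le (by positivity)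
    have m2 : L / ((l : ℝ) + 2) < m + 1 := Nat.lt_floor_add_one _
    rw [le_div_iff₀ hl2] at m1
    rw [div_lt_iff₀ hl2] at m2
    have s1 := superadd hf μ l m
    have s2 := xi_mono hf.neg μ (l := (m * (l + 2) : ℕ)) (l' := L) (Nat.cast_nonneg _)
      (by push_cast; exact m1)
    rw [div_pow, div_mul_eq_mul_div]
    refine div_le_div_of_nonneg_right ?_ (by positivity)
    refine le_trans ?_ (s1.trans (s2.trans (hb L hL0.le).1))
    have e : (m : ℝ) ^ 3 * xi μ f l = (m * ((l : ℝ) + 2)) ^ 3 * q := by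
      rw [hq]; field_simp
    rw [e]
    gcongr
    · linarith
    · linarith
  · intro a ha
    have ht := (hlim 4).mul_const (P f μ)
    rw [one_mul] at ht
    filter_upwards [ht.eventually (gt_mem_nhds ha), eventually_gt_atTop 0] with L hL hL0
    refine lt_of_le_of_lt ?_ hL
    rw [div_pow, div_mul_eq_mul_div]
    refine div_le_div_of_nonneg_right ?_ (by positivity)
    have c1 : L + 1 ≤ ((⌈L⌉₊ + 1 : ℕ) : ℝ) := by push_cast; linarith [Nat.le_ceil L]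
    have c2 : ((⌈L⌉₊ + 1 : ℕ) : ℝ) + 2 ≤ L + 4 := by
      push_cast; linarith [Nat.ceil_lt_add_one hL0.le]
    refine (hb L hL0.le).2.trans ((xi_mono hf.neg μ (by linarith) c1).trans
      ((P1 hf.neg μ _).trans ?_))
    gcongr

end

end Vale.Agent.P171.K
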