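import Vale.Agent.P171.K3

/-! Counting lemmas. -/

open Set

namespace Vale.Agent.P171.K

noncomputable section

abbrev Z3 := Fin 3 → ℤ

def chi (p : Prop) : ℝ := by classical exact if p then 1 else 0

lemma chi_pos {p : Prop} (h : p) : chi p = 1 := by simp [chi, h]
lemma chi_neg {p : Prop} (h : ¬ p) : chi p = 0 := by simp [chi, h]
lemma chi_nonneg (p : Prop) : 0 ≤ chi p := by unfold chi; split_ifs <;> norm_num
lemma chi_mono {p q : Prop} (h : p → q) : chi p ≤ chi q := by
  by_cases hp : p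
  · rw [chi_pos hp, chi_pos (h hp)]
  · rw [chi_neg hp]; exact chi_nonneg _

lemma sum_chi {ι : Type} [Fintype ι] (p : ι → Prop) [DecidablePred p] :
    ∑ i, chi (p i) = (Finset.univ.filter p).card := by
  rw [Finset.card_filter]; push_cast
  refine Finset.sum_congr rfl fun i _ => ?_
  unfold chi; congr

lemma chi_mem_sum (T : Finset Z3) (a b : Z3) : chi (a - b ∈ T) = ∑ v ∈ T, chi (a = b + v) := by
  by_cases h : a - b ∈ T
  · rw [chi_pos h, Finset.sum_eq_single (a - b)]
    · rw [chi_pos (by abel)]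
    · intro v _ hv; exact chi_neg fun e => hv (by rw [e]; abel)
    · intro h'; exact absurd h h'
  · rw [chi_neg h]; symm
    exact Finset.sum_eq_zero fun v hv => chi_neg fun e => h (by rw [e]; simpa using hv)

lemma count {N : ℕ} (β : Fin N → Z3) (T : Finset Z3) :
    ∑ i, ∑ j, chi (β j - β i ∈ T) ≤ T.card * ∑ i, ∑ j, chi (β i = β j) := by
  classical
  set n : Z3 → ℝ := fun b => ∑ j, chi (β j = b) with hn
  have hn' : ∀ b, n b = (Finset.univ.filter fun j => β j = b).card := fun b => sum_chi _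
  set G := Finset.univ.image β
  have h1 : ∀ F : Z3 → ℝ, ∑ i, F (β i) = ∑ b ∈ G, n b * F b := fun F => by
    rw [Finset.sum_comp]; simp [hn', G]
  have h2 : ∑ i, ∑ j, chi (β i = β j) = ∑ b ∈ G, n b ^ 2 := by
    have := h1 n
    simp only [sq]
    rw [← this]
    simp only [hn, eq_comm]
  have h3 : ∀ v, ∑ i, ∑ j, chi (β j = β i + v) ≤ ∑ b ∈ G, n b ^ 2 := by
    intro v
    have a1 := h1 (fun b => n (b + v))
    have a2 : ∑ b ∈ G, n (b + v) ^ 2 ≤ ∑ b ∈ G, n b ^ 2 := by
      rw [← Finset.sum_image (s := G) (g := fun b => b + v) (f := fun b => n b ^ 2)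
        (fun a _ b _ h => add_right_cancel h)]
      rw [← Finset.sum_filter_ne_zero]
      refine Finset.sum_le_sum_of_subset_of_nonneg (fun b hb => ?_) fun _ _ _ => sq_nonneg _
      by_contra hG
      apply (Finset.mem_filter.1 hb).2
      have : n b = 0 := Finset.sum_eq_zero fun j _ => chi_neg fun e =>
        hG (e ▸ Finset.mem_image_of_mem β (Finset.mem_univ j))
      simp [this]
    have a3 : ∑ b ∈ G, 2 * (n b * n (b + v)) ≤ ∑ b ∈ G, (n b ^ 2 + n (b + v) ^ 2) :=
      Finset.sum_le_sum fun b _ => by nlinarith [sq_nonneg (n b - n (b + v))]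
    rw [Finset.sum_add_distrib, ← Finset.mul_sum] at a3
    change ∑ i, n (β i + v) ≤ _
    linarith
  simp only [chi_mem_sum]
  calc ∑ i, ∑ j, ∑ v ∈ T, chi (β j = β i + v) = ∑ v ∈ T, ∑ i, ∑ j, chi (β j = β i + v) := by
        rw [Finset.sum_comm (s := T)]
        exact Finset.sum_congr rfl fun i _ => Finset.sum_comm
    _ ≤ ∑ _v ∈ T, ∑ b ∈ G, n b ^ 2 := Finset.sum_le_sum fun v _ => h3 v
    _ = _ := by rw [h2]; simp

def zcube (r : ℕ) : Finset Z3 := Fintype.piFinset fun _ => Finset.Icc (-(r : ℤ)) r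

lemma card_zcube (r : ℕ) : (zcube r).card = (2 * r + 1) ^ 3 := by
  simp only [zcube, Fintype.card_piFinset, Int.card_Icc, Finset.prod_const, Finset.card_univ,
    Fintype.card_fin]
  congr 1; omega

lemma mem_zcube {r : ℕ} {v : Z3} : v ∈ zcube r ↔ ∀ c, |v c| ≤ r := by
  simp [zcube, abs_le]

lemma count_low {N m r n : ℕ} (β : Fin N → Z3) (T : Finset Z3) (hT : T ⊆ zcube r)
    (hm : 2 * r ≤ m) (hβ : ∀ i, β i ∈ grid m)
    (hn : ∀ b ∈ grid m, (Finset.univ.filter fun i => β i = b).card = n) :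
    ((m : ℝ) - 2 * r) ^ 3 * (T.card * n ^ 2) ≤ ∑ i, ∑ j, chi (β j - β i ∈ T) := by
  classical
  set F : Z3 → ℝ := fun b => ∑ j, chi (β j - b ∈ T) with hF
  have hF0 : ∀ b, 0 ≤ F b := fun b => Finset.sum_nonneg fun _ _ => chi_nonneg _
  have h1 : ∑ i, F (β i) = ∑ b ∈ grid m, n * F b := by
    rw [← Finset.sum_fiberwise_of_maps_to (s := Finset.univ) (t := grid m) (g := β)
      (fun i _ => hβ i)]
    refine Finset.sum_congr rfl fun b hb => ?_
    rw [Finset.sum_congr rfl (g := fun _ => F b) (fun i hi => by rw [(Finset.mem_filter.1 hi).2])]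
    simp [hn b hb]
  set I : Finset Z3 := Fintype.piFinset fun _ => Finset.Ico (r : ℤ) (m - r)
  have hI : I ⊆ grid m := by
    intro b hb
    simp only [I, grid, Fintype.mem_piFinset, Finset.mem_Ico] at hb ⊢
    intro c; have := hb c; omega
  have hIc : (I.card : ℝ) = ((m : ℝ) - 2 * r) ^ 3 := by
    simp only [I, Fintype.card_piFinset, Int.card_Ico, Finset.prod_const, Finset.card_univ,
      Fintype.card_fin]
    have : ((m : ℤ) - r - r).toNat = m - 2 * r := by omega
    rw [this]; push_cast [hm]; ring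
  have h2 : ∀ b ∈ I, F b = T.card * n := by
    intro b hb
    simp only [hF, chi_mem_sum]
    rw [Finset.sum_comm]
    rw [Finset.sum_congr rfl (g := fun _ => (n : ℝ))]
    · simp
    · intro v hv
      rw [sum_chi, hn]
      have h3 := mem_zcube.1 (hT hv)
      simp only [I, grid, Fintype.mem_piFinset, Finset.mem_Ico] at hb ⊢
      intro c
      have := hb c
      have := abs_le.1 (h3 c)
      simp only [Pi.add_apply]; omega
  change _ ≤ ∑ i, F (β i)
  rw [h1]
  refine le_trans ?_ (Finset.sum_le_sum_of_subset_of_nonneg hI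
    fun b _ _ => mul_nonneg (Nat.cast_nonneg _) (hF0 b))
  rw [Finset.sum_congr rfl (g := fun _ => (n : ℝ) * (T.card * n)) (fun b hb => by rw [h2 b hb])]
  simp only [Finset.sum_const, nsmul_eq_mul, hIc]
  apply le_of_eq; ring

def same (x y : E) : ℝ := chi (idx 1 0 x = idx 1 0 y)

def Q {N : ℕ} (x : Fin N → E) : ℝ := ∑ i, ∑ j, same (x i) (x j)

lemma idx_one (x : E) (c : Fin 3) : idx 1 0 x c = ⌊x c⌋ := by simp [idx]

lemma cell_zcube {x y : E} {R : ℕ} (h : ∀ c, |x c - y c| ≤ R) : idx 1 0 y - idx 1 0 x ∈ zcube R := by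
  rw [mem_zcube]
  intro c
  have h1 := abs_le.1 (h c)
  simp only [Pi.sub_apply, idx_one]
  have a1 : ⌊y c⌋ ≤ ⌊x c + R⌋ := Int.floor_mono (by linarith [h1.1])
  have a2 : ⌊x c⌋ ≤ ⌊y c + R⌋ := Int.floor_mono (by linarith [h1.2])
  rw [Int.floor_add_natCast] at a1 a2
  rw [abs_le]; omega

lemma count_near {N : ℕ} (x : Fin N → E) (R : ℕ) :
    ∑ i, ∑ j, chi (dist (x i) (x j) ≤ R) ≤ (2 * R + 1) ^ 3 * Q x := by
  have h := count (fun i => idx 1 0 (x i)) (zcube R)
  rw [card_zcube] at h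
  push_cast at h
  refine le_trans (Finset.sum_le_sum fun i _ => Finset.sum_le_sum fun j _ => chi_mono fun hd => ?_) h
  exact cell_zcube fun c => (coord_le_dist _ _ c).trans hd

lemma count_box {N : ℕ} (x : Fin N → E) (l : ℕ) (hx : ∀ i, x i ∈ box l) :
    (N : ℝ) ^ 2 ≤ (2 * l + 1) ^ 3 * Q x := by
  have h := count (fun i => idx 1 0 (x i)) (zcube l)
  rw [card_zcube] at h
  push_cast at h
  refine le_trans (le_of_eq ?_) h
  rw [Finset.sum_congr rfl (g := fun _ => (N : ℝ))]
  · simp [sq]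
  · intro i _
    rw [Finset.sum_congr rfl (g := fun _ => (1 : ℝ))]
    · simp
    · intro j _
      refine chi_pos (cell_zcube fun c => ?_)
      have := hx i c
      have := hx j c
      rw [abs_le]; constructor <;> linarith

lemma norm_le_two {e : E} {a : ℝ} (ha : 0 < a) (h : ∀ c, |e c| < a) : ‖e‖ < 2 * a := by
  have h1 : ‖e‖ ^ 2 < (2 * a) ^ 2 := by
    rw [EuclideanSpace.real_norm_sq_eq, Fin.sum_univ_three]
    have := sq_lt_sq' (abs_lt.1 (h 0)).1 (abs_lt.1 (h 0)).2
    have := sq_lt_sq' (abs_lt.1 (h 1)).1 (abs_lt.1 (h 1)).2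
    have := sq_lt_sq' (abs_lt.1 (h 2)).1 (abs_lt.1 (h 2)).2
    nlinarith
  exact lt_of_pow_lt_pow_left₀ 2 (by positivity) h1

lemma same_le (x y : E) : same x y ≤ chi (dist x y < 2) := by
  refine chi_mono fun h => ?_
  rw [dist_eq_norm]
  have := norm_le_two (e := x - y) one_pos fun c => by
    have h1 := congrFun h c
    rw [idx_one, idx_one] at h1
    have h2 : (⌊x c⌋ : ℝ) = ⌊y c⌋ := by exact_mod_cast h1
    have := Int.floor_le (x c)
    have := Int.floor_le (y c)
    have := Int.lt_floor_add_one (x c)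
    have := Int.lt_floor_add_one (y c)
    simp only [PiLp.sub_apply]
    rw [abs_lt]; constructor <;> linarith
  linarith

lemma le_Q {N : ℕ} (x : Fin N → E) : (N : ℝ) ≤ Q x := by
  have : ∑ _i : Fin N, (1 : ℝ) ≤ Q x := Finset.sum_le_sum fun i _ => by
    refine le_trans ?_ (Finset.single_le_sum (f := fun j => same (x i) (x j))
      (fun _ _ => chi_nonneg _) (Finset.mem_univ i))
    simp [same, chi]
  simpa using this

lemma Q_nonneg {N : ℕ} (x : Fin N → E) : 0 ≤ Q x := (Nat.cast_nonneg N).trans (le_Q x)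

lemma idx_of_same (d s : ℕ) {x y : E} (h : idx 1 0 x = idx 1 0 y) : idx d s x = idx d s y := by
  ext c
  have h1 := congrFun h c
  rw [idx_one, idx_one] at h1
  simp only [idx]
  rw [Int.floor_div_natCast, Int.floor_div_natCast, Int.floor_add_natCast, Int.floor_add_natCast, h1]

lemma sep_one {d R : ℕ} (hd : 0 < d) (a b : ℝ) (h : |a - b| ≤ R) :
    ((Finset.range d).filter fun s : ℕ => ⌊(a + s) / d⌋ ≠ ⌊(b + s) / d⌋).card ≤ R := by
  wlog hab : a ≤ b generalizing a b
  · have := this b a (by rwa [abs_sub_comm]) (le_of_not_ge hab)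
    simpa only [ne_comm] using this
  have hb : ⌊b⌋ ≤ ⌊a⌋ + R := by
    rw [← Int.floor_add_natCast]; exact Int.floor_mono (by linarith [(abs_le.1 h).1])
  have hd' : (0 : ℤ) < d := by exact_mod_cast hd
  have hab' : ⌊a⌋ ≤ ⌊b⌋ := Int.floor_mono hab
  have : (Finset.Ioc ⌊a⌋ (⌊a⌋ + R)).card = R := by simp
  rw [← this]
  refine Finset.card_le_card_of_injOn (fun s : ℕ => (d : ℤ) * ((⌊b⌋ + s) / d) - s) ?_ ?_
  · intro s hs
    simp only [Finset.coe_filter, Finset.mem_range, mem_ofPred_eq, Int.floor_div_natCast,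
      Int.floor_add_natCast] at hs
    simp only [Finset.coe_Ioc, mem_Ioc]
    have h1 : (⌊a⌋ + s) / (d : ℤ) ≤ (⌊b⌋ + s) / d := Int.ediv_le_ediv hd' (by omega)
    have h2 : (⌊a⌋ + s) / (d : ℤ) + 1 ≤ (⌊b⌋ + s) / d := by have := hs.2; omega
    have h3 := Int.lt_mul_ediv_self_add (x := ⌊a⌋ + s) hd'
    have h4 := Int.mul_ediv_self_le (x := ⌊b⌋ + s) hd'.ne'
    constructor <;> nlinarith
  · intro s hs t ht hst
    simp only [Finset.coe_filter, Finset.mem_range, mem_ofPred_eq] at hs ht hst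
    have h1 : (d : ℤ) ∣ (s : ℤ) - t := ⟨(⌊b⌋ + s) / d - (⌊b⌋ + t) / d, by linarith⟩
    have h2 := Int.eq_zero_of_dvd_of_natAbs_lt_natAbs h1 (by have := hs.1; have := ht.1; omega)
    omega

lemma sep_three {d R : ℕ} (hd : 0 < d) {x y : E} (h : dist x y ≤ R) :
    ∑ s ∈ Finset.range d, chi (idx d s x ≠ idx d s y) ≤ 3 * R := by
  have h1 : ∀ s : ℕ, chi (idx d s x ≠ idx d s y) ≤
      ∑ c, chi (⌊(x c + s) / d⌋ ≠ ⌊(y c + s) / d⌋) := by
    intro s
    by_cases e : idx d s x ≠ idx d s y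
    · obtain ⟨c, hc⟩ := Function.ne_iff.1 e
      refine le_trans ?_ (Finset.single_le_sum (f := fun c => chi (⌊(x c + s) / d⌋ ≠ ⌊(y c + s) / d⌋))
        (fun _ _ => chi_nonneg _) (Finset.mem_univ c))
      exact chi_mono fun _ => hc
    · rw [chi_neg e]; exact Finset.sum_nonneg fun _ _ => chi_nonneg _
  refine (Finset.sum_le_sum fun s _ => h1 s).trans ?_
  rw [Finset.sum_comm]
  have h2 : ∀ c, ∑ s ∈ Finset.range d, chi (⌊(x c + s) / d⌋ ≠ ⌊(y c + s) / d⌋) ≤ R := by
    intro c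
    have := sep_one hd (x c) (y c) ((coord_le_dist _ _ c).trans h)
    rw [Finset.card_filter] at this
    have h3 : ((∑ s ∈ Finset.range d, if ⌊(x c + s) / d⌋ ≠ ⌊(y c + s) / d⌋ then 1 else 0 : ℕ) : ℝ)
        ≤ R := by exact_mod_cast this
    push_cast at h3
    refine le_trans (le_of_eq (Finset.sum_congr rfl fun s _ => ?_)) h3
    unfold chi; congr
  refine (Finset.sum_le_sum fun c _ => h2 c).trans (by simp)

lemma shift_avg {d R N : ℕ} (hd : 0 < d) (ψ : ℝ → ℝ) (h0 : ∀ r, 0 ≤ ψ r) (hR : ∀ r, (R : ℝ) < r → ψ r = 0)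
    (x : Fin N → E) : ∃ s ∈ Finset.range d,
      ∑ i, ∑ j, chi (idx d s (x i) ≠ idx d s (x j)) * ψ (dist (x i) (x j)) ≤
        3 * R / d * ∑ i, ∑ j, ψ (dist (x i) (x j)) := by
  refine Finset.exists_le_of_sum_le ⟨0, Finset.mem_range.2 hd⟩ ?_
  have hd' : (0 : ℝ) < d := by exact_mod_cast hd
  rw [Finset.sum_const, Finset.card_range, nsmul_eq_mul, ← mul_assoc, mul_div_cancel₀ _ hd'.ne',
    Finset.sum_comm, Finset.mul_sum]
  refine Finset.sum_le_sum fun i _ => ?_
  rw [Finset.sum_comm, Finset.mul_sum]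
  refine Finset.sum_le_sum fun j _ => ?_
  rw [← Finset.sum_mul]
  by_cases h : dist (x i) (x j) ≤ R
  · exact mul_le_mul_of_nonneg_right (sep_three hd h) (h0 _)
  · rw [hR _ (not_le.1 h)]; simp

open Classical in
def ball (s : ℕ) : Finset Z3 := (zcube s).filter fun v => ‖vec v‖ ≤ s

lemma mem_ball {s : ℕ} {v : Z3} : v ∈ ball s ↔ ‖vec v‖ ≤ s := by
  simp only [ball, Finset.mem_filter, and_iff_right_iff_imp, mem_zcube]
  intro h c
  have := (PiLp.norm_apply_le (vec v) c).trans h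
  rw [vec_apply, Real.norm_eq_abs] at this
  exact_mod_cast this

lemma ball_sub (s : ℕ) : ball s ⊆ zcube s := by classical exact Finset.filter_subset _ _

lemma ball_low (r : ℕ) : r ^ 3 ≤ (ball (2 * r + 2)).card := by
  have : zcube r ⊆ ball (2 * r + 2) := by
    intro v hv
    rw [mem_ball]
    have := norm_le_two (e := vec v) (a := r + 1) (by positivity) fun c => by
      have : |(v c : ℝ)| ≤ r := by exact_mod_cast mem_zcube.1 hv c
      rw [vec_apply]; linarith
    push_cast; linarith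
  refine le_trans ?_ (Finset.card_le_card this)
  rw [card_zcube]; gcongr; omega

lemma ball_mono {s t : ℕ} (h : s ≤ t) : ball s ⊆ ball t := fun v hv => by
  rw [mem_ball] at hv ⊢
  exact hv.trans (by exact_mod_cast h)

lemma pigeon (r : ℕ) (hr : 2 ≤ r) : ∃ s : ℕ, s + 5 ≤ 8 * r ∧ r ^ 3 ≤ (ball s).card ∧
    (ball (s + 5)).card ≤ (ball s).card + 4913 * r ^ 2 := by
  by_contra h
  push Not at h
  have h1 : ∀ i, i ≤ r → i * (4913 * r ^ 2 + 1) ≤ (ball (3 * r + 5 * i)).card := by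
    intro i
    induction i with
    | zero => simp
    | succ i ih =>
      intro hi
      have a1 := ih (by omega)
      have a2 := h (3 * r + 5 * i) (by omega)
        ((ball_low r).trans (Finset.card_le_card (ball_mono (by omega))))
      have e : 3 * r + 5 * (i + 1) = 3 * r + 5 * i + 5 := by ring
      rw [e]; nlinarith
  have h2 := (h1 r le_rfl).trans (Finset.card_le_card (ball_sub _))
  rw [card_zcube] at h2
  have h3 : (2 * (3 * r + 5 * r) + 1) ^ 3 ≤ (17 * r) ^ 3 := by gcongr; omega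
  nlinarith

lemma idx_up {l s ρ : ℕ} (hl : 0 < l) {x y : E} (h : dist x y ≤ (ρ * l : ℕ)) :
    idx l s y - idx l s x ∈ ball (ρ + 2) := by
  rw [mem_ball]
  have hl' : (0 : ℝ) < l := by exact_mod_cast hl
  have h1 := norm_le_two (e := vec (idx l s y - idx l s x) - (l : ℝ)⁻¹ • (y - x)) one_pos fun c => by
    have := Int.floor_le ((x c + s) / l)
    have := Int.floor_le ((y c + s) / l)
    have := Int.lt_floor_add_one ((x c + s) / l)
    have := Int.lt_floor_add_one ((y c + s) / l)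
    have e : (l : ℝ)⁻¹ * (y c - x c) = (y c + s) / l - (x c + s) / l := by field_simp; ring
    simp only [PiLp.sub_apply, PiLp.smul_apply, vec_apply, Pi.sub_apply, idx, smul_eq_mul, e]
    push_cast
    rw [abs_lt]; constructor <;> linarith
  have h2 : ‖(l : ℝ)⁻¹ • (y - x)‖ ≤ ρ := by
    rw [norm_smul, norm_inv, Real.norm_natCast, ← dist_eq_norm, dist_comm, inv_mul_le_iff₀ hl']
    push_cast at h; linarith
  have h3 := norm_add_le (vec (idx l s y - idx l s x) - (l : ℝ)⁻¹ • (y - x)) ((l : ℝ)⁻¹ • (y - x))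
  rw [sub_add_cancel] at h3
  push_cast; linarith

lemma idx_low {l s : ℕ} (hl : 0 < l) (hs : 2 * s ≤ l) {x y : E} {b b' : Z3}
    (hx : x ∈ boxAt (l + 2) 0 l b) (hy : y ∈ boxAt (l + 2) 0 l b') (h : b' - b ∈ ball s) :
    dist x y ≤ ((s + 3) * l : ℕ) := by
  rw [mem_ball] at h
  have hl' : (0 : ℝ) < l := by exact_mod_cast hl
  have hs' : 2 * (s : ℝ) ≤ l := by exact_mod_cast hs
  have h1 := norm_le_two (e := (y - x) - ((l : ℝ) + 2) • vec (b' - b)) hl' fun c => by
    have a1 := hx c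
    have a2 := hy c
    simp only [PiLp.sub_apply, PiLp.smul_apply, vec_apply, Pi.sub_apply, smul_eq_mul]
    push_cast at a1 a2 ⊢
    rw [abs_lt]; constructor <;> linarith [a1.1, a1.2, a2.1, a2.2]
  have h2 : ‖((l : ℝ) + 2) • vec (b' - b)‖ ≤ ((l : ℝ) + 2) * s := by
    rw [norm_smul, Real.norm_of_nonneg (by positivity)]
    gcongr
  have h3 := norm_add_le ((y - x) - ((l : ℝ) + 2) • vec (b' - b)) (((l : ℝ) + 2) • vec (b' - b))
  rw [sub_add_cancel] at h3
  rw [dist_comm, dist_eq_norm]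
  push_cast; nlinarith

end

end Vale.Agent.P171.K
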