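import Mathlib

/-! The abstract kink propagation lemma. -/

namespace Vale.Agent.P171.K

def Kink (p : ℝ → ℝ) (K μ0 a b δ : ℝ) : Prop :=
  ∀ μ ≤ K, (μ ≤ μ0 → p μ0 - δ + a * (μ - μ0) ≤ p μ) ∧ (μ0 ≤ μ → p μ0 - δ + b * (μ - μ0) ≤ p μ)

lemma Kink.mono {p : ℝ → ℝ} {K μ0 a b δ a' b' δ' : ℝ} (h : Kink p K μ0 a b δ) (ha : a ≤ a')
    (hb : b' ≤ b) (hd : δ ≤ δ') : Kink p K μ0 a' b' δ' := by
  intro μ hμ
  constructor
  · intro h1; have := (h μ hμ).1 h1; nlinarith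
  · intro h1; have := (h μ hμ).2 h1; nlinarith

lemma two_max {ι : Type} (D : Finset ι) (ρ G : ι → ℝ) (c : ℝ) (n1 n2 : ι) (h1 : n1 ∈ D)
    (h2 : n2 ∈ D) (c1 : ρ n1 ≤ c) (c2 : c < ρ n2) :
    ∃ μ : ℝ, ∃ m1 ∈ D, ∃ m2 ∈ D, ρ m1 ≤ c ∧ c < ρ m2 ∧ μ * ρ m2 + G m2 = μ * ρ m1 + G m1 ∧
      ∀ n ∈ D, μ * ρ n + G n ≤ μ * ρ m1 + G m1 := by
  classical
  set D1 := D.filter fun n => ρ n ≤ c
  set D2 := D.filter fun n => c < ρ n
  have e1 : D1.Nonempty := ⟨n1, Finset.mem_filter.2 ⟨h1, c1⟩⟩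
  have e2 : D2.Nonempty := ⟨n2, Finset.mem_filter.2 ⟨h2, c2⟩⟩
  set s : ι → ι → ℝ := fun i j => (G i - G j) / (ρ j - ρ i) with hs
  have hmin : ∀ i, ∃ j ∈ D2, ∀ k ∈ D2, s i j ≤ s i k := fun i => D2.exists_min_image _ e2
  choose j hj hj' using hmin
  obtain ⟨m1, hm1, hmax⟩ := D1.exists_max_image (fun i => s i (j i)) e1
  have a1 := (Finset.mem_filter.1 hm1)
  have a2 := (Finset.mem_filter.1 (hj m1))
  have key : ∀ k ∈ D2, s m1 (j m1) * ρ k + G k ≤ s m1 (j m1) * ρ m1 + G m1 := by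
    intro k hk
    have b1 := hj' m1 k hk
    have b2 : 0 < ρ k - ρ m1 := by linarith [(Finset.mem_filter.1 hk).2, a1.2]
    rw [show s m1 k = (G m1 - G k) / (ρ k - ρ m1) from rfl, le_div_iff₀ b2] at b1
    linarith
  refine ⟨s m1 (j m1), m1, a1.1, j m1, a2.1, a1.2, a2.2, ?_, fun n hn => ?_⟩
  · have b2 : ρ (j m1) - ρ m1 ≠ 0 := by linarith [a1.2, a2.2] |> ne_of_gt
    have : s m1 (j m1) * (ρ (j m1) - ρ m1) = G m1 - G (j m1) := div_mul_cancel₀ _ b2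
    linarith
  · by_cases hc : ρ n ≤ c
    · have b1 := hmax n (Finset.mem_filter.2 ⟨hn, hc⟩)
      have b2 : 0 < ρ (j n) - ρ n := by linarith [(Finset.mem_filter.1 (hj n)).2]
      have b3 := key _ (hj n)
      rw [show s n (j n) = (G n - G (j n)) / (ρ (j n) - ρ n) from rfl, div_le_iff₀ b2] at b1
      linarith
    · exact key n (Finset.mem_filter.2 ⟨hn, not_le.1 hc⟩)

lemma chord {κ W δ1 h a b r1 r2 r q μ0 μ1 g1 g2 g : ℝ} (hκ : 0 < κ) (hW : 0 < W)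
    (hh : h = κ * W / 8) (hw : W / 2 ≤ r2 - r1) (ha : a ≤ r) (hb : r ≤ b) (h1 : r1 ≤ r)
    (h2 : r ≤ r2) (hg : μ0 * r + g ≤ q) (hg1 : q - δ1 - a * h ≤ (μ0 - h) * r1 + g1)
    (hg2 : q - δ1 + b * h ≤ (μ0 + h) * r2 + g2)
    (m1 : μ1 * r1 + (g1 + κ * r1 ^ 2) ≤ μ1 * r + (g + κ * r ^ 2))
    (m2 : μ1 * r2 + (g2 + κ * r2 ^ 2) ≤ μ1 * r + (g + κ * r ^ 2)) :
    κ * ((r - r1) * (r2 - r)) ≤ 2 * δ1 := by
  have hu : 0 ≤ r - r1 := by linarith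
  have hv : 0 ≤ r2 - r := by linarith
  have h0 : 0 < h := by rw [hh]; positivity
  have a1 : μ1 * r1 + κ * r1 ^ 2 - μ0 * r1 - δ1 - (r - r1) * h ≤ μ1 * r + κ * r ^ 2 - μ0 * r := by
    nlinarith
  have a2 : μ1 * r2 + κ * r2 ^ 2 - μ0 * r2 - δ1 - (r2 - r) * h ≤ μ1 * r + κ * r ^ 2 - μ0 * r := by
    nlinarith
  have a3 := mul_le_mul_of_nonneg_left a1 hv
  have a4 := mul_le_mul_of_nonneg_left a2 hu
  have a5 : κ * ((r - r1) * (r2 - r)) * (r2 - r1) ≤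
      δ1 * (r2 - r1) + 2 * h * ((r - r1) * (r2 - r)) := by nlinarith
  have a6 : 2 * h ≤ κ * (r2 - r1) / 2 := by rw [hh]; nlinarith
  have a7 := mul_le_mul_of_nonneg_right a6 (mul_nonneg hu hv)
  have a8 : 0 < r2 - r1 := by linarith
  have a9 : κ * ((r - r1) * (r2 - r)) * (r2 - r1) ≤ 2 * δ1 * (r2 - r1) := by nlinarith
  exact le_of_mul_le_mul_right a9 a8

lemma kink_step {ι : Type} (D : Finset ι) (ρ g : ι → ℝ) (p p' : ℝ → ℝ) {K e κ W δ a b μ0 : ℝ}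
    (hρ : ∀ n, 0 ≤ ρ n) (h1 : ∀ μ ≤ K, ∀ n ∈ D, μ * ρ n + g n ≤ p μ + e)
    (h2 : ∀ μ ≤ K, ∃ n ∈ D, p μ - e ≤ μ * ρ n + g n)
    (h3 : ∀ μ ≤ K, ∀ n ∈ D, μ * ρ n + (g n + κ * ρ n ^ 2) ≤ p' μ + e)
    (h4 : ∀ μ ≤ K, ∃ n ∈ D, p' μ - e ≤ μ * ρ n + (g n + κ * ρ n ^ 2))
    (hk : Kink p K μ0 a b δ) (hκ : 0 < κ) (hW : 0 < W) (hab : W ≤ b - a)
    (hK : μ0 + κ * W / 8 ≤ K) (hd : 0 ≤ δ + 2 * e) (hs : δ + 2 * e ≤ κ * W ^ 2 / 32) :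
    ∃ μ1 ≤ μ0 + κ * W / 8, Kink p' K μ1 (a + 16 * (δ + 2 * e) / (κ * W))
      (b - 16 * (δ + 2 * e) / (κ * W)) (2 * e) := by
  obtain ⟨h, hh⟩ : ∃ h, h = κ * W / 8 := ⟨_, rfl⟩
  obtain ⟨δ1, hδ1⟩ : ∃ δ1, δ1 = δ + 2 * e := ⟨_, rfl⟩
  rw [← hh] at hK ⊢
  rw [← hδ1] at hd hs ⊢
  have h0 : 0 < h := by rw [hh]; positivity
  obtain ⟨σ, hσ⟩ : ∃ σ, σ = δ1 / h := ⟨_, rfl⟩
  have hσ1 : σ * h = δ1 := by rw [hσ]; exact div_mul_cancel₀ _ h0.ne'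
  have hσ2 : 16 * δ1 / (κ * W) = 2 * σ := by rw [hσ, hh]; field_simp; ring
  have hσ0 : 0 ≤ σ := by rw [hσ]; positivity
  have hσ3 : σ ≤ W / 4 := by rw [hσ, div_le_iff₀ h0, hh]; linarith
  rw [hσ2]
  obtain ⟨n1, hn1, b1⟩ := h2 (μ0 - h) (by linarith)
  obtain ⟨n', hn', b'⟩ := h2 (μ0 + h) hK
  obtain ⟨n2, hn2, b2⟩ := D.exists_max_image (fun n => (μ0 + h) * ρ n + g n) ⟨n', hn'⟩
  have k1 := (hk (μ0 - h) (by linarith)).1 (by linarith)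
  have k2 := (hk (μ0 + h) hK).2 (by linarith)
  have q0 := h1 μ0 (by linarith)
  have g1 : (p μ0 + e) - δ1 - a * h ≤ (μ0 - h) * ρ n1 + g n1 := by linarith
  have g2 : (p μ0 + e) - δ1 + b * h ≤ (μ0 + h) * ρ n2 + g n2 := by
    have := b2 n' hn'; linarith
  have r1 : ρ n1 ≤ a + σ := by
    have := q0 n1 hn1
    have : ρ n1 * h ≤ (a + σ) * h := by linarith
    exact le_of_mul_le_mul_right this h0
  have r2 : b - σ ≤ ρ n2 := by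
    have := q0 n2 hn2
    have : (b - σ) * h ≤ ρ n2 * h := by linarith
    exact le_of_mul_le_mul_right this h0
  obtain ⟨μ1, m1, hm1, m2, hm2, c1, c2, eq, mx⟩ := two_max D ρ (fun n => g n + κ * ρ n ^ 2)
    ((a + b) / 2) n1 n2 hn1 hn2 (by linarith) (by linarith)
  have hκσ : κ * (σ * (W / 4)) = 2 * δ1 := by rw [← hσ1, hh]; ring
  have s1 : ρ m1 ≤ a + 2 * σ := by
    by_contra hc
    push Not at hc
    have := chord (a := a) (b := b) hκ hW hh (by linarith) (by linarith) (by linarith) (by linarith)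
      (by linarith) (q0 m1 hm1) g1 g2 (mx n1 hn1) (mx n2 hn2)
    have t1 : σ * (W / 4) < (ρ m1 - ρ n1) * (ρ n2 - ρ m1) :=
      mul_lt_mul (by linarith) (by linarith) (by positivity) (by linarith)
    have := mul_lt_mul_of_pos_left t1 hκ
    linarith
  have s2 : b - 2 * σ ≤ ρ m2 := by
    by_contra hc
    push Not at hc
    have := chord (a := a) (b := b) hκ hW hh (by linarith) (by linarith) (by linarith) (by linarith)
      (by linarith) (q0 m2 hm2) g1 g2 (μ1 := μ1) (by rw [eq]; exact mx n1 hn1)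
      (by rw [eq]; exact mx n2 hn2)
    have t1 : σ * (W / 4) < (ρ n2 - ρ m2) * (ρ m2 - ρ n1) :=
      mul_lt_mul (by linarith) (by linarith) (by positivity) (by linarith)
    have := mul_lt_mul_of_pos_left t1 hκ
    linarith
  have hμ1 : μ1 ≤ μ0 + h := by
    by_contra hc
    push Not at hc
    have t1 := mx n2 hn2
    have t2 := b2 m1 hm1
    have t0 : 0 < ρ n2 - ρ m1 := by linarith
    have t4 : 0 < (μ1 - (μ0 + h)) * (ρ n2 - ρ m1) := mul_pos (by linarith) t0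
    have t5 : 0 ≤ κ * ((ρ n2 + ρ m1) * (ρ n2 - ρ m1)) :=
      mul_nonneg hκ.le (mul_nonneg (add_nonneg (hρ _) (hρ _)) t0.le)
    linarith
  refine ⟨μ1, hμ1, fun μ hμ => ?_⟩
  obtain ⟨n, hn, b4⟩ := h4 μ1 (by linarith)
  have b5 := mx n hn
  constructor
  · intro hle
    have := h3 μ hμ m1 hm1
    have := mul_le_mul_of_nonneg_right s1 (sub_nonneg.2 hle)
    linarith
  · intro hle
    have := h3 μ hμ m2 hm2
    have := mul_le_mul_of_nonneg_right s2 (sub_nonneg.2 hle)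
    linarith

end Vale.Agent.P171.K
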