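import Vale.Agent.P171.K4

/-! Finite box approximations of the pressure with explicit errors. -/

open MeasureTheory Set
open scoped ENNReal

namespace Vale.Agent.P171.K

noncomputable section

def F (A : ℝ) (ψ : ℝ → ℝ) (x y : E) : ℝ := -A * chi (dist x y < 2) + ψ (dist x y)

structure Adm (ψ : ℝ → ℝ) (T : ℝ) : Prop where
  meas : Measurable ψ
  nonneg : ∀ r, 0 ≤ ψ r
  pos : 0 ≤ T
  norm : ∀ (N : ℕ) (x : Fin N → E), ∑ i, ∑ j, ψ (dist (x i) (x j)) ≤ T * Q x

lemma meas_chi {α : Type} [MeasurableSpace α] {p : α → Prop} (h : MeasurableSet {a | p a}) :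
    Measurable fun a => chi (p a) := by
  classical
  unfold chi
  exact Measurable.ite h measurable_const measurable_const

lemma meas_F (A : ℝ) {ψ : ℝ → ℝ} (h : Measurable ψ) : Measurable (Function.uncurry (F A ψ)) :=
  ((meas_chi (measurableSet_lt measurable_dist measurable_const)).const_mul _).add
    (h.comp measurable_dist)

lemma meas_same : Measurable (Function.uncurry same) := by
  refine meas_chi ?_
  have h : Measurable (idx 1 0) := measurable_pi_lambda _ fun c =>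
    Int.measurable_floor.comp (((meas_coord c).add_const _).div_const _)
  exact measurableSet_eq_fun (h.comp measurable_fst) (h.comp measurable_snd)

lemma inv_F (A : ℝ) (ψ : ℝ → ℝ) : ZInv (F A ψ) := fun b x y => by simp [F]

lemma inv_same : ZInv same := by
  intro b x y
  have h : ∀ x : E, idx 1 0 (x + vec b) = idx 1 0 x + b := fun x => by
    ext c; simp [idx_one]
  simp [same, h]

lemma sum_F (A : ℝ) (ψ : ℝ → ℝ) {N : ℕ} (x : Fin N → E) : ∑ i, ∑ j, F A ψ (x i) (x j) =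
    -A * ∑ i, ∑ j, chi (dist (x i) (x j) < 2) + ∑ i, ∑ j, ψ (dist (x i) (x j)) := by
  simp only [F, Finset.sum_add_distrib, Finset.mul_sum]

lemma sum_F_le {A T : ℝ} {ψ : ℝ → ℝ} (h : Adm ψ T) (hA : 0 ≤ A) {N : ℕ} (x : Fin N → E) :
    ∑ i, ∑ j, F A ψ (x i) (x j) ≤ (T - A) * Q x := by
  have h1 : Q x ≤ ∑ i, ∑ j, chi (dist (x i) (x j) < 2) :=
    Finset.sum_le_sum fun i _ => Finset.sum_le_sum fun j _ => same_le _ _
  have h2 := h.norm N x
  rw [sum_F]; nlinarith

lemma good_F {A T : ℝ} {ψ : ℝ → ℝ} (h : Adm ψ T) (hA : T ≤ A) : Good (F A ψ) where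
  meas := meas_F A h.meas
  inv := inv_F A ψ
  neg := fun N x => (sum_F_le h (h.pos.trans hA) x).trans
    (mul_nonpos_of_nonpos_of_nonneg (by linarith) (Q_nonneg x))
  attr := fun x y hxy => by
    rw [F, chi_neg (not_lt.2 hxy)]; simpa using h.nonneg _

lemma trunc {K μ : ℝ} (hμ : μ ≤ K) (l : ℕ) {g : E → E → ℝ} {W : Multiset E → ℝ≥0∞} (hW : Meas W)
    (h1 : ∀ (N : ℕ) (x : Fin N → E), (∀ i, x i ∈ box l) → ∑ i, ∑ j, g (x i) (x j) + Q x ≤ 0)
    (h2 : ∀ (N : ℕ) (x : Fin N → E), (∀ i, x i ∈ box l) → Q x ≤ Real.exp K * l ^ 3 →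
      Wt μ g (conf x) ≤ W (conf x)) :
    lam (box l) (Wt μ g) ≤ lam (box l) W + 1 := by
  have hm : Meas fun η => ENNReal.ofReal (Real.exp μ ^ η.card) := by
    intro ι _
    have : (fun x : ι → E => ENNReal.ofReal (Real.exp μ ^ (conf x).card)) =
      fun _ => ENNReal.ofReal (Real.exp μ ^ Fintype.card ι) := by ext x; rw [card_conf]
    rw [this]; exact measurable_const
  have hl : (0 : ℝ) ≤ l := Nat.cast_nonneg l
  calc lam (box l) (Wt μ g) ≤ lam (box l) (fun η => W η +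
        ENNReal.ofReal (Real.exp (-(Real.exp K * l ^ 3))) * ENNReal.ofReal (Real.exp μ ^ η.card)) := by
        refine lam_mono (meas_box _) fun N x hx => ?_
        by_cases hq : Q x ≤ Real.exp K * l ^ 3
        · exact (h2 N x hx hq).trans le_self_add
        · refine le_trans ?_ le_add_self
          rw [Wt_conf, card_conf, Fintype.card_fin, ← Real.exp_nat_mul, ofReal_exp_mul]
          exact ENNReal.ofReal_le_ofReal (Real.exp_le_exp.2 (by linarith [h1 N x hx]))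
    _ = lam (box l) W + ENNReal.ofReal (Real.exp (-(Real.exp K * l ^ 3) + Real.exp μ * l ^ 3)) := by
        rw [lam_add _ hW, lam_const_mul _ hm,
          lam_pow _ _ _ (Real.exp_pos μ).le (by positivity) (vol_box l hl), ofReal_exp_mul]
    _ ≤ _ := by
        gcongr
        rw [ENNReal.ofReal_le_one, Real.exp_le_one_iff]
        have := mul_le_mul_of_nonneg_right (Real.exp_le_exp.2 hμ) (pow_nonneg hl 3)
        linarith

lemma add_one_le {a : ℝ} (ha : 0 ≤ a) (n : ℕ) :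
    n * ENNReal.ofReal (Real.exp a) + 1 ≤ ENNReal.ofReal (Real.exp (a + Real.log (n + 1))) := by
  rw [Real.exp_add, Real.exp_log (by positivity), ENNReal.ofReal_mul (Real.exp_pos _).le,
    ENNReal.ofReal_add (Nat.cast_nonneg _) zero_le_one, ENNReal.ofReal_natCast, ENNReal.ofReal_one,
    mul_add, mul_comm, mul_one]
  gcongr
  rw [ENNReal.one_le_ofReal]; exact Real.one_le_exp ha

lemma P_cmp {A T T' θ K μ : ℝ} {ψ ψ' : ℝ → ℝ} (h : Adm ψ T) (h' : Adm ψ' T') (hA : T ≤ A)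
    (hA' : T' + 1 ≤ A) (hθ : 0 ≤ θ) (hμ : μ ≤ K)
    (hc : ∀ (N : ℕ) (x : Fin N → E), ∑ i, ∑ j, ψ' (dist (x i) (x j)) ≤
      ∑ i, ∑ j, ψ (dist (x i) (x j)) + θ * Q x) :
    P (F A ψ') μ ≤ P (F A ψ) μ + θ * Real.exp K := by
  have g := good_F h hA
  have g' := good_F h' (by linarith : T' ≤ A)
  have hP := P_nonneg g.neg μ
  have := P2 g' μ 1 (Y := P (F A ψ) μ + θ * Real.exp K) (C := 26 * P (F A ψ) μ + 1) fun m hm => by
    rw [mul_one]
    have hm' : (1 : ℝ) ≤ m := by exact_mod_cast hm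
    have t := trunc hμ m (g := F A ψ') (W := fun η =>
      ENNReal.ofReal (Real.exp (θ * (Real.exp K * m ^ 3))) * Wt μ (F A ψ) η)
      ((Meas.const _).mul (meas_Wt μ g.meas))
      (fun N x _ => by
        have := sum_F_le h' (h'.pos.trans (by linarith : T' ≤ A)) x
        have := Q_nonneg x
        nlinarith)
      (fun N x _ hq => by
        rw [Wt_conf, Wt_conf, ofReal_exp_mul, sum_F, sum_F]
        have := mul_le_mul_of_nonneg_left hq hθ
        exact ENNReal.ofReal_le_ofReal (Real.exp_le_exp.2 (by linarith [hc N x])))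
    have x0 := xi_nonneg g.neg μ m (by linarith)
    rw [lam_const_mul _ (meas_Wt μ g.meas), lam_eq g.neg _ _ (by linarith),
      lam_eq g'.neg _ _ (by linarith), ofReal_exp_mul] at t
    have t2 := add_one_le (a := θ * (Real.exp K * m ^ 3) + xi μ (F A ψ) m) (by positivity) 1
    rw [Nat.cast_one, one_mul] at t2
    have t3 := le_of_exp (t.trans t2)
    have t4 := P1 g.neg μ m
    have t5 : Real.log ((1 : ℕ) + 1) ≤ 1 := by
      have := Real.log_le_sub_one_of_pos (x := ((1 : ℕ) : ℝ) + 1) (by positivity)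
      norm_num at this ⊢; linarith
    have t6 : ((m : ℝ) + 2) ^ 3 ≤ m ^ 3 + 26 * m ^ 2 := by nlinarith
    have t7 := mul_le_mul_of_nonneg_right t6 hP
    have t8 : (1 : ℝ) ≤ m ^ 2 := by nlinarith
    nlinarith
  simpa using this

lemma P_mono {A T T' μ : ℝ} {ψ ψ' : ℝ → ℝ} (h : Adm ψ T) (h' : Adm ψ' T') (hA : T ≤ A)
    (hA' : T' ≤ A) (hc : ∀ r, ψ r ≤ ψ' r) : P (F A ψ) μ ≤ P (F A ψ') μ := by
  have g := good_F h hA
  have g' := good_F h' hA'
  refine ciSup_le fun l => ?_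
  rw [div_le_iff₀ (by positivity), mul_comm]
  refine le_trans ?_ (P1 g'.neg μ l)
  apply le_of_exp
  rw [← lam_eq g.neg _ _ (Nat.cast_nonneg _), ← lam_eq g'.neg _ _ (Nat.cast_nonneg _)]
  refine lam_mono (meas_box _) fun N x _ => ?_
  rw [Wt_conf, Wt_conf]
  refine ENNReal.ofReal_le_ofReal (Real.exp_le_exp.2 ?_)
  gcongr with i _ j _
  simp only [F]; linarith [hc (dist (x i) (x j))]

def Zc (f : E → E → ℝ) (l n : ℕ) : ℝ≥0∞ := lam (box l) (fun η => Wt 0 f η * ind (· = n) η)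

def al (f : E → E → ℝ) (l n : ℕ) : ℝ := Real.log (Zc f l n).toReal

lemma lam_ind {f : E → E → ℝ} (hf : Good f) (μ : ℝ) (l n : ℕ) :
    lam (box l) (fun η => Wt μ f η * ind (· = n) η) = ENNReal.ofReal (Real.exp (μ * n)) * Zc f l n := by
  rw [Zc, ← lam_const_mul _ ((meas_Wt 0 hf.meas).mul (meas_ind _))]
  congr 1; ext η
  unfold ind
  split_ifs with h
  · rw [mul_one, mul_one, Wt, Wt, ofReal_exp_mul, h, zero_mul, zero_add]
  · simp

lemma Zc_eq {f : E → E → ℝ} (hf : Good f) {l n : ℕ} (h : Zc f l n ≠ 0) :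
    Zc f l n = ENNReal.ofReal (Real.exp (al f l n)) := by
  refine eq_exp_log h (ne_top_of_le_ne_top ENNReal.ofReal_ne_top
    (le_trans ?_ (lam_le hf.neg 0 l (Nat.cast_nonneg _))))
  refine lam_mono (meas_box _) fun N x _ => ?_
  unfold ind; split_ifs <;> simp

lemma one_le_Zc (f : E → E → ℝ) (l : ℕ) : 1 ≤ Zc f l 0 := by
  have := le_lam (box l) (fun η => Wt 0 f η * ind (· = 0) η)
  rw [Wt_zero, one_mul, show ind (· = 0) 0 = 1 by simp [ind]] at this
  exact this

open Classical in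
def DD (f : E → E → ℝ) (K : ℝ) (l : ℕ) : Finset ℕ :=
  (Finset.range (⌊Real.exp K * l ^ 3⌋₊ + 1)).filter fun n => Zc f l n ≠ 0

lemma ite_chi (p : Prop) [Decidable p] (a : ℝ) : (if p then a else 0) = chi p * a := by
  by_cases h : p <;> simp [h, chi]

lemma step_low {A T T' τ : ℝ} {ψ : ℝ → ℝ} {l s : ℕ} (h : Adm ψ T)
    (h' : Adm (fun r => ψ r + τ * chi (r ≤ ((s + 3) * l : ℕ))) T') (hA : T ≤ A) (hA' : T' ≤ A)
    (hτ : 0 ≤ τ) (hl : 0 < l) (hs : 2 * s ≤ l) (μ : ℝ) {n : ℕ} (hn : Zc (F A ψ) l n ≠ 0) :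
    μ * n + al (F A ψ) l n + τ * (ball s).card * n ^ 2 ≤
      ((l : ℝ) + 2) ^ 3 * P (F A fun r => ψ r + τ * chi (r ≤ ((s + 3) * l : ℕ))) μ := by
  have g := good_F h hA
  have g' := good_F h' hA'
  have := P3 g'.neg μ (l + 2) (2 * s) (Y := μ * n + al (F A ψ) l n + τ * (ball s).card * n ^ 2)
    (C := 6 * s * (τ * (ball s).card * n ^ 2)) fun m hm _ => by
    have t := lower_prod l m μ (τ * (((m : ℝ) - 2 * s) ^ 3 * ((ball s).card * n ^ 2)))
      (f := F A fun r => ψ r + τ * chi (r ≤ ((s + 3) * l : ℕ))) (· = n) g.inv g.meas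
      (fun N x hx hc => by
        have c1 := count_low (fun i => idx (l + 2) 0 (x i)) (ball s) (ball_sub s) hm
          (fun i => (hx i).1) hc
        refine le_trans (add_le_add_left (mul_le_mul_of_nonneg_left c1 hτ) _) ?_
        simp only [Finset.mul_sum, ← Finset.sum_add_distrib]
        refine Finset.sum_le_sum fun i _ => Finset.sum_le_sum fun j _ => ?_
        have c2 := mul_le_mul_of_nonneg_left
          (chi_mono fun hb => idx_low hl hs (hx i).2 (hx j).2 hb) hτ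
        split_ifs with e
        · simp only [F]; linarith
        · have := g.attr _ _ (far (hx i).2 (hx j).2 e)
          simp only [F] at this ⊢; linarith)
    rw [lam_ind g, Zc_eq g hn, ofReal_exp_mul, ofReal_exp_pow, ofReal_exp_mul,
      lam_eq g'.neg _ _ (Nat.cast_nonneg _)] at t
    have t1 := le_of_exp t
    have hm' : 2 * (s : ℝ) ≤ m := by exact_mod_cast hm
    have hs0 : (0 : ℝ) ≤ s := Nat.cast_nonneg s
    have t2 : (m : ℝ) ^ 3 - 6 * s * m ^ 2 ≤ (m - 2 * s) ^ 3 := by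
      have : 0 ≤ (s : ℝ) ^ 2 * (12 * m - 8 * s) := mul_nonneg (sq_nonneg _) (by linarith)
      nlinarith
    have t3 := mul_le_mul_of_nonneg_right t2
      (by positivity : 0 ≤ τ * ((ball s).card * (n : ℝ) ^ 2))
    rw [Nat.cast_pow] at t1
    linarith
  push_cast at this ⊢
  exact this

lemma step_up {A T T' τ K μ : ℝ} {ψ : ℝ → ℝ} {l ρ R : ℕ} (h : Adm ψ T)
    (h' : Adm (fun r => ψ r + τ * chi (r ≤ (ρ * l : ℕ))) T') (hA' : T' ≤ A)
    (hR : ∀ r, (R : ℝ) < r → ψ r = 0) (hτ : 0 ≤ τ) (hl : 0 < l)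
    (hA : T + 3 * R / l * T + τ * (ball (ρ + 2)).card * (2 * l + 1) ^ 3 + 1 ≤ A) (hμ : μ ≤ K) :
    ∃ n ∈ DD (F A ψ) K l, (l : ℝ) ^ 3 * P (F A fun r => ψ r + τ * chi (r ≤ (ρ * l : ℕ))) μ ≤
      μ * n + al (F A ψ) l n + τ * (ball (ρ + 2)).card * n ^ 2 +
        3 * R / l * T * (Real.exp K * l ^ 3) + Real.log (Real.exp K * l ^ 3 + 2) := by
  classical
  obtain ⟨δ, hδ⟩ : ∃ δ, δ = 3 * R / l * T := ⟨_, rfl⟩
  obtain ⟨κ, hκ⟩ : ∃ κ, κ = τ * (ball (ρ + 2)).card := ⟨_, rfl⟩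
  have hT := h.pos
  have hδ0 : 0 ≤ δ := by rw [hδ]; positivity
  have hκ0 : 0 ≤ κ := by rw [hκ]; positivity
  rw [← hδ, ← hκ] at hA ⊢
  have hA1 : T ≤ A := by
    have : 0 ≤ κ * (2 * l + 1) ^ 3 := by positivity
    linarith
  have hA0 : 0 ≤ A := hT.trans hA1
  have g := good_F h hA1
  have g' := good_F h' hA'
  have h0 : 0 ∈ DD (F A ψ) K l := Finset.mem_filter.2
    ⟨by simp, (zero_lt_one.trans_le (one_le_Zc _ _)).ne'⟩
  obtain ⟨n, hn, hmax⟩ := (DD (F A ψ) K l).exists_max_image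
    (fun n => μ * n + al (F A ψ) l n + κ * n ^ 2) ⟨0, h0⟩
  refine ⟨n, hn, ?_⟩
  have hal : 0 ≤ al (F A ψ) l 0 := by
    apply le_of_exp
    rw [← Zc_eq g (Finset.mem_filter.1 h0).2]; simpa using one_le_Zc _ _
  obtain ⟨Y0, hY0⟩ : ∃ Y0, Y0 = μ * n + al (F A ψ) l n + κ * n ^ 2 + δ * (Real.exp K * l ^ 3) :=
    ⟨_, rfl⟩
  have hY : 0 ≤ Y0 := by
    have := hmax 0 h0
    have : 0 ≤ δ * (Real.exp K * l ^ 3) := by positivity
    simp only [Nat.cast_zero] at *
    linarith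
  rw [← hY0]
  set n0 := ⌊Real.exp K * l ^ 3⌋₊ with hn0
  set G : E → E → ℝ := fun x y => F A ψ x y + δ * same x y + κ with hG
  have sG : ∀ (N : ℕ) (x : Fin N → E), ∑ i, ∑ j, G (x i) (x j) =
      ∑ i, ∑ j, F A ψ (x i) (x j) + δ * Q x + κ * N ^ 2 := by
    intro N x
    simp only [hG, Finset.sum_add_distrib, Q, Finset.mul_sum]
    simp; ring
  have t := trunc hμ l (g := G) (W := fun η => ∑ k ∈ Finset.range (n0 + 1),
      ENNReal.ofReal (Real.exp (κ * k ^ 2 + δ * (Real.exp K * l ^ 3))) *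
        (Wt μ (F A ψ) η * ind (· = k) η))
    (fun ι _ => Finset.measurable_sum _ fun k _ =>
      ((Meas.const _).mul ((meas_Wt μ g.meas).mul (meas_ind _))) ι)
    (fun N x hx => by
      have a1 := sum_F_le h hA0 x
      have a2 := mul_le_mul_of_nonneg_left (count_box x l hx) hκ0
      have a3 := mul_le_mul_of_nonneg_right hA (Q_nonneg x)
      rw [sG]; linarith)
    (fun N x _ hq => by
      have a1 : N ∈ Finset.range (n0 + 1) :=
        Finset.mem_range.2 (Nat.lt_succ_of_le (Nat.le_floor ((le_Q x).trans hq)))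
      refine le_trans ?_ (Finset.single_le_sum (f := fun k : ℕ =>
        ENNReal.ofReal (Real.exp (κ * k ^ 2 + δ * (Real.exp K * l ^ 3))) *
        (Wt μ (F A ψ) (conf x) * ind (· = k) (conf x))) (fun _ _ => zero_le) a1)
      have a2 : ind (· = N) (conf x) = 1 := by
        unfold ind; rw [card_conf, Fintype.card_fin, if_pos rfl]
      rw [a2, mul_one, Wt_conf, Wt_conf, ofReal_exp_mul, sG]
      have := mul_le_mul_of_nonneg_left hq hδ0
      exact ENNReal.ofReal_le_ofReal (Real.exp_le_exp.2 (by linarith)))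
  rw [lam_sum _ _ _ (fun k _ => (Meas.const _).mul ((meas_Wt μ g.meas).mul (meas_ind _)))] at t
  have t1 : ∀ k ∈ Finset.range (n0 + 1), lam (box l) (fun η =>
      ENNReal.ofReal (Real.exp (κ * k ^ 2 + δ * (Real.exp K * l ^ 3))) *
        (Wt μ (F A ψ) η * ind (· = k) η)) ≤ ENNReal.ofReal (Real.exp Y0) := by
    intro k hk
    rw [lam_const_mul _ ((meas_Wt μ g.meas).mul (meas_ind _)), lam_ind g]
    by_cases hz : Zc (F A ψ) l k = 0
    · simp [hz]
    · rw [Zc_eq g hz, ofReal_exp_mul, ofReal_exp_mul]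
      have := hmax k (Finset.mem_filter.2 ⟨hk, hz⟩)
      exact ENNReal.ofReal_le_ofReal (Real.exp_le_exp.2 (by linarith))
  have t2 := Finset.sum_le_sum t1
  rw [Finset.sum_const, Finset.card_range, nsmul_eq_mul] at t2
  have t3 := (t.trans (add_le_add_left t2 1)).trans (add_one_le hY (n0 + 1))
  have t4 : Real.log (((n0 + 1 : ℕ) : ℝ) + 1) ≤ Real.log (Real.exp K * l ^ 3 + 2) := by
    refine Real.log_le_log (by positivity) ?_
    have : (n0 : ℝ) ≤ Real.exp K * l ^ 3 := Nat.floor_le (by positivity)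
    push_cast; linarith
  have t5 : 0 ≤ Real.log (((n0 + 1 : ℕ) : ℝ) + 1) := Real.log_nonneg (by
    have : (0 : ℝ) ≤ ((n0 + 1 : ℕ) : ℝ) := Nat.cast_nonneg _
    linarith)
  obtain ⟨Y, hYd⟩ : ∃ Y, Y = Y0 + Real.log (((n0 + 1 : ℕ) : ℝ) + 1) := ⟨_, rfl⟩
  rw [← hYd] at t3
  have hY1 : 0 ≤ Y := by linarith
  refine le_trans (P2 g' μ l (Y := Y) (C := 7 * Y + l) fun m hm => ?_) (by linarith)
  have u := upper_prod hl m μ (f := F A fun r => ψ r + τ * chi (r ≤ (ρ * l : ℕ))) (g := G)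
    (fun b x y => by simp only [hG, g.inv b x y, inv_same b x y])
    ((g.meas.add (meas_same.const_mul δ)).add_const κ)
    (fun N x => by
      obtain ⟨s, hs, a1⟩ := shift_avg hl ψ h.nonneg hR x
      refine ⟨s, hs, ?_⟩
      have a2 := mul_le_mul_of_nonneg_left (h.norm N x) (by positivity : (0 : ℝ) ≤ 3 * R / l)
      have a3 := count (fun i => idx l s (x i)) (ball (ρ + 2))
      have a4 : ∑ i, ∑ j, chi (dist (x i) (x j) ≤ (ρ * l : ℕ)) ≤
          ∑ i, ∑ j, chi (idx l s (x j) - idx l s (x i) ∈ ball (ρ + 2)) :=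
        Finset.sum_le_sum fun i _ => Finset.sum_le_sum fun j _ => chi_mono (idx_up hl)
      have a5 := mul_le_mul_of_nonneg_left (a4.trans a3) hτ
      have a6 : ∑ i, ∑ j, (F A (fun r => ψ r + τ * chi (r ≤ (ρ * l : ℕ))) (x i) (x j) +
          δ * same (x i) (x j) + κ * chi (idx l s (x i) = idx l s (x j))) ≤
          ∑ i, ∑ j, ((if idx l s (x i) = idx l s (x j) then G (x i) (x j) else 0) +
          chi (idx l s (x i) ≠ idx l s (x j)) * ψ (dist (x i) (x j)) +
          τ * chi (dist (x i) (x j) ≤ (ρ * l : ℕ))) := by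
        refine Finset.sum_le_sum fun i _ => Finset.sum_le_sum fun j _ => ?_
        split_ifs with e
        · rw [chi_pos e, chi_neg (not_not.2 e)]; simp only [hG, F]; linarith
        · rw [chi_neg e, chi_pos e, same, chi_neg (fun e' => e (idx_of_same l s e'))]
          have := mul_nonneg hA0 (chi_nonneg (dist (x i) (x j) < 2))
          simp only [F]; linarith
      simp only [Finset.sum_add_distrib, ← Finset.mul_sum] at a6
      rw [← mul_assoc, ← hδ] at a2
      rw [← mul_assoc, ← hκ] at a5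
      unfold Q at a2
      linarith)
  have u2 : (l : ℝ≥0∞) ≤ ENNReal.ofReal (Real.exp l) := by
    rw [← ENNReal.ofReal_natCast]
    exact ENNReal.ofReal_le_ofReal (by linarith [Real.add_one_le_exp (l : ℝ)])
  have u3 := u.trans (mul_le_mul' u2 (pow_le_pow_left' t3 _))
  rw [ofReal_exp_pow, ofReal_exp_mul, lam_eq g'.neg _ _ (Nat.cast_nonneg _)] at u3
  have u4 := le_of_exp u3
  have hm' : (1 : ℝ) ≤ m := by exact_mod_cast hm
  have u5 : (((m + 1) ^ 3 : ℕ) : ℝ) ≤ m ^ 3 + 7 * m ^ 2 := by push_cast; nlinarith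
  have u6 := mul_le_mul_of_nonneg_right u5 hY1
  have u7 : (l : ℝ) * 1 ≤ l * m ^ 2 := mul_le_mul_of_nonneg_left (by nlinarith) (Nat.cast_nonneg l)
  linarith

end

end Vale.Agent.P171.K
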