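import Vale.Agent.P171.K6
import Vale.Agent.P171.K5

/-! One renormalisation step with explicit constants. -/

open MeasureTheory Set Filter Topology
open scoped ENNReal

namespace Vale.Agent.P171.K

noncomputable section

def tau (t : ℝ) (u s : ℕ) : ℝ := t / ((u : ℝ) ^ 9 * (ball s).card)

def piece (t : ℝ) (u s : ℕ) (r : ℝ) : ℝ := tau t u s * chi (r ≤ ((s + 3) * u ^ 3 : ℕ))

structure Sc (u s : ℕ) : Prop where
  four : 4 ≤ u
  le : s + 5 ≤ 8 * u
  low : u ^ 3 ≤ (ball s).card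
  up : (ball (s + 5)).card ≤ (ball s).card + 4913 * u ^ 2

lemma Sc.rad {u s : ℕ} (h : Sc u s) : (((s + 3) * u ^ 3 : ℕ) : ℝ) ≤ 8 * (u : ℝ) ^ 4 := by
  have : (s + 3) * u ^ 3 ≤ 8 * u ^ 4 := by
    have := h.le
    calc (s + 3) * u ^ 3 ≤ (8 * u) * u ^ 3 := by gcongr; omega
      _ = _ := by ring
  exact_mod_cast this

lemma Sc.tau_le {u s : ℕ} (h : Sc u s) {t : ℝ} (ht : 0 ≤ t) :
    0 ≤ tau t u s ∧ tau t u s * (u : ℝ) ^ 12 ≤ t := by
  have hu : (4 : ℝ) ≤ u := by exact_mod_cast h.four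
  have h1 : (u : ℝ) ^ 3 ≤ (ball s).card := by exact_mod_cast h.low
  have h2 : (0 : ℝ) < (ball s).card := lt_of_lt_of_le (by positivity) h1
  refine ⟨by unfold tau; positivity, ?_⟩
  rw [tau, div_mul_eq_mul_div, div_le_iff₀ (by positivity)]
  have : (u : ℝ) ^ 12 ≤ u ^ 9 * (ball s).card := by
    calc (u : ℝ) ^ 12 = u ^ 9 * u ^ 3 := by ring
      _ ≤ _ := by gcongr
  gcongr

lemma Sc.norm {u s : ℕ} (h : Sc u s) {t : ℝ} (ht : 0 ≤ t) {N : ℕ} (x : Fin N → E) :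
    ∑ i, ∑ j, piece t u s (dist (x i) (x j)) ≤ 4913 * t * Q x := by
  have hu : (4 : ℝ) ≤ u := by exact_mod_cast h.four
  obtain ⟨h0, h1⟩ := h.tau_le ht
  have h2 := mul_le_mul_of_nonneg_left (count_near x ((s + 3) * u ^ 3)) h0
  simp only [piece, ← Finset.mul_sum]
  refine h2.trans ?_
  rw [← mul_assoc]
  refine mul_le_mul_of_nonneg_right ?_ (Q_nonneg x)
  have h3 : (1 : ℝ) ≤ (u : ℝ) ^ 4 := one_le_pow₀ (by linarith)
  have h4 : (2 * (((s + 3) * u ^ 3 : ℕ) : ℝ) + 1) ^ 3 ≤ (17 * (u : ℝ) ^ 4) ^ 3 := by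
    gcongr; linarith [h.rad]
  calc _ ≤ tau t u s * (17 * (u : ℝ) ^ 4) ^ 3 := by gcongr
    _ = 4913 * (tau t u s * (u : ℝ) ^ 12) := by ring
    _ ≤ _ := by gcongr

lemma meas_piece (t : ℝ) (u s : ℕ) : Measurable (piece t u s) :=
  (meas_chi (measurableSet_le measurable_id measurable_const)).const_mul _

lemma Adm.add_piece {ψ : ℝ → ℝ} {T t : ℝ} {u s : ℕ} (h : Adm ψ T) (hs : Sc u s) (ht : 0 ≤ t) :
    Adm (fun r => ψ r + piece t u s r) (T + 4913 * t) where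
  meas := h.meas.add (meas_piece _ _ _)
  nonneg := fun r => add_nonneg (h.nonneg r) (mul_nonneg (hs.tau_le ht).1 (chi_nonneg _))
  pos := by have := h.pos; positivity
  norm := fun N x => by
    simp only [Finset.sum_add_distrib]
    have := h.norm N x
    have := hs.norm ht x
    linarith

lemma aux_low {l u M p e : ℝ} (hu : 4 ≤ u) (hul : u ≤ l) (hM1 : 1 ≤ M) (h0 : 0 ≤ p) (a1 : p ≤ M)
    (he : 26 * (M ^ 2 / u) ≤ e) : (l + 2) ^ 3 * p ≤ l ^ 3 * (p + e) := by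
  have hl : 0 < l := by linarith
  have hMM : M / u ≤ M ^ 2 / u := by gcongr; nlinarith
  have a2 : (l + 2) ^ 3 ≤ l ^ 3 + 26 * l ^ 2 := by nlinarith
  have a3 := mul_le_mul_of_nonneg_right a2 h0
  have a4 : M / l ≤ M / u := by gcongr
  have a5 : l ^ 2 * p ≤ l ^ 3 * (M / l) := by
    rw [show l ^ 3 * (M / l) = l ^ 2 * M by field_simp]; gcongr
  have a6 : l ^ 3 * (26 * (M / l)) ≤ l ^ 3 * e := by gcongr; linarith
  linarith

lemma aux_up {l u K M T1 d : ℝ} (hu : 4 ≤ u) (hul : u ≤ l) (hK0 : 0 ≤ K) (hM : M = Real.exp K)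
    (hT1 : 0 ≤ T1) (hδ : d ≤ 24 * T1 / u) : d * (Real.exp K * l ^ 3) +
      Real.log (Real.exp K * l ^ 3 + 2) ≤ l ^ 3 * (24 * T1 * (M ^ 2 / u) + 26 * (M ^ 2 / u)) := by
  have hl : 0 < l := by linarith
  have hM1 : 1 ≤ M := hM ▸ Real.one_le_exp hK0
  have hKM : K ≤ M := by rw [hM]; linarith [Real.add_one_le_exp K]
  have hMM : M / u ≤ M ^ 2 / u := by gcongr; nlinarith
  have a1 : Real.log (Real.exp K * l ^ 3 + 2) ≤ Real.log (Real.exp K * (2 * l) ^ 3) := by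
    refine Real.log_le_log (by positivity) ?_
    have : (1 : ℝ) ≤ l ^ 3 := one_le_pow₀ (by linarith)
    rw [← hM]; nlinarith
  rw [Real.log_mul (by positivity) (by positivity), Real.log_exp, Real.log_pow] at a1
  have a2 := Real.log_le_sub_one_of_pos (by positivity : (0 : ℝ) < 2 * l)
  have a3 : M / l ≤ M / u := by gcongr
  have a4 : l ^ 3 * (M / l) = l ^ 2 * M := by field_simp
  have a5 : l ^ 3 * (26 * (M / l)) ≤ l ^ 3 * (26 * (M ^ 2 / u)) :=
    mul_le_mul_of_nonneg_left (by linarith) (by positivity)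
  have a6 : K + 6 * l ≤ 26 * (l ^ 2 * M) := by
    have b1 : l ≤ l ^ 2 := by nlinarith
    have b2 : l ^ 2 * 1 ≤ l ^ 2 * M := by gcongr
    have b3 : 1 * M ≤ l ^ 2 * M := by gcongr; linarith
    linarith
  have a7 := mul_le_mul_of_nonneg_right hδ (by positivity : 0 ≤ Real.exp K * l ^ 3)
  have a8 : 24 * T1 / u * (Real.exp K * l ^ 3) ≤ l ^ 3 * (24 * T1 * (M ^ 2 / u)) := by
    rw [← hM, show 24 * T1 / u * (M * l ^ 3) = l ^ 3 * (24 * T1 * (M / u)) by ring]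
    gcongr
  push_cast at a1
  linarith

lemma aux_gap {V u M T0 t k1 k2 n : ℝ} (hu : 4 ≤ u) (hV : 0 < V) (hT0 : 0 ≤ T0) (h1 : k1 * V = t)
    (h2 : k2 * V ≤ t + 4913 * T0 / u) (hn0 : 0 ≤ n) (hn : n ≤ M * V) :
    (k2 - k1) * n ^ 2 ≤ V * (4913 * T0 * (M ^ 2 / u)) := by
  have a3 : n ^ 2 ≤ (M * V) ^ 2 := by gcongr
  have b1 : k2 - k1 ≤ 4913 * T0 / u / V := by rw [le_div_iff₀ hV]; linarith
  have hu0 : 0 < u := by linarith
  have b2 : 0 ≤ 4913 * T0 / u / V := by positivity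
  calc _ ≤ 4913 * T0 / u / V * n ^ 2 := by gcongr
    _ ≤ 4913 * T0 / u / V * (M * V) ^ 2 := by gcongr
    _ = _ := by field_simp

lemma step {A T T1 T0 t K μ0 a b δ W : ℝ} {ψ : ℝ → ℝ} {u s : ℕ} (hs : Sc u s) (h : Adm ψ T)
    (ht : 0 < t) (ht0 : t ≤ T0) (hT : T + 4913 * t ≤ T1)
    (hR : ∀ r, ((8 * u ^ 2 : ℕ) : ℝ) < r → ψ r = 0) (hA : 25 * T1 + 140000 * T0 + 1 ≤ A)
    (hK0 : 0 ≤ K) {e : ℝ} (he : (24 * T1 + 26 + 4913 * T0) * Real.exp K ^ 2 / u ≤ e)
    (hk : Kink (P (F A ψ)) K μ0 a b δ) (hW : 0 < W) (hab : W ≤ b - a)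
    (hK : μ0 + t * W / 8 ≤ K) (hd : 0 ≤ δ) (hsm : δ + 2 * e ≤ t * W ^ 2 / 32) :
    ∃ μ1 ≤ μ0 + t * W / 8, Kink (P (F A fun r => ψ r + piece t u s r)) K μ1
      (a + 16 * (δ + 2 * e) / (t * W)) (b - 16 * (δ + 2 * e) / (t * W)) (2 * e) := by
  have hu : (4 : ℝ) ≤ u := by exact_mod_cast hs.four
  have hT0 := h.pos
  have h' := h.add_piece hs ht.le
  obtain ⟨M, hM⟩ : ∃ M, M = Real.exp K := ⟨_, rfl⟩
  have hM1 : 1 ≤ M := hM ▸ Real.one_le_exp hK0
  rw [← hM] at he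
  obtain ⟨l, hl⟩ : ∃ l : ℕ, l = u ^ 3 := ⟨_, rfl⟩
  have hl' : (l : ℝ) = (u : ℝ) ^ 3 := by rw [hl]; push_cast; rfl
  have hul : (u : ℝ) ≤ l := by rw [hl']; nlinarith [mul_le_mul hu hu (by norm_num) (by linarith)]
  have hl0 : 0 < l := by have := hs.four; rw [hl]; positivity
  have hlp : (0 : ℝ) < l := by exact_mod_cast hl0
  have hsl : 2 * s ≤ l := by
    have a1 := hs.le
    have a2 := hs.four
    have : 16 * u ≤ u ^ 3 := by
      calc 16 * u = 4 * 4 * u := by ring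
        _ ≤ u * u * u := by gcongr
        _ = _ := by ring
    omega
  have hB : (u : ℝ) ^ 3 ≤ (ball s).card := by exact_mod_cast hs.low
  have hB0 : (0 : ℝ) < (ball s).card := lt_of_lt_of_le (by positivity) hB
  have hB' : ((ball (s + 3 + 2)).card : ℝ) ≤ (ball s).card + 4913 * (u : ℝ) ^ 2 := by
    exact_mod_cast hs.up
  obtain ⟨τ0, -⟩ := hs.tau_le ht.le
  have hτ : tau t u s * (ball s).card * (l : ℝ) ^ 3 = t := by
    rw [tau, hl']; field_simp
  have hτ2 : tau t u s * (ball (s + 3 + 2)).card * (l : ℝ) ^ 3 ≤ t + 4913 * T0 / u := by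
    have a1 : tau t u s * (u : ℝ) ^ 2 * (l : ℝ) ^ 3 ≤ T0 / u := by
      rw [le_div_iff₀ (by linarith), hl']
      have := (hs.tau_le ht.le).2
      linarith
    have a2 := mul_le_mul_of_nonneg_right (mul_le_mul_of_nonneg_left hB' τ0) (pow_nonneg hlp.le 3)
    rw [mul_div_assoc]
    linarith
  have hδ : 3 * ((8 * u ^ 2 : ℕ) : ℝ) / l * T ≤ 24 * T1 / u := by
    have : 3 * ((8 * u ^ 2 : ℕ) : ℝ) / l * T = 24 * T / u := by
      rw [hl']; push_cast; field_simp; ring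
    rw [this]; gcongr; linarith
  have hT1 : 0 ≤ T1 := by linarith
  have hdiv : ∀ c : ℝ, 0 ≤ c → c / u ≤ c := fun c hc => div_le_self hc (by linarith)
  have hl3 : (2 * (l : ℝ) + 1) ^ 3 ≤ 27 * l ^ 3 := by
    calc _ ≤ (3 * (l : ℝ)) ^ 3 := by gcongr; linarith
      _ = _ := by ring
  have hA2 : T + 3 * ((8 * u ^ 2 : ℕ) : ℝ) / l * T +
      tau t u s * (ball (s + 3 + 2)).card * (2 * l + 1) ^ 3 + 1 ≤ A := by
    have a1 := mul_le_mul_of_nonneg_left hl3
      (by positivity : 0 ≤ tau t u s * (ball (s + 3 + 2)).card)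
    have := hdiv (24 * T1) (by positivity)
    have := hdiv (4913 * T0) (by linarith)
    linarith
  have hA3 : T ≤ A := by linarith
  have hA4 : T + 4913 * t ≤ A := by linarith
  have e0 : (fun r => ψ r + 0 * chi (r ≤ ((s + 3) * l : ℕ))) = ψ := by ext r; simp
  have e1 : (fun r => ψ r + piece t u s r) =
      fun r => ψ r + tau t u s * chi (r ≤ ((s + 3) * l : ℕ)) := by rw [hl]; rfl
  have hV : (0 : ℝ) < (l : ℝ) ^ 3 := by positivity
  have hMu : 0 ≤ M ^ 2 / u := by positivity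
  have he' : 24 * T1 * (M ^ 2 / u) + 26 * (M ^ 2 / u) + 4913 * T0 * (M ^ 2 / u) ≤ e := by
    refine le_trans (le_of_eq ?_) he; ring
  have c1 : 0 ≤ 24 * T1 * (M ^ 2 / u) := by positivity
  have c2 : 0 ≤ 4913 * T0 * (M ^ 2 / u) := mul_nonneg (by linarith) hMu
  have low : ∀ {f : E → E → ℝ}, Neg f → ∀ μ ≤ K, ((l : ℝ) + 2) ^ 3 * P f μ ≤ l ^ 3 * (P f μ + e) :=
    fun hf μ hμ => aux_low hu hul hM1 (P_nonneg hf μ)
      ((P_le hf μ).trans (hM ▸ Real.exp_le_exp.2 hμ)) (by linarith)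
  have up := aux_up hu hul hK0 hM hT1 hδ
  have hn : ∀ n ∈ DD (F A ψ) K l, Zc (F A ψ) l n ≠ 0 ∧ (n : ℝ) ≤ M * l ^ 3 := by
    classical
    intro n hn
    have := Finset.mem_filter.1 hn
    refine ⟨this.2, ?_⟩
    have a1 := Nat.lt_succ_iff.1 (Finset.mem_range.1 this.1)
    rw [hM]; exact (Nat.le_floor_iff (by positivity)).1 a1
  have eq1 : ∀ μ n : ℝ, ∀ z : ℝ, (l : ℝ) ^ 3 * (μ * (n / l ^ 3) + z / l ^ 3) = μ * n + z := by
    intro μ n z; field_simp
  have eq2 : ∀ μ n : ℝ, ∀ z : ℝ, (l : ℝ) ^ 3 * (μ * (n / l ^ 3) + (z / l ^ 3 + t * (n / l ^ 3) ^ 2))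
      = μ * n + z + tau t u s * (ball s).card * n ^ 2 := by
    intro μ n z
    generalize tau t u s * (ball s).card = k at hτ
    rw [← hτ]; field_simp; ring
  rw [e1] at h' ⊢
  refine kink_step (DD (F A ψ) K l) (fun n => n / (l : ℝ) ^ 3) (fun n => al (F A ψ) l n / (l : ℝ) ^ 3)
    _ _ (fun n => by positivity) (fun μ hμ n hn' => ?_) (fun μ hμ => ?_) (fun μ hμ n hn' => ?_)
    (fun μ hμ => ?_) hk ht hW hab hK (by linarith) hsm
  · have a1 := step_low (τ := 0) h (by rw [e0]; exact h) hA3 hA3 le_rfl hl0 hsl μ (hn n hn').1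
    rw [e0] at a1
    refine le_of_mul_le_mul_left ?_ hV
    rw [eq1]
    linarith [low (good_F h hA3).neg μ hμ]
  · obtain ⟨n, hn', a1⟩ := step_up (τ := 0) (ρ := s + 3) h (by rw [e0]; exact h) hA3 hR le_rfl hl0
      (by
        have : 0 ≤ tau t u s * (ball (s + 3 + 2)).card * (2 * l + 1) ^ 3 := by positivity
        linarith) hμ
    rw [e0] at a1
    refine ⟨n, hn', le_of_mul_le_mul_left ?_ hV⟩
    rw [eq1]
    have := mul_le_mul_of_nonneg_left (by linarith :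
      24 * T1 * (M ^ 2 / u) + 26 * (M ^ 2 / u) ≤ e) hV.le
    linarith
  · have a1 := step_low h h' hA3 hA4 τ0 hl0 hsl μ (hn n hn').1
    refine le_of_mul_le_mul_left ?_ hV
    rw [eq2]
    linarith [low (good_F h' hA4).neg μ hμ]
  · obtain ⟨n, hn', a1⟩ := step_up h h' hA4 hR τ0 hl0 hA2 hμ
    refine ⟨n, hn', le_of_mul_le_mul_left ?_ hV⟩
    rw [eq2]
    have a2 := mul_le_mul_of_nonneg_left he' hV.le
    have a4 := aux_gap hu hV (by linarith) hτ hτ2 (Nat.cast_nonneg n) (hn n hn').2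
    linarith

lemma not_diff {p : ℝ → ℝ} {K a b : ℝ} {μ ε : ℕ → ℝ} (hab : a < b) (hμ : ∀ k, μ k ≤ K - 1)
    (hε : Tendsto ε atTop (𝓝 0)) (hk : ∀ k, Kink p K (μ k) a b (ε k)) :
    ∃ m, ¬ DifferentiableAt ℝ p m := by
  have h1 : ∀ k l, μ k ≤ μ l → (μ l - μ k) * (b - a) ≤ ε k + ε l := by
    intro k l h
    have a1 := (hk k (μ l) (by linarith [hμ l])).2 h
    have a2 := (hk l (μ k) (by linarith [hμ k])).1 h
    linarith
  have hc : CauchySeq μ := by
    rw [Metric.cauchySeq_iff]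
    intro η hη
    have := hε.eventually (gt_mem_nhds (by positivity : (0 : ℝ) < η * (b - a) / 2 ) )
    obtain ⟨N, hN⟩ := eventually_atTop.1 this
    refine ⟨N, fun k hk' l hl => ?_⟩
    have b1 := hN k hk'
    have b2 := hN l hl
    rw [Real.dist_eq, abs_lt]
    rcases le_total (μ k) (μ l) with h | h
    · have := h1 k l h
      have : (μ l - μ k) * (b - a) < η * (b - a) := by linarith
      have := lt_of_mul_lt_mul_right this (by linarith)
      constructor <;> linarith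
    · have := h1 l k h
      have : (μ k - μ l) * (b - a) < η * (b - a) := by linarith
      have := lt_of_mul_lt_mul_right this (by linarith)
      constructor <;> linarith
  obtain ⟨m, hm⟩ := cauchySeq_tendsto_of_complete hc
  refine ⟨m, fun hd => ?_⟩
  have hmK : m ≤ K - 1 := le_of_tendsto' hm hμ
  have hp : Tendsto (fun k => p (μ k)) atTop (𝓝 (p m)) := hd.continuousAt.tendsto.comp hm
  have lim : ∀ c x : ℝ, Tendsto (fun k => p (μ k) - ε k + c * (x - μ k)) atTop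
      (𝓝 (p m - 0 + c * (x - m))) := fun c x =>
    (hp.sub hε).add ((tendsto_const_nhds.sub hm).const_mul c)
  have hs := hasDerivAt_iff_tendsto_slope.1 hd.hasDerivAt
  have r1 : b ≤ deriv p m := by
    refine ge_of_tendsto (hs.mono_left (nhdsGT_le_nhdsNE m)) ?_
    filter_upwards [Ioo_mem_nhdsGT (by linarith : m < K)] with x hx
    have : p m - 0 + b * (x - m) ≤ p x := le_of_tendsto (lim b x) (by
      filter_upwards [hm.eventually (gt_mem_nhds hx.1)] with k hk'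
      exact (hk k x hx.2.le).2 hk'.le)
    rw [slope_def_field, le_div_iff₀ (by linarith [hx.1])]; linarith
  have r2 : deriv p m ≤ a := by
    refine le_of_tendsto (hs.mono_left (nhdsLT_le_nhdsNE m)) ?_
    filter_upwards [self_mem_nhdsWithin] with x hx
    have hx' : x < m := hx
    have : p m - 0 + a * (x - m) ≤ p x := le_of_tendsto (lim a x) (by
      filter_upwards [hm.eventually (lt_mem_nhds hx')] with k hk'
      exact (hk k x (by linarith)).1 hk'.le)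
    rw [slope_def_field, div_le_iff_of_neg (by linarith)]; linarith
  linarith

end

end Vale.Agent.P171.K
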