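import Vale.Agent.P171.K7

/-! The multi-scale construction. -/

open MeasureTheory Set Filter Topology
open scoped ENNReal

namespace Vale.Agent.P171.K

noncomputable section

def T0 : ℝ := 10 ^ 6
def AA : ℝ := 10 ^ 12
def KK : ℝ := AA + T0 + 1

def ww (w j : ℕ) : ℕ := w ^ (2 ^ j)
def yy (w j : ℕ) : ℝ := (w : ℝ) ^ 2 / (ww w j : ℝ) ^ 2

lemma ww_succ (w j : ℕ) : ww w (j + 1) = ww w j ^ 2 := by
  rw [ww, ww, ← pow_mul, pow_succ]

lemma ww_ge {w : ℕ} (hw : 2 ≤ w) (j : ℕ) : w * 2 ^ j ≤ ww w j := by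
  induction j with
  | zero => simp [ww]
  | succ j ih =>
    rw [ww_succ]
    have h1 : 1 ≤ 2 ^ j := Nat.one_le_two_pow
    have h2 : 2 ≤ ww w j := le_trans (by nlinarith) ih
    calc w * 2 ^ (j + 1) = (w * 2 ^ j) * 2 := by ring
      _ ≤ ww w j * ww w j := by gcongr
      _ = _ := by ring

lemma ww_ge' {w : ℕ} (hw : 2 ≤ w) (j : ℕ) : (w : ℝ) * 2 ^ j ≤ ww w j := by
  exact_mod_cast ww_ge hw j

lemma ww_two {w : ℕ} (hw : 2 ≤ w) (j : ℕ) : 2 ≤ ww w j :=
  le_trans (by nlinarith [(Nat.one_le_two_pow : 1 ≤ 2 ^ j)]) (ww_ge hw j)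

lemma yy_pos {w : ℕ} (hw : 2 ≤ w) (j : ℕ) : 0 < yy w j := by
  have := ww_two hw j
  unfold yy; positivity

lemma yy_le {w : ℕ} (hw : 2 ≤ w) (j : ℕ) : yy w j ≤ (1 / 2) ^ j := by
  have h := ww_ge' hw j
  have hw' : (2 : ℝ) ≤ w := by exact_mod_cast hw
  have h1 : (1 : ℝ) ≤ 2 ^ j := one_le_pow₀ (by norm_num)
  have h2 : (0 : ℝ) < ww w j := lt_of_lt_of_le (by positivity) h
  rw [yy, one_div, inv_pow, ← one_div, div_le_div_iff₀ (by positivity) (by positivity)]
  have h3 : ((w : ℝ) * 2 ^ j) ^ 2 ≤ (ww w j : ℝ) ^ 2 := by gcongr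
  have h4 : (w : ℝ) ^ 2 * 2 ^ j * 1 ≤ (w : ℝ) ^ 2 * 2 ^ j * 2 ^ j := by gcongr
  nlinarith

lemma exists_sc (u : ℕ) : ∃ s, 4 ≤ u → Sc u s := by
  by_cases h : 4 ≤ u
  · obtain ⟨s, h1, h2, h3⟩ := pigeon u (by omega)
    exact ⟨s, fun _ => ⟨h, h1, h2, h3⟩⟩
  · exact ⟨0, fun h' => absurd h' h⟩

def sc (u : ℕ) : ℕ := (exists_sc u).choose

lemma sc_spec {w : ℕ} (hw : 2 ≤ w) (j : ℕ) : Sc (ww w j ^ 8) (sc (ww w j ^ 8)) := by
  refine (exists_sc _).choose_spec ?_
  calc 4 ≤ 2 ^ 8 := by norm_num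
    _ ≤ _ := by gcongr; exact ww_two hw j

def pc (w j : ℕ) : ℝ → ℝ := piece (T0 * yy w j) (ww w j ^ 8) (sc (ww w j ^ 8))

def psi (w : ℕ) : ℕ → ℝ → ℝ
  | 0 => fun _ => 0
  | k + 1 => fun r => psi w k r + pc w k r

lemma T0_pos : 0 < T0 := by unfold T0; norm_num

lemma psi_eq (w k : ℕ) (r : ℝ) : psi w k r = ∑ j ∈ Finset.range k, pc w j r := by
  induction k with
  | zero => simp [psi]
  | succ k ih => rw [Finset.sum_range_succ, ← ih]; rfl

lemma Adm.mono {ψ : ℝ → ℝ} {T T' : ℝ} (h : Adm ψ T) (hT : T ≤ T') : Adm ψ T' :=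
  ⟨h.meas, h.nonneg, h.pos.trans hT, fun N x =>
    (h.norm N x).trans (mul_le_mul_of_nonneg_right hT (Q_nonneg x))⟩

lemma adm_psi {w : ℕ} (hw : 2 ≤ w) (k : ℕ) : Adm (psi w k) (4913 * T0 * (2 - 2 * (1 / 2) ^ k)) := by
  induction k with
  | zero => exact ⟨measurable_const, fun _ => le_rfl, by simp, fun N x => by simp [psi]⟩
  | succ k ih =>
    refine (ih.add_piece (sc_spec hw k) (mul_pos T0_pos (yy_pos hw k)).le).mono ?_
    have := mul_le_mul_of_nonneg_left (yy_le hw k) T0_pos.le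
    rw [pow_succ]; linarith

lemma psi_range {w : ℕ} (hw : 2 ≤ w) (k : ℕ) :
    ∀ r, ((8 * (ww w k ^ 8) ^ 2 : ℕ) : ℝ) < r → psi w k r = 0 := by
  induction k with
  | zero => intro r _; rfl
  | succ k ih =>
    intro r hr
    have h1 := (sc_spec hw k).rad
    have h2 : 1 ≤ ww w k ^ 8 := Nat.one_le_pow _ _ (by have := ww_two hw k; omega)
    have h3 : (ww w (k + 1) ^ 8) ^ 2 = (ww w k ^ 8) ^ 4 := by rw [ww_succ]; ring
    rw [h3] at hr
    have h4 : ((8 * (ww w k ^ 8) ^ 2 : ℕ) : ℝ) ≤ ((8 * (ww w k ^ 8) ^ 4 : ℕ) : ℝ) := by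
      exact_mod_cast Nat.mul_le_mul_left 8 (Nat.pow_le_pow_right h2 (by norm_num))
    change psi w k r + pc w k r = 0
    rw [ih r (h4.trans_lt hr), pc, piece, chi_neg]
    · simp
    · push_cast at hr h1 ⊢; linarith

lemma base_kink : Kink (P (F AA fun _ => 0)) KK AA 0 (1 / 27) 1 := by
  have h : Adm (fun _ => 0) 0 := ⟨measurable_const, fun _ => le_rfl, le_rfl, fun N x => by simp⟩
  have hA : (0 : ℝ) ≤ AA := by unfold AA; norm_num
  have g := good_F h hA
  have h1 : P (F AA fun _ => 0) AA ≤ 1 := by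
    refine ciSup_le fun l => ?_
    have hl : (0 : ℝ) ≤ l := Nat.cast_nonneg l
    have a1 : xi AA (F AA fun _ => 0) l ≤ Real.exp 0 * l ^ 3 := by
      apply le_of_exp
      rw [← lam_eq g.neg _ _ hl]
      refine le_trans (lam_mono (meas_box _) fun N x _ => ?_)
        (lam_le (f := fun _ _ => 0) (fun N x => by simp) 0 l hl)
      rw [Wt_conf, Wt_conf, Fintype.card_fin]
      have := sum_F_le h hA x
      have := mul_le_mul_of_nonneg_left (le_Q x) hA
      exact ENNReal.ofReal_le_ofReal (Real.exp_le_exp.2 (by simp; linarith))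
    rw [div_le_one (by positivity)]
    refine a1.trans ?_
    rw [Real.exp_zero, one_mul]; gcongr; linarith
  intro μ _
  constructor
  · intro _; linarith [P_nonneg g.neg μ]
  · intro _
    have a1 := P1 g.neg μ 1
    have a2 : μ - AA ≤ xi μ (F AA fun _ => 0) (1 : ℕ) := by
      apply le_of_exp
      rw [← lam_eq g.neg _ _ (by norm_num)]
      have := lam_one (box (1 : ℕ)) (Wt μ (F AA fun _ => 0)) (ENNReal.ofReal (Real.exp (μ - AA)))
        (meas_box _) fun x _ => by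
          simp [Wt, S, F, chi, sub_eq_add_neg]
      rw [vol_box _ (by norm_num)] at this
      simpa using this
    norm_num at a1 a2
    linarith

def big (w : ℕ) : Prop := 2 ≤ w ∧
  2 * ((24 * (4913 * T0 * 2) + 26 + 4913 * T0) * Real.exp KK ^ 2) ≤ (w : ℝ) ^ 4

lemma exists_big : ∃ w, big w := by
  obtain ⟨n, hn⟩ := exists_nat_ge (2 * ((24 * (4913 * T0 * 2) + 26 + 4913 * T0) * Real.exp KK ^ 2))
  refine ⟨n + 2, by omega, hn.trans ?_⟩
  have : n ≤ (n + 2) ^ 4 := le_trans (by omega) (Nat.le_self_pow (by norm_num) _)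
  exact_mod_cast this

lemma kink_psi {w : ℕ} (hb : big w) (k : ℕ) : ∃ μ ≤ AA + T0 * (1 - (1 / 2) ^ k),
    Kink (P (F AA (psi w k))) KK μ ((1 - (1 / 2) ^ k) / 108) (1 / 27 - (1 - (1 / 2) ^ k) / 108)
      (yy w k ^ 2) := by
  obtain ⟨hw, hb⟩ := hb
  induction k with
  | zero =>
    refine ⟨AA, by simp, ?_⟩
    have : yy w 0 = 1 := by
      have : (w : ℝ) ≠ 0 := by positivity
      simp [yy, ww, this]
    simpa [this, psi] using base_kink
  | succ k ih =>
    obtain ⟨μ, hμ, hk⟩ := ih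
    have y0 := yy_pos hw k
    have y1 := yy_le hw k
    obtain ⟨q, hq⟩ : ∃ q : ℝ, q = (1 / 2) ^ k := ⟨_, rfl⟩
    have q0 : 0 < q := by rw [hq]; positivity
    have q1 : q ≤ 1 := by rw [hq]; exact pow_le_one₀ (by norm_num) (by norm_num)
    have hW : (2 : ℝ) ≤ ww w k := by exact_mod_cast ww_two hw k
    have e1 : yy w (k + 1) ^ 2 = (w : ℝ) ^ 4 / (ww w k : ℝ) ^ 8 := by
      rw [yy, ww_succ]; push_cast; field_simp
    have e2 : yy w (k + 1) ^ 2 ≤ yy w k ^ 2 := by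
      rw [e1, yy, div_pow]
      rw [show ((w : ℝ) ^ 2) ^ 2 = w ^ 4 by ring, show ((ww w k : ℝ) ^ 2) ^ 2 = (ww w k : ℝ) ^ 4 by ring]
      gcongr
      · linarith
      · norm_num
    have a := adm_psi hw k
    rw [pow_succ (1 / 2 : ℝ) k]
    rw [← hq] at hμ hk y1 a ⊢
    obtain ⟨y, hy⟩ : ∃ y, y = yy w k := ⟨_, rfl⟩
    have hT : T0 = 10 ^ 6 := rfl
    have hyy : y ^ 2 ≤ y := by rw [hy]; nlinarith
    obtain ⟨μ1, h1, h2⟩ := step (T1 := 4913 * T0 * 2) (T0 := T0) (t := T0 * yy w k) (W := 1 / 54)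
      (e := yy w (k + 1) ^ 2 / 2) (sc_spec hw k) a (mul_pos T0_pos y0) (by rw [hT]; linarith)
      (by rw [hT]; linarith) (psi_range hw k) (by unfold AA T0; norm_num)
      (by unfold KK AA T0; norm_num)
      (by
        rw [e1, div_right_comm]
        push_cast
        exact div_le_div_of_nonneg_right (by linarith) (by positivity)) hk (by norm_num) (by linarith) (by unfold KK; rw [hT] at hμ ⊢; linarith)
      (sq_nonneg _) (by rw [hT]; rw [← hy] at e2 y0 ⊢; linarith)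
    refine ⟨μ1, by rw [hT] at hμ h1 ⊢; linarith, ?_⟩
    have e3 : 16 * (yy w k ^ 2 + 2 * (yy w (k + 1) ^ 2 / 2)) / (T0 * yy w k * (1 / 54)) ≤ q / 216 := by
      rw [div_le_iff₀ (by have := T0_pos; positivity), hT]
      have := mul_le_mul_of_nonneg_left y1 y0.le
      nlinarith
    exact h2.mono (by linarith) (by linarith) (by linarith)

def psiI (w : ℕ) (r : ℝ) : ℝ := ∑' j, pc w j r

lemma pc_nonneg {w : ℕ} (hw : 2 ≤ w) (j : ℕ) (r : ℝ) : 0 ≤ pc w j r :=
  mul_nonneg ((sc_spec hw j).tau_le (mul_pos T0_pos (yy_pos hw j)).le).1 (chi_nonneg _)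

lemma pc_le {w : ℕ} (hw : 2 ≤ w) (j : ℕ) (r : ℝ) : pc w j r ≤ T0 * (1 / 2) ^ j := by
  obtain ⟨h1, h2⟩ := (sc_spec hw j).tau_le (mul_pos T0_pos (yy_pos hw j)).le
  have h3 : (1 : ℝ) ≤ ((ww w j ^ 8 : ℕ) : ℝ) ^ 12 :=
    one_le_pow₀ (by exact_mod_cast le_trans (by norm_num) (sc_spec hw j).four)
  have h4 := mul_le_mul_of_nonneg_left h3 h1
  have h5 := mul_le_mul_of_nonneg_left (yy_le hw j) T0_pos.le
  have h6 := mul_le_mul_of_nonneg_left ((chi_mono (p := r ≤ (((sc (ww w j ^ 8) + 3) * (ww w j ^ 8) ^ 3 : ℕ) : ℝ))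
    fun _ => trivial).trans_eq (chi_pos trivial)) h1
  unfold pc piece; linarith

lemma summable_pc {w : ℕ} (hw : 2 ≤ w) (r : ℝ) : Summable fun j => pc w j r :=
  Summable.of_nonneg_of_le (fun j => pc_nonneg hw j r) (fun j => pc_le hw j r)
    (summable_geometric_two.mul_left _)

lemma tendsto_psi {w : ℕ} (hw : 2 ≤ w) (r : ℝ) :
    Tendsto (fun k => psi w k r) atTop (𝓝 (psiI w r)) := by
  simp only [psi_eq]; exact (summable_pc hw r).hasSum.tendsto_sum_nat

lemma psi_le {w : ℕ} (hw : 2 ≤ w) (k : ℕ) (r : ℝ) : psi w k r ≤ psiI w r := by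
  rw [psi_eq]; exact (summable_pc hw r).sum_le_tsum _ fun j _ => pc_nonneg hw j r

lemma psiI_le {w : ℕ} (hw : 2 ≤ w) (r : ℝ) : psiI w r ≤ T0 * 2 := by
  rw [← tsum_geometric_two, ← tsum_mul_left]
  exact (summable_pc hw r).tsum_le_tsum (fun j => pc_le hw j r) (summable_geometric_two.mul_left _)

lemma tail {w : ℕ} (hw : 2 ≤ w) (k : ℕ) (N : ℕ) (x : Fin N → E) :
    ∑ i, ∑ j, psiI w (dist (x i) (x j)) ≤
      ∑ i, ∑ j, psi w k (dist (x i) (x j)) + 4913 * T0 * (2 * (1 / 2) ^ k) * Q x := by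
  have h1 : ∀ n, k ≤ n → ∑ i, ∑ j, psi w n (dist (x i) (x j)) ≤ ∑ i, ∑ j, psi w k (dist (x i) (x j))
      + 4913 * T0 * (2 * (1 / 2) ^ k - 2 * (1 / 2) ^ n) * Q x := by
    intro n hn
    induction n, hn using Nat.le_induction with
    | base => simp
    | succ n _ ih =>
      have a1 := (sc_spec hw n).norm (mul_pos T0_pos (yy_pos hw n)).le x
      have a2 := mul_le_mul_of_nonneg_right
        (mul_le_mul_of_nonneg_left (yy_le hw n) T0_pos.le) (Q_nonneg x)
      simp only [psi, Finset.sum_add_distrib, pc]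
      rw [pow_succ (1 / 2 : ℝ) n]; linarith
  refine le_of_tendsto (tendsto_finsetSum _ fun i _ => tendsto_finsetSum _ fun j _ =>
    tendsto_psi hw _) ?_
  filter_upwards [eventually_ge_atTop k] with n hn
  have := mul_nonneg (mul_nonneg T0_pos.le (by positivity : (0 : ℝ) ≤ (1 / 2) ^ n)) (Q_nonneg x)
  linarith [h1 n hn]

lemma adm_psiI {w : ℕ} (hw : 2 ≤ w) : Adm (psiI w) (4913 * T0 * 2) where
  meas := measurable_of_tendsto_metrizable (fun k => (adm_psi hw k).meas)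
    (tendsto_pi_nhds.2 (tendsto_psi hw))
  nonneg := fun r => tsum_nonneg fun j => pc_nonneg hw j r
  pos := by have := T0_pos; positivity
  norm := fun N x => by simpa [psi] using tail hw 0 N x

lemma exists_not_diff {w : ℕ} (hb : big w) : ∃ m, ¬ DifferentiableAt ℝ (P (F AA (psiI w))) m := by
  have hw := hb.1
  choose μ hμ hk using kink_psi hb
  have q0 : ∀ k : ℕ, (0 : ℝ) < (1 / 2) ^ k := fun k => by positivity
  have hA : 4913 * T0 * 2 + 1 ≤ AA := by unfold AA T0; norm_num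
  refine not_diff (K := KK) (a := 1 / 108) (b := 1 / 27 - 1 / 108) (μ := μ)
    (ε := fun k => (1 + 4913 * T0 * 2 * Real.exp KK) * (1 / 2) ^ k) (by norm_num) (fun k => ?_) ?_
    (fun k => ?_)
  · have := hμ k
    have := mul_pos T0_pos (q0 k)
    unfold KK; linarith
  · have := (tendsto_pow_atTop_nhds_zero_of_lt_one (r := (1 / 2 : ℝ)) (by norm_num)
      (by norm_num)).const_mul (1 + 4913 * T0 * 2 * Real.exp KK)
    simpa using this
  · have a := (adm_psi hw k).mono (T' := 4913 * T0 * 2) (by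
      have := mul_pos T0_pos (q0 k); linarith)
    have h1 := (hk k).mono (a' := 1 / 108) (b' := 1 / 27 - 1 / 108) (δ' := (1 / 2) ^ k)
      (by linarith [q0 k]) (by linarith [q0 k]) (by
        have := yy_le hw k
        have := yy_pos hw k
        have : ((1 : ℝ) / 2) ^ k ≤ 1 := pow_le_one₀ (by norm_num) (by norm_num)
        nlinarith)
    have hμK : μ k ≤ KK := by
      have := hμ k
      have := mul_pos T0_pos (q0 k)
      unfold KK; linarith
    have h2 := P_cmp a (adm_psiI hw) (by linarith) hA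
      (by have := T0_pos; positivity) hμK (tail hw k)
    intro ν hν
    have h3 := P_mono (μ := ν) a (adm_psiI hw) (by linarith : _ ≤ AA) (by linarith) (psi_le hw k)
    constructor
    · intro h; have := (h1 ν hν).1 h; linarith
    · intro h; have := (h1 ν hν).2 h; linarith

lemma decay {w : ℕ} (hw : 2 ≤ w) {r : ℝ} (hr : 1 ≤ r) :
    psiI w r ≤ 1024 * T0 * w ^ 2 * 2 * r ^ (-3 - 1 / 32 : ℝ) := by
  have hT := T0_pos
  have h1 : ∀ j, pc w j r ≤ 1024 * T0 * w ^ 2 * r ^ (-3 - 1 / 32 : ℝ) * (1 / 2) ^ j := by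
    intro j
    unfold pc piece
    by_cases h : r ≤ (((sc (ww w j ^ 8) + 3) * (ww w j ^ 8) ^ 3 : ℕ) : ℝ)
    · rw [chi_pos h, mul_one]
      obtain ⟨a1, a2⟩ := (sc_spec hw j).tau_le (mul_pos T0_pos (yy_pos hw j)).le
      have a3 := h.trans (sc_spec hw j).rad
      generalize tau _ _ _ = τ at a1 a2 ⊢
      have a4 := ww_ge' hw j
      rw [yy] at a2
      push_cast at a2 a3
      generalize (ww w j : ℝ) = v at a2 a3 a4
      have hw' : (2 : ℝ) ≤ w := by exact_mod_cast hw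
      have b0 : (0 : ℝ) < 2 ^ j := by positivity
      have b1 : (2 : ℝ) ^ j ≤ v := le_trans (by nlinarith) a4
      have v0 : 0 < v := by linarith
      have r0 : 0 < r := by linarith
      have b2 : r ^ (1 / 32 : ℝ) ≤ 2 * v := by
        have : r ≤ (2 * v) ^ 32 := by
          have : 0 < v ^ 32 := by positivity
          calc r ≤ 8 * v ^ 32 := by linarith
            _ ≤ 2 ^ 32 * v ^ 32 := by gcongr; norm_num
            _ = _ := by ring
        calc r ^ (1 / 32 : ℝ) ≤ ((2 * v) ^ 32) ^ (1 / 32 : ℝ) := by gcongr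
          _ = _ := by
            rw [← Real.rpow_natCast, ← Real.rpow_mul (by positivity)]; norm_num
      have b3 : r ^ 3 ≤ 512 * (v ^ 8) ^ 12 := by
        calc r ^ 3 ≤ (8 * (v ^ 8) ^ 4) ^ 3 := by gcongr
          _ = _ := by ring
      have b4 : r ^ (-3 - 1 / 32 : ℝ) = (r ^ 3 * r ^ (1 / 32 : ℝ))⁻¹ := by
        rw [← Real.rpow_natCast, ← Real.rpow_add r0, ← Real.rpow_neg r0.le]; norm_num
      have b5 : τ * (r ^ 3 * r ^ (1 / 32 : ℝ)) ≤ 1024 * T0 * w ^ 2 * (1 / 2) ^ j := by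
        calc τ * (r ^ 3 * r ^ (1 / 32 : ℝ)) ≤ τ * (512 * (v ^ 8) ^ 12 * (2 * v)) := by gcongr
          _ = 1024 * (τ * (v ^ 8) ^ 12) * v := by ring
          _ ≤ 1024 * (T0 * (w ^ 2 / v ^ 2)) * v := by gcongr
          _ = 1024 * T0 * w ^ 2 * (1 / v) := by field_simp
          _ ≤ 1024 * T0 * w ^ 2 * (1 / 2 ^ j) := by gcongr
          _ = _ := by rw [one_div_pow]
      rw [b4, mul_right_comm, ← div_eq_mul_inv, le_div_iff₀ (by positivity)]
      exact b5
    · rw [chi_neg h, mul_zero]; positivity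
  have h2 := (summable_pc hw r).tsum_le_tsum h1 (summable_geometric_two.mul_left _)
  rw [tsum_mul_left, tsum_geometric_two] at h2
  unfold psiI; linarith

end

end Vale.Agent.P171.K
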