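import Vale.Agent.P171.K8

/-! Translation to the partition functions of the problem statement. -/

open MeasureTheory Set Filter Topology
open scoped ENNReal

namespace Vale.Agent.P171.K

noncomputable section

lemma energy_eq (f : ℝ → ℝ) {N : ℕ} (x : Fin N → E) :
    energy f x = (∑ i, ∑ j, f (dist (x i) (x j)) - N * f 0) / 2 := by
  have h := Finset.sum_sum_Ioi_add_eq_sum_sum_off_diag (fun i j : Fin N => f (dist (x i) (x j)))
  have h1 : ∑ i : Fin N, ∑ j ∈ Finset.Ioi i, (f (dist (x j) (x i)) + f (dist (x i) (x j))) =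
      2 * energy f x := by
    simp only [energy, Finset.mul_sum]
    refine Finset.sum_congr rfl fun i _ => Finset.sum_congr rfl fun j _ => ?_
    rw [dist_comm (x j)]; ring
  have h2 : ∑ i, ∑ j, f (dist (x i) (x j)) =
      ∑ i : Fin N, ∑ j ∈ {i}ᶜ, f (dist (x j) (x i)) + N * f 0 := by
    rw [Finset.sum_comm]
    have : (N : ℝ) * f 0 = ∑ _i : Fin N, f 0 := by simp
    rw [this, ← Finset.sum_add_distrib]
    refine Finset.sum_congr rfl fun i _ => ?_
    rw [← Finset.sum_compl_add_sum {i}]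
    simp
  rw [h2, ← h, h1]; ring

def pot (A : ℝ) (ψ : ℝ → ℝ) (r : ℝ) : ℝ := 2 * (A * chi (r < 2) - ψ r)

variable {A T : ℝ} {ψ : ℝ → ℝ}

lemma energy_pot (A : ℝ) (ψ : ℝ → ℝ) {N : ℕ} (x : Fin N → E) :
    energy (pot A ψ) x = -(∑ i, ∑ j, F A ψ (x i) (x j)) - N * (pot A ψ 0 / 2) := by
  have : ∑ i, ∑ j, pot A ψ (dist (x i) (x j)) = -2 * ∑ i, ∑ j, F A ψ (x i) (x j) := by
    simp only [Finset.mul_sum]
    refine Finset.sum_congr rfl fun i _ => Finset.sum_congr rfl fun j _ => ?_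
    simp only [pot, F]; ring
  rw [energy_eq, this]; ring

lemma box_sub (L : ℝ) : box L ⊆ cube L := fun _ hx i => ⟨(hx i).1, (hx i).2.le⟩

lemma sub_box (L : ℝ) : cube L ⊆ box (L + 1) := fun _ hx i => ⟨(hx i).1, by linarith [(hx i).2]⟩

lemma lam_cube (h : Good (F A ψ)) (μ L : ℝ) : lam (cube L) (Wt μ (F A ψ)) ≠ ∞ :=
  ne_top_of_le_ne_top ENNReal.ofReal_ne_top ((lam_mono_set ((sub_box L).trans
    (box_mono (by linarith [le_abs_self L] : L + 1 ≤ |L| + 1))) _).trans
    (lam_le h.neg μ _ (by positivity)))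

lemma term_ne_top (h : Good (F A ψ)) (μ L : ℝ) (N : ℕ) :
    ((N.factorial : ℝ≥0∞))⁻¹ * lamI (cube L) (Wt μ (F A ψ)) (Fin N) ≠ ∞ :=
  ne_top_of_le_ne_top (lam_cube h μ L) (ENNReal.le_tsum N)

lemma lamI_cube (μ L : ℝ) (N : ℕ) : lamI (cube L) (Wt μ (F A ψ)) (Fin N) =
    ∫⁻ x in cubeConf L N, ENNReal.ofReal (Real.exp ((μ - pot A ψ 0 / 2) * N) *
      Real.exp (-1 * energy (pot A ψ) x)) := by
  refine lintegral_congr fun x => ?_
  rw [Wt_conf, ← Real.exp_add, energy_pot, Fintype.card_fin]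
  congr 2; ring

lemma meas_sum {f : E → E → ℝ} (hf : Measurable (Function.uncurry f)) (N : ℕ) :
    Measurable (fun x : Fin N → E => ∑ i, ∑ j, f (x i) (x j)) := by
  refine Finset.measurable_sum _ fun i _ => Finset.measurable_sum _ fun j _ => ?_
  have h1 : Measurable (fun a : Fin N → E => (a i, a j)) :=
    (measurable_pi_apply i).prodMk (measurable_pi_apply j)
  exact hf.comp h1

lemma meas_boltz (h : Good (F A ψ)) (N : ℕ) :
    Measurable (fun x : Fin N → E => Real.exp (-1 * energy (pot A ψ) x)) := by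
  have h0 := meas_sum h.meas N
  have e : (fun x : Fin N → E => energy (pot A ψ) x) = fun x =>
      -(∑ i, ∑ j, F A ψ (x i) (x j)) - N * (pot A ψ 0 / 2) := funext (energy_pot A ψ)
  have h2 : Measurable (fun x : Fin N → E => energy (pot A ψ) x) := by
    rw [e]; exact h0.neg.sub_const _
  exact (h2.const_mul _).exp

lemma integrable_boltz (h : Good (F A ψ)) (L : ℝ) (N : ℕ) :
    IntegrableOn (fun x : Fin N → E => Real.exp (-1 * energy (pot A ψ) x)) (cubeConf L N) := by
  refine ⟨(meas_boltz h N).aestronglyMeasurable,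
    (hasFiniteIntegral_iff_ofReal (ae_of_all _ fun _ => (Real.exp_pos _).le)).2 ?_⟩
  have h1 := term_ne_top h (pot A ψ 0 / 2) L N
  rw [lamI_cube] at h1
  simp only [sub_self, zero_mul, Real.exp_zero, one_mul] at h1
  refine lt_top_iff_ne_top.2 fun hc => h1 ?_
  rw [hc, ENNReal.mul_top (by simp)]

lemma term_eq (h : Good (F A ψ)) {z : ℝ} (hz : 0 < z) (L : ℝ) (N : ℕ) :
    z ^ N * canonicalZ (pot A ψ) 1 L N = (((N.factorial : ℝ≥0∞))⁻¹ *
      lamI (cube L) (Wt (Real.log z + pot A ψ 0 / 2) (F A ψ)) (Fin N)).toReal := by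
  rw [lamI_cube, ← ofReal_integral_eq_lintegral_ofReal ((integrable_boltz h L N).const_mul _)
    (ae_of_all _ fun _ => by positivity), ENNReal.toReal_mul, ENNReal.toReal_ofReal
    (integral_nonneg fun _ => by positivity), integral_const_mul, canonicalZ]
  rw [add_sub_cancel_right, mul_comm (Real.log z), Real.exp_nat_mul, Real.exp_log hz]
  simp only [ENNReal.toReal_inv, ENNReal.toReal_natCast]
  ring

lemma summable_terms (h : Good (F A ψ)) {z : ℝ} (hz : 0 < z) (L : ℝ) :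
    Summable fun N => z ^ N * canonicalZ (pot A ψ) 1 L N := by
  simp only [term_eq h hz]
  exact ENNReal.summable_toReal (lam_cube h _ L)

lemma tendsto_grandZ (h : Good (F A ψ)) {z : ℝ} (hz : 0 < z) :
    Tendsto (fun L : ℝ => Real.log (grandZ (pot A ψ) 1 z L) / L ^ 3) atTop
      (𝓝 (P (F A ψ) (Real.log z + pot A ψ 0 / 2))) := by
  have e : ∀ L, grandZ (pot A ψ) 1 z L =
      (lam (cube L) (Wt (Real.log z + pot A ψ 0 / 2) (F A ψ))).toReal := fun L => by
    simp only [grandZ, term_eq h hz]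
    rw [lam, ENNReal.tsum_toReal_eq fun N => term_ne_top h _ L N]
  simp only [e]
  exact P4 h _ cube box_sub sub_box

lemma stable_pot (h : Good (F A ψ)) : Stable (pot A ψ) :=
  ⟨pot A ψ 0 / 2, fun N x _ => by rw [energy_pot]; linarith [h.neg N x]⟩

theorem exists_pot : ∃ (A : ℝ) (ψ : ℝ → ℝ), Good (F A ψ) ∧ Measurable (pot A ψ) ∧
    (∃ M, ∀ r, |pot A ψ r| ≤ M) ∧
    (∃ C, 0 < C ∧ ∀ r : ℝ, 2 ≤ r → |pot A ψ r| ≤ C * r ^ (-3 - 1 / 32 : ℝ)) ∧
    ∃ m, ¬ DifferentiableAt ℝ (P (F A ψ)) m := by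
  obtain ⟨w, hb⟩ := exists_big
  have hw := hb.1
  have a := adm_psiI hw
  have hT := T0_pos
  have hA : (0 : ℝ) ≤ AA := by unfold AA; norm_num
  refine ⟨AA, psiI w, good_F a (by unfold AA T0; norm_num),
    (((meas_chi (measurableSet_lt measurable_id measurable_const)).const_mul _).sub
      a.meas).const_mul _, ⟨2 * (AA + T0 * 2), fun r => ?_⟩,
    ⟨2 * (1024 * T0 * w ^ 2 * 2), by positivity, fun r hr => ?_⟩, exists_not_diff hb⟩
  · have h1 := psiI_le hw r
    have h2 := a.nonneg r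
    have h3 := mul_nonneg hA (chi_nonneg (r < 2))
    have h4 := mul_le_mul_of_nonneg_left
      ((chi_mono (p := r < 2) fun _ => trivial).trans_eq (chi_pos trivial)) hA
    rw [pot, abs_le]; constructor <;> linarith
  · have h1 := decay hw (by linarith : 1 ≤ r)
    have h2 := a.nonneg r
    rw [pot, chi_neg (not_lt.2 hr), abs_le]; constructor <;> linarith

end

end Vale.Agent.P171.K
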