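import Vale.Agent.P171.Sums
import Vale.Agent.P171.Defs

/-! Boxes, grids and the Kac kernels. -/

open MeasureTheory Set Metric
open scoped ENNReal Nat

namespace Vale.Agent.P171

def Box (a : E) (L : ℝ) : Set E := {x | ∀ i, a i ≤ x i ∧ x i < a i + L}

lemma measurable_coord (i : Fin 3) : Measurable (fun x : E => x i) := by fun_prop

lemma measurableSet_Box (a : E) (L : ℝ) : MeasurableSet (Box a L) := by
  have : Box a L = ⋂ i, (fun x : E => x i) ⁻¹' Ico (a i) (a i + L) := by
    ext x; simp [Box]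
  rw [this]
  exact MeasurableSet.iInter fun i => measurable_coord i measurableSet_Ico

lemma volume_Box (a : E) {L : ℝ} (hL : 0 ≤ L) : volume (Box a L) = ENNReal.ofReal (L ^ 3) := by
  have : Box a L = (WithLp.ofLp : E → Fin 3 → ℝ) ⁻¹' (Set.pi univ fun i => Ico (a i) (a i + L)) := by
    ext x; simp [Box]
  rw [this, (PiLp.volume_preserving_ofLp (Fin 3)).measure_preimage
    (MeasurableSet.univ_pi fun i => measurableSet_Ico).nullMeasurableSet, Real.volume_pi_Ico]
  simp [ENNReal.ofReal_pow hL]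

noncomputable def idx (l : ℝ) (x : E) : Fin 3 → ℤ := fun i => ⌊x i / l⌋

noncomputable def pt (l : ℝ) (k : Fin 3 → ℤ) : E := WithLp.toLp 2 fun i => l * k i

@[simp] lemma pt_apply (l : ℝ) (k : Fin 3 → ℤ) (i : Fin 3) : pt l k i = l * k i := rfl

lemma mem_Box_pt {l : ℝ} (hl : 0 < l) (k : Fin 3 → ℤ) (x : E) :
    x ∈ Box (pt l k) l ↔ idx l x = k := by
  simp only [Box, mem_ofPred_eq, pt_apply, idx, funext_iff, Int.floor_eq_iff]
  refine forall_congr' fun i => ?_
  rw [le_div_iff₀ hl, div_lt_iff₀ hl]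
  constructor <;> rintro ⟨h1, h2⟩ <;> constructor <;> linarith

lemma coord_le_dist (x y : E) (i : Fin 3) : |x i - y i| ≤ dist x y := by
  rw [dist_eq_norm]
  simpa using PiLp.norm_apply_le (x - y) i

lemma dist_lt_of_Box {a x y : E} {L : ℝ} (hx : x ∈ Box a L) (hy : y ∈ Box a L) :
    dist x y < 2 * L := by
  have hL : 0 < L := by have := hx 0; linarith [this.1, this.2]
  rw [EuclideanSpace.dist_eq, Real.sqrt_lt' (by linarith), Fin.sum_univ_three]
  have h : ∀ i, dist (x i) (y i) ^ 2 ≤ L ^ 2 := fun i => by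
    rw [Real.dist_eq, sq_abs]
    apply sq_le_sq'
    · linarith [(hx i).1, (hy i).2]
    · linarith [(hx i).2, (hy i).1]
  nlinarith [h 0, h 1, h 2]

lemma Box_disjoint {l : ℝ} (hl : 0 < l) {j k : Fin 3 → ℤ} (h : j ≠ k) :
    Disjoint (Box (pt l j) l) (Box (pt l k) l) :=
  Set.disjoint_left.2 fun x h1 h2 =>
    h (((mem_Box_pt hl j x).1 h1).symm.trans ((mem_Box_pt hl k x).1 h2))

open Classical in
noncomputable def same (l : ℝ) (x y : E) : ℝ := if idx l x = idx l y then 1 else 0

noncomputable def Q (l : ℝ) (m : Multiset E) : ℝ := D (same l) m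

noncomputable def Dd (f : ℝ → ℝ) (m : Multiset E) : ℝ := D (fun x y => f (dist x y)) m

lemma Q_nonneg (l : ℝ) (m : Multiset E) : 0 ≤ Q l m :=
  D_nonneg fun x _ y _ => by unfold same; split_ifs <;> norm_num

lemma Dd_nonneg {f : ℝ → ℝ} (hf : ∀ r, 0 ≤ f r) (m : Multiset E) : 0 ≤ Dd f m :=
  D_nonneg fun _ _ _ _ => hf _

lemma Dd_add (f g : ℝ → ℝ) (m : Multiset E) :
    Dd (fun r => f r + g r) m = Dd f m + Dd g m := D_add _ _ m

lemma Dd_mul (c : ℝ) (f : ℝ → ℝ) (m : Multiset E) : Dd (fun r => c * f r) m = c * Dd f m :=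
  D_mul _ _ m

lemma measurable_Dd {f : ℝ → ℝ} (hf : Measurable f) : Measurable (Dd f) :=
  measurable_D (hf.comp measurable_dist)

lemma Dd_map_sub (f : ℝ → ℝ) (t : E) (m : Multiset E) : Dd f (m.map (· - t)) = Dd f m := by
  simp [Dd, D_map]

noncomputable def v1 : ℝ := (volume (ball (0 : E) 1)).toReal

lemma v1_pos : 0 < v1 :=
  ENNReal.toReal_pos (measure_ball_pos volume _ one_pos).ne' measure_ball_lt_top.ne

lemma volume_ball_real (x : E) {R : ℝ} (hR : 0 < R) : (volume (ball x R)).toReal = R ^ 3 * v1 := by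
  rw [Measure.addHaar_ball_of_pos _ x hR, ENNReal.toReal_mul, ENNReal.toReal_ofReal (by positivity)]
  simp [v1]

noncomputable def e0 : E := EuclideanSpace.single 0 1

lemma norm_e0 : ‖e0‖ = 1 := by simp [e0]

noncomputable def J (R r : ℝ) : ℝ :=
  (volume (ball (0 : E) R ∩ ball (r • e0) R)).toReal / (R ^ 3 * v1) ^ 2

lemma J_nonneg (R r : ℝ) : 0 ≤ J R r := by unfold J; positivity

lemma measurable_J (R : ℝ) : Measurable (J R) := by
  have hs : MeasurableSet {p : ℝ × E | p.2 ∈ ball (0 : E) R ∧ dist p.2 (p.1 • e0) < R} := by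
    refine MeasurableSet.inter (measurable_snd measurableSet_ball) ?_
    have h : Measurable (fun p : ℝ × E => dist p.2 (p.1 • e0)) := by fun_prop
    exact measurableSet_lt h measurable_const
  have := (measurable_measure_prodMk_left (ν := (volume : Measure E)) hs).ennreal_toReal
  exact this.div_const _

lemma J_le {R : ℝ} (hR : 1 ≤ R) (r : ℝ) : J R r ≤ v1⁻¹ := by
  have h0 : 0 < R := by linarith
  have h1 : (volume (ball (0 : E) R ∩ ball (r • e0) R)).toReal ≤ R ^ 3 * v1 := by
    rw [← volume_ball_real 0 h0]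
    exact ENNReal.toReal_mono measure_ball_lt_top.ne (measure_mono inter_subset_left)
  have hv := v1_pos
  have h3 : 1 ≤ R ^ 3 := one_le_pow₀ hR
  unfold J
  rw [div_le_iff₀ (by positivity)]
  refine h1.trans ?_
  have : v1⁻¹ * (R ^ 3 * v1) ^ 2 = R ^ 3 * (R ^ 3 * v1) := by field_simp
  rw [this]
  exact le_mul_of_one_le_left (by positivity) h3

lemma J_eq_zero {R r : ℝ} (h : 2 * R ≤ r) (hR : 0 < R) : J R r = 0 := by
  have : ball (0 : E) R ∩ ball (r • e0) R = ∅ := by
    refine Set.disjoint_iff_inter_eq_empty.1 (ball_disjoint_ball ?_)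
    rw [dist_comm, dist_zero_right, norm_smul, norm_e0, mul_one,
      Real.norm_eq_abs, abs_of_nonneg (by linarith)]
    linarith
  simp [J, this]

lemma volume_inter_ball (R : ℝ) (x y : E) :
    volume (ball (0 : E) R ∩ ball (dist x y • e0) R) = volume (ball x R ∩ ball y R) := by
  have hn : ‖y - x‖ = ‖dist x y • e0‖ := by
    rw [norm_smul, norm_e0, mul_one, Real.norm_eq_abs,
      abs_of_nonneg dist_nonneg, dist_comm, dist_eq_norm]
  set f := Submodule.reflection (ℝ ∙ ((y - x) - dist x y • e0))ᗮ with hf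
  have hfy : f (y - x) = dist x y • e0 := Submodule.reflection_sub hn
  have hmp : MeasurePreserving (fun u : E => f (u - x)) volume volume :=
    f.measurePreserving.comp (measurePreserving_sub_right volume x)
  rw [← hmp.measure_preimage (measurableSet_ball.inter measurableSet_ball).nullMeasurableSet]
  congr 1
  ext u
  simp only [mem_preimage, mem_inter_iff, mem_ball]
  rw [← hfy, f.dist_map, dist_zero_right, f.norm_map, dist_sub_right, dist_eq_norm u x]

noncomputable def ind (R : ℝ) (x u : E) : ℝ := (ball x R).indicator 1 u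

lemma ind_mul (R : ℝ) (x y u : E) :
    ind R x u * ind R y u = (ball x R ∩ ball y R).indicator 1 u := by
  simp [ind, Set.inter_indicator_one]

lemma integrable_ind2 (R : ℝ) (x y : E) : Integrable (fun u => ind R x u * ind R y u) := by
  simp_rw [ind_mul]
  refine (integrable_indicator_iff (measurableSet_ball.inter measurableSet_ball)).2 ?_
  exact integrableOn_const ((measure_mono inter_subset_left).trans_lt measure_ball_lt_top).ne

lemma integrable_ind (R : ℝ) (x : E) : Integrable (fun u => ind R x u) :=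
  (integrable_indicator_iff measurableSet_ball).2 (integrableOn_const measure_ball_lt_top.ne)

lemma integral_ind {R : ℝ} (hR : 0 < R) (x : E) : ∫ u, ind R x u = R ^ 3 * v1 := by
  simp only [ind]
  rw [integral_indicator_one measurableSet_ball, Measure.real, volume_ball_real x hR]

lemma J_dist (R : ℝ) (x y : E) :
    J R (dist x y) = ((R ^ 3 * v1) ^ 2)⁻¹ * ∫ u, ind R x u * ind R y u := by
  simp_rw [ind_mul]
  rw [integral_indicator_one (measurableSet_ball.inter measurableSet_ball), J, volume_inter_ball,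
    Measure.real, div_eq_inv_mul]

lemma Dd_J (R : ℝ) (m : Multiset E) :
    Integrable (fun u => (S (fun x => ind R x u) m) ^ 2) ∧
    Dd (J R) m = ((R ^ 3 * v1) ^ 2)⁻¹ * ∫ u, (S (fun x => ind R x u) m) ^ 2 := by
  have h := D_integral volume (g := fun x y u => ind R x u * ind R y u) (integrable_ind2 R) m
  simp only [D_prod, ← sq] at h
  refine ⟨h.1, ?_⟩
  rw [h.2, ← D_mul, Dd]
  exact D_congr fun x _ y _ => J_dist R x y

lemma J_lower {R L : ℝ} (hR : 0 < R) (hL : 0 ≤ L) (ρ : ℝ) {m : Multiset E}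
    (hm : ∀ x ∈ m, x ∈ Box 0 L) : 2 * ρ * m.card - ρ ^ 2 * (L + 2 * R) ^ 3 ≤ Dd (J R) m := by
  obtain ⟨hi, he⟩ := Dd_J R m
  have hv := v1_pos
  set v := R ^ 3 * v1 with hvdef
  have hv0 : 0 < v := by positivity
  set G := Box (WithLp.toLp 2 fun _ => -R) (L + 2 * R) with hG
  have hGv : volume G = ENNReal.ofReal ((L + 2 * R) ^ 3) := volume_Box _ (by linarith)
  have hGi : Integrable (G.indicator (1 : E → ℝ)) :=
    (integrable_indicator_iff (measurableSet_Box _ _)).2
      (integrableOn_const (by rw [hGv]; exact ENNReal.ofReal_ne_top))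
  obtain ⟨h1, h2⟩ := S_integral volume (g := fun x u => ind R x u) (integrable_ind R) m
  simp only [integral_ind hR, S_const] at h2
  have key : ∫ u, (2 * (ρ * v) * S (fun x => ind R x u) m - (ρ * v) ^ 2 * G.indicator 1 u) ≤
      ∫ u, (S (fun x => ind R x u) m) ^ 2 := by
    refine integral_mono ((h1.const_mul _).sub (hGi.const_mul _)) hi fun u => ?_
    by_cases hu : u ∈ G
    · simp only [indicator_of_mem hu, Pi.one_apply]
      nlinarith [sq_nonneg (S (fun x => ind R x u) m - ρ * v)]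
    · have : S (fun x => ind R x u) m = 0 := by
        rw [S_congr (g := fun _ => 0), S_const, zero_mul]
        intro x hx
        refine indicator_of_notMem (fun hb => hu fun i => ?_) _
        have h3 := coord_le_dist u x i
        have h4 := hm x hx i
        rw [mem_ball] at hb
        have h5 := abs_lt.1 (h3.trans_lt hb)
        simp only [PiLp.zero_apply] at h4
        constructor <;> simp only [] <;> linarith [h4.1, h4.2, h5.1, h5.2]
      simp [this, indicator_of_notMem hu]
  rw [integral_sub (h1.const_mul _) (hGi.const_mul _), integral_const_mul, integral_const_mul, h2,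
    integral_indicator_one (measurableSet_Box _ _), Measure.real, hGv,
    ENNReal.toReal_ofReal (by positivity)] at key
  rw [he]
  refine le_trans (le_of_eq ?_) (mul_le_mul_of_nonneg_left key (by positivity))
  rw [← hvdef]
  field_simp

lemma card_cells {l R : ℝ} (hl : 0 < l) (hR : 0 < R) (u : E) (T : Finset (Fin 3 → ℤ))
    (hT : ∀ k ∈ T, ∃ x, idx l x = k ∧ dist u x < R) :
    (T.card : ℝ) * l ^ 3 ≤ (R + 2 * l) ^ 3 * v1 := by
  have h1 : volume (⋃ k ∈ T, Box (pt l k) l) = T.card * ENNReal.ofReal (l ^ 3) := by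
    rw [measure_biUnion_finset (fun j _ k _ h => Box_disjoint hl h)
      (fun k _ => measurableSet_Box _ _)]
    simp [volume_Box _ hl.le]
  have h2 : (⋃ k ∈ T, Box (pt l k) l) ⊆ ball u (R + 2 * l) := by
    intro y hy
    simp only [mem_iUnion] at hy
    obtain ⟨k, hk, hy⟩ := hy
    obtain ⟨x, hx, hux⟩ := hT k hk
    have := dist_lt_of_Box hy ((mem_Box_pt hl k x).2 hx)
    rw [mem_ball]
    linarith [dist_triangle y x u, dist_comm x u]
  have h3 := ENNReal.toReal_mono measure_ball_lt_top.ne (measure_mono (μ := volume) h2)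
  rw [h1, volume_ball_real u (by linarith), ENNReal.toReal_mul,
    ENNReal.toReal_ofReal (by positivity)] at h3
  simpa using h3

lemma sq_ind_le {l R : ℝ} (hl : 0 < l) (hR : 0 < R) (u : E) (m : Multiset E) :
    (S (fun x => ind R x u) m) ^ 2 ≤
      (R + 2 * l) ^ 3 * v1 / l ^ 3 * D (fun x y => same l x y * ind R x u) m := by
  classical
  set T := (m.toFinset.filter fun x => dist u x < R).image (idx l) with hT
  have hc : (T.card : ℝ) ≤ (R + 2 * l) ^ 3 * v1 / l ^ 3 := by
    rw [le_div_iff₀ (by positivity)]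
    refine card_cells hl hR u T fun k hk => ?_
    obtain ⟨x, hx, rfl⟩ := Finset.mem_image.1 hk
    exact ⟨x, rfl, (Finset.mem_filter.1 hx).2⟩
  set g : (Fin 3 → ℤ) → E → ℝ := fun k x => if idx l x = k then ind R x u else 0 with hg
  have h1 : S (fun x => ind R x u) m = ∑ k ∈ T, S (g k) m := by
    rw [← S_sum]
    refine S_congr fun x hx => ?_
    simp only [hg, Finset.sum_ite_eq]
    split_ifs with h
    · rfl
    · refine indicator_of_notMem (fun hb => h ?_) _
      exact Finset.mem_image.2 ⟨x, Finset.mem_filter.2 ⟨by simpa using hx, by simpa using hb⟩, rfl⟩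
  have h2 : ∑ k ∈ T, (S (g k) m) ^ 2 ≤ D (fun x y => same l x y * ind R x u) m := by
    simp only [sq, ← D_prod]
    rw [← D_sum]
    refine D_mono fun x _ y _ => ?_
    have hi0 : ∀ z, 0 ≤ ind R z u := fun z => indicator_nonneg (fun _ _ => zero_le_one) _
    have hi1 : ∀ z, ind R z u ≤ 1 := fun z => indicator_le_self' (fun _ _ => zero_le_one) _
    simp only [hg, ite_mul, zero_mul, Finset.sum_ite_eq, same]
    split_ifs with h3 h4 h5 h6 h7
    · rw [one_mul]; exact mul_le_of_le_one_right (hi0 x) (hi1 y)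
    · exact absurd h4.symm h5
    · simpa using hi0 x
    · simp
    · simpa using hi0 x
    · simp
  have h3 : 0 ≤ ∑ k ∈ T, (S (g k) m) ^ 2 := Finset.sum_nonneg fun _ _ => sq_nonneg _
  rw [h1]
  calc _ ≤ T.card * ∑ k ∈ T, (S (g k) m) ^ 2 := sq_sum_le_card_mul_sum_sq
    _ ≤ _ := mul_le_mul hc h2 h3 (by have := v1_pos; positivity)

lemma J_upper {l R : ℝ} (hl : 0 < l) (hR : 0 < R) (m : Multiset E) :
    Dd (J R) m ≤ (1 + 2 * l / R) ^ 3 * (Q l m / l ^ 3) := by
  obtain ⟨hi, he⟩ := Dd_J R m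
  have hv := v1_pos
  obtain ⟨h1, h2⟩ := D_integral volume (g := fun x y u => same l x y * ind R x u)
    (fun x y => (integrable_ind R x).const_mul _) m
  simp only [integral_const_mul, integral_ind hR] at h2
  have h3 : D (fun x y => same l x y * (R ^ 3 * v1)) m = R ^ 3 * v1 * Q l m := by
    rw [Q, ← D_mul]; exact D_congr fun _ _ _ _ => mul_comm _ _
  have key := integral_mono hi (h1.const_mul ((R + 2 * l) ^ 3 * v1 / l ^ 3))
    (fun u => sq_ind_le hl hR u m)
  rw [integral_const_mul, h2, h3] at key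
  rw [he]
  refine (mul_le_mul_of_nonneg_left key (by positivity)).trans (le_of_eq ?_)
  field_simp

/-- Control of a functional by the fine-grid pair counts. -/
def Ctl (κ : ℝ) (W : Multiset E → ℝ) : Prop :=
  ∀ l : ℝ, 0 < l → l ≤ 1 → ∀ m, W m ≤ κ * (Q l m / l ^ 3)

lemma Ctl_J {R : ℝ} (hR : 1 ≤ R) : Ctl 27 (Dd (J R)) := by
  intro l hl hl1 m
  refine (J_upper hl (by linarith) m).trans (mul_le_mul_of_nonneg_right ?_ ?_)
  · have : 2 * l / R ≤ 2 := by rw [div_le_iff₀ (by linarith)]; nlinarith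
    have h0 : 0 ≤ 2 * l / R := by positivity
    calc (1 + 2 * l / R) ^ 3 ≤ 3 ^ 3 := by gcongr; linarith
      _ = 27 := by norm_num
  · have := Q_nonneg l m; positivity

noncomputable def core (r : ℝ) : ℝ := if r < 1 then (r⁻¹) ^ 4 else 0

lemma core_nonneg (r : ℝ) : 0 ≤ core r := by unfold core; split_ifs <;> positivity

lemma measurable_core : Measurable core :=
  Measurable.ite measurableSet_Iio (by fun_prop) measurable_const

lemma core_zero : core 0 = 0 := by simp [core]

lemma core_bound (κ θ : ℝ) (hκ : 0 ≤ κ) (hθ : 0 < θ) : ∃ b : ℝ, 0 ≤ b ∧ ∀ m : Multiset E,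
    m.Nodup → ∀ W, Ctl κ W → W m ≤ θ * Dd core m + b * m.card := by
  classical
  set M : ℝ := 16 * κ / θ + 2 with hM
  have hM0 : 0 ≤ 16 * κ / θ := by positivity
  have hM2 : 2 ≤ M := by linarith
  have hMp : 0 < M := by linarith
  refine ⟨θ * (M ^ 4 / 16), by positivity, fun m hm W hW => ?_⟩
  have h1 := hW M⁻¹ (by positivity) (inv_le_one_of_one_le₀ (by linarith)) m
  have h2 : M ^ 4 / 16 * Q M⁻¹ m ≤ Dd core m + M ^ 4 / 16 * m.card := by
    rw [← D_diag hm, ← D_mul, Q, ← D_mul, Dd, ← D_add]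
    refine D_mono fun x _ y _ => ?_
    have hc := core_nonneg (dist x y)
    unfold same
    split_ifs with h3 h4 h5
    · linarith
    · have hd := dist_lt_of_Box ((mem_Box_pt (l := M⁻¹) (by positivity) _ x).2 h3)
        ((mem_Box_pt (l := M⁻¹) (by positivity) _ y).2 rfl)
      have hp : 0 < dist x y := dist_pos.2 h4
      have h6 : 2 * M⁻¹ ≤ 1 := by rw [← div_eq_mul_inv, div_le_one hMp]; exact hM2
      have h7 : M / 2 ≤ (dist x y)⁻¹ := by
        rw [le_inv_comm₀ (by positivity) hp, inv_div, div_eq_mul_inv]; exact hd.le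
      have h8 : (M / 2) ^ 4 ≤ ((dist x y)⁻¹) ^ 4 := by gcongr
      simp only [core, if_pos (hd.trans_le h6)]
      nlinarith
    · have : 0 ≤ M ^ 4 / 16 := by positivity
      linarith
    · linarith
  have hQ := Q_nonneg M⁻¹ m
  have h3 : κ * (Q M⁻¹ m / M⁻¹ ^ 3) ≤ θ * (M ^ 4 / 16 * Q M⁻¹ m) := by
    have h4 : κ ≤ θ * M / 16 := by
      rw [hM]; field_simp; nlinarith
    calc κ * (Q M⁻¹ m / M⁻¹ ^ 3) = κ * (M ^ 3 * Q M⁻¹ m) := by field_simp
      _ ≤ θ * M / 16 * (M ^ 3 * Q M⁻¹ m) := by gcongr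
      _ = _ := by ring
  nlinarith [mul_le_mul_of_nonneg_left h2 hθ.le]

end Vale.Agent.P171
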