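import Mathlib

/-! Kinks of convex functions and of their mean-field transforms. -/

open Set Filter Topology

namespace Vale.Agent.P171

def Dl (p : ℝ → ℝ) (μ s : ℝ) : ℝ := p (μ + s) + p (μ - s) - 2 * p μ

variable {p : ℝ → ℝ}

lemma cvx_cont (hp : ConvexOn ℝ univ p) : Continuous p :=
  continuousOn_univ.1 (hp.continuousOn isOpen_univ)

lemma Dl_scale (hp : ConvexOn ℝ univ p) {μ r s c : ℝ} (hr : 0 < r) (hrs : r ≤ s)
    (h : c * r ≤ Dl p μ r) : c * s ≤ Dl p μ s := by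
  have hs : 0 < s := by linarith
  have ht : 0 ≤ r / s := by positivity
  have ht1 : 0 ≤ 1 - r / s := by rw [sub_nonneg, div_le_one hs]; exact hrs
  have h1 := hp.2 (mem_univ μ) (mem_univ (μ + s)) ht1 ht (by ring)
  have h2 := hp.2 (mem_univ μ) (mem_univ (μ - s)) ht1 ht (by ring)
  simp only [smul_eq_mul] at h1 h2
  rw [show (1 - r / s) * μ + r / s * (μ + s) = μ + r by field_simp; ring] at h1
  rw [show (1 - r / s) * μ + r / s * (μ - s) = μ - r by field_simp; ring] at h2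
  have h3 : c * r ≤ r / s * Dl p μ s := by unfold Dl at h ⊢; linarith
  rw [div_mul_eq_mul_div, le_div_iff₀ hs] at h3
  nlinarith

lemma touch (hp : ConvexOn ℝ univ p) {ε μ m ν : ℝ} (hε : 0 < ε)
    (hQ : ∀ x, p x ≤ m + (x - μ) ^ 2 / (2 * ε)) (heq : p ν = m + (ν - μ) ^ 2 / (2 * ε)) (x : ℝ) :
    m + (x - μ) ^ 2 / (2 * ε) - (x - ν) ^ 2 / (2 * ε) ≤ p x := by
  have key : ∀ t : ℝ, 0 < t → m + (x - μ) ^ 2 / (2 * ε) - (x - ν) ^ 2 / (2 * ε) ≤
      p x + t * ((x - ν) ^ 2 / (2 * ε)) := by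
    intro t ht
    have h1 := hp.2 (mem_univ (ν - t * (x - ν))) (mem_univ x)
      (show 0 ≤ 1 / (1 + t) by positivity) (show 0 ≤ t / (1 + t) by positivity) (by field_simp)
    simp only [smul_eq_mul] at h1
    rw [show 1 / (1 + t) * (ν - t * (x - ν)) + t / (1 + t) * x = ν by field_simp; ring] at h1
    have h2 : (1 + t) * p ν ≤ p (ν - t * (x - ν)) + t * p x := by
      have := mul_le_mul_of_nonneg_left h1 (show 0 ≤ 1 + t by linarith)
      refine this.trans (le_of_eq ?_); field_simp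
    have h3 := hQ (ν - t * (x - ν))
    rw [heq] at h2
    refine le_of_mul_le_mul_left ?_ ht
    have e : (1 + t) * (m + (ν - μ) ^ 2 / (2 * ε)) - (m + (ν - t * (x - ν) - μ) ^ 2 / (2 * ε)) =
        t * (m + (x - μ) ^ 2 / (2 * ε) - (x - ν) ^ 2 / (2 * ε)) -
          t * (t * ((x - ν) ^ 2 / (2 * ε))) := by field_simp; ring
    linarith
  refine le_of_forall_pos_le_add fun δ hδ => ?_
  set a := (x - ν) ^ 2 / (2 * ε) with ha
  have ha0 : 0 ≤ a := by positivity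
  refine (key (δ / (a + 1)) (by positivity)).trans ?_
  have : δ / (a + 1) * a ≤ δ := by
    rw [div_mul_eq_mul_div, div_le_iff₀ (by positivity)]; nlinarith
  linarith

lemma exists_bitangent (hc : Continuous p) (hmono : Monotone p) (h0 : ∀ x, 0 ≤ p x)
    {ε μ C : ℝ} (hε : 0 < ε) (hC : 0 ≤ C) (hg : ∀ x, p x ≤ C + (x - μ) ^ 2 / (4 * ε)) :
    ∃ μ' m ν₁ ν₂, μ' ≤ μ ∧ ν₁ ≤ μ ∧ μ ≤ ν₂ ∧ (∀ x, p x ≤ m + (x - μ') ^ 2 / (2 * ε)) ∧
      p ν₁ = m + (ν₁ - μ') ^ 2 / (2 * ε) ∧ p ν₂ = m + (ν₂ - μ') ^ 2 / (2 * ε) := by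
  set d : ℝ := 4 * ε * C + 1 with hd
  have hd0 : 0 ≤ 4 * ε * C := by positivity
  have hd1 : 1 ≤ d := by linarith
  have hd2 : 4 * ε * C ≤ d ^ 2 := by nlinarith
  set f : ℝ → ℝ → ℝ := fun a x => p x - (x - a) ^ 2 / (2 * ε) with hf
  have hfc : Continuous (↿f) := by
    change Continuous fun q : ℝ × ℝ => p q.2 - (q.2 - q.1) ^ 2 / (2 * ε)
    fun_prop
  have hfa : ∀ a, Continuous (f a) := fun a => by simp only [hf]; fun_prop
  have hA := (isCompact_Icc (a := μ - d) (b := μ)).continuous_sSup hfc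
  have hB := (isCompact_Icc (a := μ) (b := μ + d)).continuous_sSup hfc
  have eA : ∀ a, ∃ x ∈ Icc (μ - d) μ, sSup (f a '' Icc (μ - d) μ) = f a x ∧
      ∀ y ∈ Icc (μ - d) μ, f a y ≤ f a x := fun a =>
    isCompact_Icc.exists_sSup_image_eq_and_ge (nonempty_Icc.2 (by linarith)) (hfa a).continuousOn
  have eB : ∀ a, ∃ x ∈ Icc μ (μ + d), sSup (f a '' Icc μ (μ + d)) = f a x ∧
      ∀ y ∈ Icc μ (μ + d), f a y ≤ f a x := fun a =>
    isCompact_Icc.exists_sSup_image_eq_and_ge (nonempty_Icc.2 (by linarith)) (hfa a).continuousOn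
  have hl : sSup (f (μ - d) '' Icc μ (μ + d)) ≤ sSup (f (μ - d) '' Icc (μ - d) μ) := by
    obtain ⟨x, hx, e1, -⟩ := eB (μ - d)
    obtain ⟨y, -, e2, h2⟩ := eA (μ - d)
    rw [e1, e2]
    refine le_trans ?_ (h2 (μ - d) ⟨le_rfl, by linarith⟩)
    have a1 := hg x
    have a2 := h0 (μ - d)
    have a3 : C + (x - μ) ^ 2 / (4 * ε) ≤ (x - (μ - d)) ^ 2 / (2 * ε) := by
      rw [le_div_iff₀ (by positivity)]
      have : (C + (x - μ) ^ 2 / (4 * ε)) * (2 * ε) = 2 * ε * C + (x - μ) ^ 2 / 2 := by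
        field_simp; ring
      rw [this]
      nlinarith [hx.1, sq_nonneg (x - μ), mul_nonneg (sub_nonneg.2 hx.1) (show 0 ≤ d by linarith)]
    simp only [hf, sub_self]
    norm_num
    linarith
  have hr : sSup (f μ '' Icc (μ - d) μ) ≤ sSup (f μ '' Icc μ (μ + d)) := by
    obtain ⟨x, -, e1, h1⟩ := eB μ
    obtain ⟨y, hy, e2, -⟩ := eA μ
    rw [e1, e2]
    refine le_trans ?_ (h1 μ ⟨le_rfl, by linarith⟩)
    have a1 := hmono hy.2
    have a2 : 0 ≤ (y - μ) ^ 2 / (2 * ε) := by positivity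
    simp only [hf, sub_self]
    norm_num
    linarith
  obtain ⟨a, ha, hab⟩ := isPreconnected_Icc.intermediate_value₂
    (left_mem_Icc.2 (show μ - d ≤ μ by linarith)) (right_mem_Icc.2 (show μ - d ≤ μ by linarith))
    hB.continuousOn hA.continuousOn hl hr
  obtain ⟨x, hx, e1, h1⟩ := eA a
  obtain ⟨y, hy, e2, h2⟩ := eB a
  have hxy : f a y = f a x := by rw [← e1, ← e2]; exact hab
  refine ⟨a, f a x, x, y, ha.2, hx.2, hy.1, fun z => ?_, by simp [hf], by rw [← hxy]; simp [hf]⟩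
  suffices f a z ≤ f a x by simp only [hf] at this ⊢; linarith
  rcases le_total z (μ - d) with hz | hz
  · refine le_trans ?_ (h1 a ha)
    have a1 := hmono (hz.trans ha.1)
    have a2 : 0 ≤ (z - a) ^ 2 / (2 * ε) := by positivity
    simp only [hf, sub_self]
    norm_num
    linarith
  rcases le_total z μ with hz2 | hz2
  · exact h1 z ⟨hz, hz2⟩
  rcases le_total z (μ + d) with hz3 | hz3
  · exact (h2 z ⟨hz2, hz3⟩).trans hxy.le
  refine le_trans ?_ (h1 μ ⟨by linarith, le_rfl⟩)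
  have a1 := hg z
  have a2 := h0 μ
  have a3 : C + (z - μ) ^ 2 / (4 * ε) + (μ - a) ^ 2 / (2 * ε) ≤ (z - a) ^ 2 / (2 * ε) := by
    rw [le_div_iff₀ (by positivity)]
    have : (C + (z - μ) ^ 2 / (4 * ε) + (μ - a) ^ 2 / (2 * ε)) * (2 * ε) =
        2 * ε * C + (z - μ) ^ 2 / 2 + (μ - a) ^ 2 := by field_simp; ring
    rw [this]
    have b1 : d ^ 2 ≤ (z - μ) ^ 2 := by gcongr; linarith
    nlinarith [mul_nonneg (sub_nonneg.2 hz2) (sub_nonneg.2 ha.2)]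
  simp only [hf]
  linarith

lemma kink_step (hp : ConvexOn ℝ univ p) (hmono : Monotone p) (h0 : ∀ x, 0 ≤ p x)
    {ε μ C c : ℝ} (hε : 0 < ε) (hC : 0 ≤ C) (hg : ∀ x, p x ≤ C + (x - μ) ^ 2 / (4 * ε))
    (hc : 0 < c) (hD : c * (ε * c / 2) ≤ Dl p μ (ε * c / 2)) :
    ∃ μ' m, μ' ≤ μ ∧ (∀ x, p x ≤ m + (x - μ') ^ 2 / (2 * ε)) ∧
      ∀ (q : ℝ → ℝ) (τ s : ℝ), (∀ a x, p x ≤ q a + (x - a) ^ 2 / (2 * ε)) → q μ' ≤ m + τ →
        0 ≤ s → s * c - s ^ 2 / ε - 2 * τ ≤ Dl q μ' s := by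
  obtain ⟨a, m, x, y, ha, hx, hy, hQ, ex, ey⟩ :=
    exists_bitangent (cvx_cont hp) hmono h0 hε hC hg
  refine ⟨a, m, ha, hQ, fun q τ s hq hqa hs => ?_⟩
  have key : ∀ ν, p ν = m + (ν - a) ^ 2 / (2 * ε) → (ε * c / 2) ^ 2 ≤ (μ - ν) ^ 2 := by
    intro ν hν
    have h1 := touch hp hε hQ hν μ
    have h2 := hQ (μ + ε * c / 2)
    have h3 := hQ (μ - ε * c / 2)
    have h4 : c * (ε * c / 2) ≤ (μ + ε * c / 2 - a) ^ 2 / (2 * ε) +
        (μ - ε * c / 2 - a) ^ 2 / (2 * ε) - 2 * ((μ - a) ^ 2 / (2 * ε)) +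
        2 * ((μ - ν) ^ 2 / (2 * ε)) := by unfold Dl at hD; linarith
    have e : (μ + ε * c / 2 - a) ^ 2 / (2 * ε) +
        (μ - ε * c / 2 - a) ^ 2 / (2 * ε) - 2 * ((μ - a) ^ 2 / (2 * ε)) +
        2 * ((μ - ν) ^ 2 / (2 * ε)) = ((ε * c / 2) ^ 2 + (μ - ν) ^ 2) / ε := by
      field_simp; ring
    rw [e, le_div_iff₀ hε] at h4
    nlinarith
  have k1 : ε * c / 2 ≤ μ - x := (abs_le_of_sq_le_sq' (key x ex) (by linarith)).2
  have k2 : ε * c / 2 ≤ y - μ := 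
    (abs_le_of_sq_le_sq' ((key y ey).trans (le_of_eq (by ring))) (by linarith)).2
  have h1 := hq (a + s) y
  have h2 := hq (a - s) x
  rw [ey] at h1
  rw [ex] at h2
  have e : (y - a) ^ 2 / (2 * ε) - (y - (a + s)) ^ 2 / (2 * ε) + ((x - a) ^ 2 / (2 * ε) -
      (x - (a - s)) ^ 2 / (2 * ε)) = s * ((y - x) / ε) - s ^ 2 / ε := by field_simp; ring
  have h3 : c ≤ (y - x) / ε := by rw [le_div_iff₀ hε]; linarith
  have h4 := mul_le_mul_of_nonneg_left h3 hs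
  unfold Dl
  linarith

lemma not_diff (hp : ConvexOn ℝ univ p) {μ s : ℕ → ℝ} {a c : ℝ} (hc : 0 < c)
    (hμ : Tendsto μ atTop (𝓝 a)) (hs : Tendsto s atTop (𝓝 0))
    (h : ∀ᶠ k in atTop, 0 < s k ∧ c * s k ≤ Dl p (μ k) (s k)) : ¬DifferentiableAt ℝ p a := by
  have hcont := cvx_cont hp
  have h1 : ∀ t, 0 < t → c * t ≤ Dl p a t := by
    intro t ht
    have h2 : Continuous (fun x => Dl p x t) := by unfold Dl; fun_prop
    refine ge_of_tendsto ((h2.tendsto a).comp hμ) ?_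
    filter_upwards [h, hs.eventually (gt_mem_nhds ht)] with k hk hk2
    exact Dl_scale hp hk.1 hk2.le hk.2
  intro hd
  have h2 := (hasDerivAt_iff_isLittleO_nhds_zero.1 hd.hasDerivAt).def (show 0 < c / 4 by positivity)
  obtain ⟨δ, hδ, h3⟩ := Metric.eventually_nhds_iff.1 h2
  have h4 := h3 (y := δ / 2) (by rw [dist_zero_right, Real.norm_of_nonneg] <;> linarith)
  have h5 := h3 (y := -(δ / 2)) (by rw [dist_zero_right, norm_neg, Real.norm_of_nonneg] <;> linarith)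
  have h6 := h1 (δ / 2) (by linarith)
  rw [norm_neg] at h5
  rw [Real.norm_of_nonneg (show 0 ≤ δ / 2 by linarith), Real.norm_eq_abs, smul_eq_mul] at h4 h5
  have h7 := (abs_le.1 h4).2
  have h8 := (abs_le.1 h5).2
  unfold Dl at h6
  rw [← sub_eq_add_neg] at h8
  nlinarith [mul_pos hc hδ]

end Vale.Agent.P171
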