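import Vale.Agent.P171.Press

/-! Lebowitz-Penrose type bounds. -/

open MeasureTheory Set Metric Filter Topology
open scoped ENNReal Nat

namespace Vale.Agent.P171

variable {κ : ℝ} {ψ : ℝ → ℝ}

lemma Att.mul (h : Att κ ψ) {c : ℝ} (hc : 0 ≤ c) : Att (c * κ) (fun r => c * ψ r) :=
  ⟨h.meas.const_mul c, fun r => mul_nonneg hc (h.nonneg r),
    by simpa only [← Dd_mul] using h.ctl.mul hc, mul_nonneg hc h.pos⟩

lemma LP_lower (h : Att κ ψ) {R ε : ℝ} (hR : 1 ≤ R) (hε : 0 < ε) (μ ν : ℝ) :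
    P ψ ν ≤ P (fun r => ψ r + ε * J R r) μ + (ν - μ) ^ 2 / (2 * ε) := by
  have h' := h.add (Att_J hR hε.le)
  refine P_le h (C := 2 * R) (C' := 0) fun n => ?_
  have h1 : A ψ ν n ≤ (ν - μ) ^ 2 / (2 * ε) * (n + 2 * R) ^ 3 +
      A (fun r => ψ r + ε * J R r) μ n := by
    rw [A_le_iff h, ← oe_mul, ← XE_eq h', ← XE_const_add]
    refine XE_mono (measurableSet_Box _ _) fun m _ hm => ?_
    have h2 := J_lower (R := R) (L := n) (by linarith) (by positivity) ((ν - μ) / ε) hm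
    have h3 := mul_le_mul_of_nonneg_left h2 hε.le
    have h4 : ε * (2 * ((ν - μ) / ε) * m.card - ((ν - μ) / ε) ^ 2 * (n + 2 * R) ^ 3) =
        2 * ((ν - μ) * m.card - (ν - μ) ^ 2 / (2 * ε) * (n + 2 * R) ^ 3) := by field_simp
    simp only [ex, Dd_add, Dd_mul]
    linarith
  have h2 := A_le_P h' μ n
  have h3 := P_nonneg h' μ
  have h4 : P (fun r => ψ r + ε * J R r) μ * (n + 1) ^ 3 ≤
      P (fun r => ψ r + ε * J R r) μ * (n + 2 * R) ^ 3 := by gcongr; linarith
  linarith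

lemma P_growth (h : Att κ ψ) {ε : ℝ} (hε : 0 < ε) (μ : ℝ) :
    ∃ C, 0 ≤ C ∧ ∀ ν, P ψ ν ≤ C + (ν - μ) ^ 2 / (4 * ε) := by
  refine ⟨_, P_nonneg (h.add (Att_J le_rfl (by positivity : 0 ≤ 2 * ε))) μ, fun ν => ?_⟩
  have := LP_lower h le_rfl (by positivity : 0 < 2 * ε) μ ν
  rwa [← mul_assoc, show (2 : ℝ) * 2 = 4 by norm_num] at this

lemma oe_add_one {s : ℝ} (hs : 0 ≤ s) :
    ENNReal.ofReal (Real.exp s) + 1 ≤ ENNReal.ofReal (Real.exp (s + 1)) := by
  rw [← ENNReal.ofReal_one, ← ENNReal.ofReal_add (Real.exp_pos _).le zero_le_one]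
  refine ENNReal.ofReal_le_ofReal ?_
  have h1 := Real.one_le_exp hs
  have h2 := Real.add_one_le_exp 1
  rw [Real.exp_add]
  nlinarith

lemma oe_le_one {s : ℝ} (hs : s ≤ 0) : ENNReal.ofReal (Real.exp s) ≤ 1 := by
  rw [← ENNReal.ofReal_one, ← Real.exp_zero]; exact oe_le_iff.2 hs

lemma P_pert (κ : ℝ) (hκ : 0 ≤ κ) : ∃ C, 0 ≤ C ∧ ∀ ψ χ δ μ, Att κ ψ → Att δ χ → 0 < δ →
    δ ≤ 1 / 2 → μ ≤ 0 → P (fun r => ψ r + χ r) μ ≤ P ψ μ + C * δ := by
  obtain ⟨b, hb⟩ := stab (κ + 1) (by linarith)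
  refine ⟨2 * Real.exp b, by positivity, fun ψ χ δ μ h hχ hδ hδ1 hμ => ?_⟩
  have h' := h.add hχ
  have h'' := h.add (hχ.mul (inv_nonneg.2 hδ.le))
  rw [inv_mul_cancel₀ hδ.ne'] at h''
  refine P_le h' (C := 1) (C' := 1) fun n => ?_
  have hK : 0 ≤ δ⁻¹ - 1 := by
    have : 1 ≤ δ⁻¹ := one_le_inv₀ hδ |>.2 (by linarith)
    linarith
  have h1 := XE_split (Box 0 n) (measurableSet_Box _ _) (measurable_ex h.meas μ)
    (fun m => Dd χ m / 2) (2 * Real.exp b * δ * n ^ 3) (δ⁻¹ - 1) hK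
  have e1 : (fun m => ex ψ μ m + Dd χ m / 2) = ex (fun r => ψ r + χ r) μ := by
    funext m; simp only [ex, Dd_add]; ring
  have e2 : (fun m => ex ψ μ m + (δ⁻¹ - 1 + 1) * (Dd χ m / 2)) =
      ex (fun r => ψ r + δ⁻¹ * χ r) μ := by
    funext m; simp only [ex, Dd_add, Dd_mul]; ring
  rw [e1, e2, XE_eq h, oe_mul] at h1
  have h2 : ENNReal.ofReal (Real.exp (-((δ⁻¹ - 1) * (2 * Real.exp b * δ * n ^ 3)))) *
      XE (Box 0 n) (ex (fun r => ψ r + δ⁻¹ * χ r) μ) ≤ 1 := by
    refine le_trans (mul_le_mul_right (hb _ h'' μ n (by positivity)) _) ?_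
    rw [oe_mul]
    refine oe_le_one ?_
    have h3 : Real.exp (μ + b) ≤ Real.exp b := Real.exp_le_exp.2 (by linarith)
    have h4 : (δ⁻¹ - 1) * (2 * Real.exp b * δ * n ^ 3) = (2 - 2 * δ) * (Real.exp b * n ^ 3) := by
      field_simp
    have h5 : 0 ≤ Real.exp b * n ^ 3 := by positivity
    have h6 : Real.exp (μ + b) * n ^ 3 ≤ Real.exp b * n ^ 3 := by gcongr
    rw [h4]; nlinarith
  have h3 := (A_le_iff h').2 (h1.trans ((add_le_add le_rfl h2).trans
    (oe_add_one (add_nonneg (by positivity) (A_nonneg h μ n)))))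
  have h4 := A_le_P h μ n
  have h5 : 2 * Real.exp b * δ * n ^ 3 ≤ 2 * Real.exp b * δ * (n + 1) ^ 3 := by gcongr; linarith
  linarith

lemma box_mf (h : Att κ ψ) {ε η B μ : ℝ} (hε : 0 < ε) (hη : 0 < η) {l : ℕ} (hl : 0 < l)
    (hB : ∀ u : ℝ, P ψ (μ + η + u) * (l + 1) ^ 3 - u ^ 2 / (2 * ε) * l ^ 3 ≤ B) :
    XE (Box 0 l) (fun m => ex ψ μ m + ε / (2 * l ^ 3) * (m.card : ℝ) ^ 2) ≤
      ENNReal.ofReal (Real.exp (B - Real.log (1 - Real.exp (-η)))) := by
  have hl' : (0 : ℝ) < l := by exact_mod_cast hl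
  have hr : Real.exp (-η) < 1 := Real.exp_lt_one_iff.2 (by linarith)
  have hs := (hasSum_geometric_of_lt_one (Real.exp_pos _).le hr).mul_left (Real.exp B)
  rw [Real.exp_sub, Real.exp_log (by linarith), div_eq_mul_inv (Real.exp B), ← hs.tsum_eq,
    ENNReal.ofReal_tsum_of_nonneg (fun N => by positivity) hs.summable]
  refine ENNReal.tsum_le_tsum fun N => ?_
  set u : ℝ := ε * N / l ^ 3 with hu
  have h1 : I (volume.restrict (Box 0 l)) N (fun m => ENNReal.ofReal (Real.exp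
      (ex ψ μ m + ε / (2 * l ^ 3) * (m.card : ℝ) ^ 2))) ≤
      I (volume.restrict (Box 0 l)) N (fun m =>
        ENNReal.ofReal (Real.exp (-η * N - u ^ 2 / (2 * ε) * l ^ 3)) *
        ENNReal.ofReal (Real.exp (ex ψ (μ + η + u) m))) := by
    refine I_mono _ (fun _ => True) (by simp) N fun m _ _ hc => ?_
    rw [oe_mul]
    refine oe_le_iff.2 (le_of_eq ?_)
    simp only [ex, hc, hu]
    field_simp
    ring
  refine le_trans (mul_le_mul_right h1 _) ?_
  rw [I_const_mul _ _ ENNReal.ofReal_ne_top, mul_left_comm]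
  refine le_trans (mul_le_mul_right (le_Xi _ _ N) _) ?_
  have h2 := XE_eq h (μ + η + u) l
  rw [XE] at h2
  rw [h2, oe_mul, ← Real.exp_nat_mul, ← Real.exp_add]
  refine oe_le_iff.2 ?_
  linarith [hB u, A_le_P h (μ + η + u) l]

lemma choose_params {p : ℝ → ℝ} {ε μ m C τ : ℝ} (hε : 0 < ε) (hm : 0 ≤ m) (hC : 0 ≤ C)
    (hτ : 0 < τ) (h1 : ∀ ν, p ν ≤ m + (ν - μ) ^ 2 / (2 * ε))
    (h2 : ∀ ν, p ν ≤ C + (ν - μ) ^ 2 / (4 * ε)) :
    ∃ σ η : ℝ, 0 < σ ∧ σ ≤ 1 ∧ 0 < η ∧ ∀ u : ℝ,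
      (1 + σ) * p (μ + η + u) - u ^ 2 / (2 * (ε * (1 + σ))) ≤ m + τ := by
  set s : ℝ := min 1 (τ / (2 * (m + 2 * C + 1))) with hs
  have hs0 : 0 < s := lt_min one_pos (by positivity)
  have hs1 : s ≤ 1 := min_le_left _ _
  have hs2 : s * (2 * (m + 2 * C + 1)) ≤ τ := by
    rw [← le_div_iff₀ (by positivity)]; exact min_le_right _ _
  set σ : ℝ := s / 8 with hσ
  have hσ0 : 0 < σ := by positivity
  have hσ1 : σ ≤ 1 := by linarith
  set η : ℝ := min 1 (τ * ε / (2 * (1 + σ⁻¹))) with hη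
  have hη0 : 0 < η := lt_min one_pos (by positivity)
  have hη1 : η ≤ 1 := min_le_left _ _
  have hη2 : η * (2 * (1 + σ⁻¹)) ≤ τ * ε := by
    rw [← le_div_iff₀ (by positivity)]; exact min_le_right _ _
  refine ⟨σ, η, hσ0, hσ1, hη0, fun u => ?_⟩
  have e1 := h1 (μ + η + u)
  have e2 := h2 (μ + η + u)
  rw [show μ + η + u - μ = η + u by ring] at e1 e2
  set w := (η + u) ^ 2 / (2 * ε) with hw
  have hw0 : 0 ≤ w := by positivity
  have e3 : (η + u) ^ 2 / (4 * ε) = w / 2 := by rw [hw]; field_simp; norm_num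
  rw [e3] at e2
  have e4 : p (μ + η + u) ≤ m + s * C + (1 - s / 2) * w := by
    nlinarith [mul_le_mul_of_nonneg_left e1 (sub_nonneg.2 hs1), mul_le_mul_of_nonneg_left e2 hs0.le,
      mul_nonneg hs0.le hm]
  have e5 : (η + u) ^ 2 ≤ (1 + σ) * u ^ 2 + (1 + σ⁻¹) * η ^ 2 := by
    have : 0 ≤ σ⁻¹ * (σ * u - η) ^ 2 := by positivity
    have e : σ⁻¹ * (σ * u - η) ^ 2 = σ * u ^ 2 - 2 * u * η + σ⁻¹ * η ^ 2 := by field_simp; ring
    nlinarith
  set a := u ^ 2 / (2 * ε) with ha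
  have ha0 : 0 ≤ a := by positivity
  have e6 : w ≤ (1 + σ) * a + τ / 4 := by
    have e7 : (1 + σ⁻¹) * η ^ 2 ≤ τ * ε / 2 := by
      have : (1 + σ⁻¹) * η ^ 2 ≤ (1 + σ⁻¹) * η := by
        gcongr; nlinarith
      linarith
    rw [hw, div_le_iff₀ (by positivity), ha]
    have : ((1 + σ) * (u ^ 2 / (2 * ε)) + τ / 4) * (2 * ε) = (1 + σ) * u ^ 2 + τ * ε / 2 := by
      field_simp; ring
    rw [this]; linarith
  have e8 : u ^ 2 / (2 * (ε * (1 + σ))) = a / (1 + σ) := by rw [ha]; field_simp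
  have e9 : (1 + σ) * ((1 - s / 2) * ((1 + σ) * a)) ≤ a / (1 + σ) := by
    rw [le_div_iff₀ (by positivity)]
    have h3 : (1 + σ) ^ 3 * (1 - s / 2) ≤ 1 := by
      have hs8 : s = 8 * σ := by rw [hσ]; ring
      have : 1 - (1 + σ) ^ 3 * (1 - 8 * σ / 2) = σ + 9 * σ ^ 2 + 11 * σ ^ 3 + 4 * σ ^ 4 := by ring
      have h4 : 0 ≤ σ + 9 * σ ^ 2 + 11 * σ ^ 3 + 4 * σ ^ 4 := by positivity
      rw [hs8]; linarith
    calc (1 + σ) * ((1 - s / 2) * ((1 + σ) * a)) * (1 + σ)
        = (1 + σ) ^ 3 * (1 - s / 2) * a := by ring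
      _ ≤ 1 * a := mul_le_mul_of_nonneg_right h3 ha0
      _ = a := one_mul a
  have e10 : (1 + σ) * p (μ + η + u) ≤
      (1 + σ) * (m + s * C + (1 - s / 2) * ((1 + σ) * a + τ / 4)) := by
    refine mul_le_mul_of_nonneg_left (e4.trans ?_) (by positivity)
    have := mul_le_mul_of_nonneg_left e6 (show 0 ≤ 1 - s / 2 by linarith)
    linarith
  have e11 : (1 + σ) * ((1 - s / 2) * (τ / 4)) ≤ τ / 2 := by
    have h3 : (1 + σ) * (1 - s / 2) ≤ 2 * 1 :=
      mul_le_mul (by linarith) (by linarith) (by linarith) (by norm_num)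
    have := mul_le_mul_of_nonneg_right h3 (show 0 ≤ τ / 4 by positivity)
    linarith
  have e12 : (1 + σ) * (m + s * C) ≤ m + τ / 2 := by
    have a1 : σ * m ≤ s * m := mul_le_mul_of_nonneg_right (by linarith) hm
    have a2 : σ * (s * C) ≤ s * C := mul_le_of_le_one_left (by positivity) hσ1
    linarith
  rw [e8]
  linarith

noncomputable def inn (r l : ℝ) : Set E := Box (WithLp.toLp 2 fun _ => r) (l - 2 * r)

lemma far {r l : ℝ} {a x y : E} (hx : x - a ∈ inn r l) (hy : y ∉ Box a l) : r ≤ dist x y := by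
  by_contra hc
  refine hy fun i => ?_
  have h1 := abs_lt.1 ((coord_le_dist x y i).trans_lt (not_le.1 hc))
  have h2 := hx i
  simp only [PiLp.sub_apply] at h2
  constructor <;> linarith [h1.1, h1.2, h2.1, h2.2]

lemma volume_layer {r l : ℝ} (hr : 0 ≤ r) (hl : 2 * r ≤ l) :
    volume (Box 0 l \ inn r l) ≤ ENNReal.ofReal (6 * r * l ^ 2) := by
  have hsub : inn r l ⊆ Box 0 l := fun x hx i => by
    have := hx i
    simp only [PiLp.zero_apply] at this ⊢
    constructor <;> linarith [this.1, this.2]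
  have hv : volume (inn r l) = ENNReal.ofReal ((l - 2 * r) ^ 3) := volume_Box _ (by linarith)
  rw [measure_sdiff hsub (measurableSet_Box _ _).nullMeasurableSet
    (by rw [hv]; exact ENNReal.ofReal_ne_top), hv, volume_Box _ (by linarith),
    ← ENNReal.ofReal_sub _ (pow_nonneg (by linarith) 3)]
  refine ENNReal.ofReal_le_ofReal ?_
  nlinarith [mul_nonneg (mul_nonneg hr hr) (sub_nonneg.2 hl), mul_nonneg (mul_nonneg hr hr) hr]

lemma crude (κ ε : ℝ) (hκ : 0 ≤ κ) (hε : 0 ≤ ε) : ∃ b : ℝ, ∀ ψ, Att κ ψ → ∀ (μ c r l : ℝ),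
    0 ≤ r → 2 * r ≤ l → 1 ≤ l →
    XE (Box 0 l) (fun m => ex ψ μ m + ε / (2 * l ^ 3) * (m.card : ℝ) ^ 2 +
      (Dd core m / 4 + c * S ((inn r l)ᶜ.indicator 1) m)) ≤
      ENNReal.ofReal (Real.exp (Real.exp (μ + b) * l ^ 3 +
        Real.exp (μ + b + c) * (6 * r * l ^ 2))) := by
  obtain ⟨b, -, hb⟩ := core_bound (κ + 27 * ε * 27) (1 / 2) (by positivity) (by norm_num)
  refine ⟨b / 2, fun ψ h μ c r l hr hl hl1 => ?_⟩
  have hl0 : 0 < l := by linarith
  have hmi : MeasurableSet (inn r l) := measurableSet_Box _ _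
  refine le_trans (XE_mono (g' := S fun x => (μ + b / 2) + c * (inn r l)ᶜ.indicator 1 x)
    (measurableSet_Box _ _) fun m hm hm' => ?_) (XE_field ?_ (by positivity) ?_)
  · have h1 := hb m hm _ (h.ctl.add ((Ctl_J le_rfl).mul (c := 27 * ε) (by positivity)))
    have h2 := J_lower (R := 1) (L := l) one_pos hl0.le (m.card / (l + 2) ^ 3) hm'
    have h3 : 2 * (m.card / (l + 2) ^ 3) * m.card - (m.card / (l + 2) ^ 3) ^ 2 * (l + 2 * 1) ^ 3 =
        (m.card : ℝ) ^ 2 / (l + 2) ^ 3 := by field_simp; ring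
    have h4 : (m.card : ℝ) ^ 2 / l ^ 3 ≤ 27 * ((m.card : ℝ) ^ 2 / (l + 2) ^ 3) := by
      rw [← mul_div_assoc, div_le_div_iff₀ (by positivity) (by positivity)]
      have : (l + 2) ^ 3 ≤ 27 * l ^ 3 := by
        calc (l + 2) ^ 3 ≤ (3 * l) ^ 3 := by gcongr; linarith
          _ = _ := by ring
      nlinarith [mul_le_mul_of_nonneg_left this (sq_nonneg (m.card : ℝ))]
    have h5 : ε / (2 * l ^ 3) * (m.card : ℝ) ^ 2 = ε / 2 * ((m.card : ℝ) ^ 2 / l ^ 3) := by
      field_simp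
    have h6 : ε / 2 * ((m.card : ℝ) ^ 2 / l ^ 3) ≤ ε / 2 * (27 * Dd (J 1) m) :=
      mul_le_mul_of_nonneg_left (by linarith) (by positivity)
    rw [S_add, S_mul, S_const, h5]
    unfold ex
    linarith
  · exact ((measurable_one.indicator hmi.compl).const_mul c).const_add _
  · calc ∫⁻ x in Box 0 l, ENNReal.ofReal (Real.exp (μ + b / 2 + c * (inn r l)ᶜ.indicator 1 x))
        ≤ ∫⁻ x in Box 0 l, (ENNReal.ofReal (Real.exp (μ + b / 2)) +
          (inn r l)ᶜ.indicator (fun _ => ENNReal.ofReal (Real.exp (μ + b / 2 + c))) x) := by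
          refine lintegral_mono fun x => ?_
          by_cases hx : x ∈ (inn r l)ᶜ
          · simp [indicator_of_mem hx]
          · simp [indicator_of_notMem hx]
      _ = ENNReal.ofReal (Real.exp (μ + b / 2)) * volume (Box 0 l) +
          ENNReal.ofReal (Real.exp (μ + b / 2 + c)) * volume (Box 0 l \ inn r l) := by
          rw [lintegral_add_left measurable_const, setLIntegral_const,
            lintegral_indicator hmi.compl, setLIntegral_const, Measure.restrict_apply hmi.compl,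
            inter_comm, sdiff_eq]
      _ ≤ _ := by
          rw [ENNReal.ofReal_add (by positivity) (by positivity),
            ENNReal.ofReal_mul (Real.exp_pos _).le, ENNReal.ofReal_mul (Real.exp_pos _).le,
            volume_Box _ hl0.le]
          gcongr
          exact volume_layer hr hl

open Classical in
lemma decouple (h : Att κ ψ) {r l R ε ε' θ b μ : ℝ} (hr : ∀ s, r ≤ s → ψ s = 0) (hl : 0 < l)
    (hR : 0 < R) (hε : 0 ≤ ε) (hε' : ε * (1 + 2 * l / R) ^ 3 ≤ ε') (hθ : θ ≤ 1 / 2) (hθ0 : 0 ≤ θ)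
    (hb : ∀ m : Multiset E, m.Nodup → Dd ψ m ≤ 2 * θ * Dd core m + 2 * b * m.card)
    (T : Finset (Fin 3 → ℤ)) {m : Multiset E} (hm : m.Nodup)
    (hT : ∀ x ∈ m, ∃ k ∈ T, x ∈ Box (pt l k) l) :
    ex (fun s => ψ s + ε * J R s) μ m ≤ ∑ k ∈ T,
      (fun m : Multiset E => ex ψ μ m + ε' / (2 * l ^ 3) * (m.card : ℝ) ^ 2 +
        (θ * Dd core m + b * S ((inn r l)ᶜ.indicator 1) m))
        ((m.filter (· ∈ Box (pt l k) l)).map (· - pt l k)) := by
  have hd : (T : Set (Fin 3 → ℤ)).PairwiseDisjoint (fun k => Box (pt l k) l) :=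
    fun j _ k _ h => Box_disjoint hl h
  have hε'0 : 0 ≤ ε' := le_trans (by positivity) hε'
  set p : E → Prop := fun x => x - pt l (idx l x) ∉ inn r l with hp
  set w : E → E → ℝ := fun x y => (-(1 - 2 * θ)) * core (dist x y) +
    (if p x ∧ p y then 0 else ψ (dist x y)) + ε' / l ^ 3 * same l x y with hw
  have h1 : ε * Dd (J R) m ≤ ε' / l ^ 3 * Q l m := by
    have := mul_le_mul_of_nonneg_left (J_upper hl hR m) hε
    have hQ := Q_nonneg l m
    have h2 : ε * (1 + 2 * l / R) ^ 3 * (Q l m / l ^ 3) ≤ ε' * (Q l m / l ^ 3) := by gcongr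
    have h3 : ε' * (Q l m / l ^ 3) = ε' / l ^ 3 * Q l m := by ring
    linarith
  have h2 : Dd ψ m = D (fun x y => if p x ∧ p y then 0 else ψ (dist x y)) m +
      Dd ψ (m.filter p) := by
    rw [Dd, Dd, D_filter, ← D_add]
    exact D_congr fun x _ y _ => by split_ifs <;> simp
  have h3 : Dd core (m.filter p) ≤ Dd core m := by
    rw [Dd, Dd, D_filter]
    exact D_mono fun x _ y _ => by
      split_ifs
      · exact le_rfl
      · exact core_nonneg _
  have h4 := hb _ (hm.filter p)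
  have h5 : ((m.filter p).card : ℝ) = S (fun x => if p x then 1 else 0) m := by
    rw [← S_filter, S_const, one_mul]
  have h6 := D_split T _ hd w hT ?_
  · have h7 := S_split T _ hd (fun x => μ + b * if p x then 1 else 0) hT
    have h8 : D w m = -(1 - 2 * θ) * Dd core m +
        D (fun x y => if p x ∧ p y then 0 else ψ (dist x y)) m + ε' / l ^ 3 * Q l m := by
      simp only [hw, D_add, D_mul, Dd, Q]
    rw [S_add, S_mul, S_const] at h7
    have h9 : ex (fun s => ψ s + ε * J R s) μ m ≤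
        D w m / 2 + (μ * m.card + b * S (fun x => if p x then 1 else 0) m) := by
      simp only [ex, Dd_add, Dd_mul]
      rw [h5] at h4
      nlinarith [mul_le_mul_of_nonneg_left h3 hθ0]
    rw [h7] at h9
    refine h9.trans ((add_le_add (div_le_div_of_nonneg_right h6 two_pos.le) le_rfl).trans ?_)
    rw [Finset.sum_div, ← Finset.sum_add_distrib]
    refine Finset.sum_le_sum fun k _ => ?_
    set mk := m.filter (· ∈ Box (pt l k) l) with hmk
    have a1 : D w mk ≤ -(1 - 2 * θ) * Dd core mk + Dd ψ mk + ε' / l ^ 3 * (mk.card : ℝ) ^ 2 := by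
      rw [Dd, Dd, ← D_mul, ← D_const, ← D_add, ← D_add]
      refine D_mono fun x _ y _ => ?_
      have b1 : (if p x ∧ p y then 0 else ψ (dist x y)) ≤ ψ (dist x y) := by
        split_ifs
        · exact h.nonneg _
        · exact le_rfl
      have b2 : ε' / l ^ 3 * same l x y ≤ ε' / l ^ 3 :=
        mul_le_of_le_one_right (by positivity) (by unfold same; split_ifs <;> norm_num)
      simp only [hw]; linarith
    have a2 : S (fun x => if p x then (1 : ℝ) else 0) mk =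
        S ((inn r l)ᶜ.indicator 1) (mk.map (· - pt l k)) := by
      rw [S_map]
      refine S_congr fun x hx => ?_
      have := (mem_Box_pt hl k x).1 (Multiset.mem_filter.1 hx).2
      simp only [hp, this, indicator, mem_compl_iff, Pi.one_apply]
    simp only [ex_map_sub, Dd_map_sub, Multiset.card_map, S_add, S_mul, S_const, a2]
    have a3 : ε' / (2 * l ^ 3) * (mk.card : ℝ) ^ 2 = ε' / l ^ 3 * (mk.card : ℝ) ^ 2 / 2 := by
      field_simp
    unfold ex
    linarith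
  · intro k _ j _ hjk x hx y hy
    have hx' := (mem_Box_pt hl k x).1 hx
    have hy' := (mem_Box_pt hl j y).1 hy
    have a1 : same l x y = 0 := by simp [same, hx', hy', hjk.symm]
    have a2 : (if p x ∧ p y then 0 else ψ (dist x y)) = 0 := by
      split_ifs with hc
      · rfl
      · apply hr
        rcases not_and_or.1 hc with hc | hc
        · simp only [hp, not_not, hx'] at hc
          exact far hc (Set.disjoint_left.1 (Box_disjoint hl hjk) hy)
        · simp only [hp, not_not, hy'] at hc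
          rw [dist_comm]
          exact far hc (Set.disjoint_right.1 (Box_disjoint hl hjk) hx)
    have a3 := core_nonneg (dist x y)
    simp only [hw, a1, a2]
    nlinarith

lemma LP_upper (h : Att κ ψ) {r : ℝ} (hr0 : 0 ≤ r) (hr : ∀ s, r ≤ s → ψ s = 0) {ε μ m τ : ℝ}
    (hε : 0 < ε) (hτ : 0 < τ) (hm : ∀ ν, P ψ ν ≤ m + (ν - μ) ^ 2 / (2 * ε)) :
    ∃ R, 1 ≤ R ∧ P (fun s => ψ s + ε * J R s) μ ≤ m + τ := by
  classical
  have hm0 : 0 ≤ m := by simpa using (P_nonneg h μ).trans (hm μ)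
  obtain ⟨C, hC0, hC⟩ := P_growth h hε μ
  obtain ⟨σ, η, hσ0, hσ1, hη0, hση⟩ := choose_params hε hm0 hC0 (half_pos hτ) hm hC
  set ε' := ε * (1 + σ) with hε'
  have hε'0 : 0 < ε' := by positivity
  obtain ⟨b1, hb1⟩ := crude κ ε' h.pos hε'0.le
  set K : ℝ := (Real.exp (μ + b1) + 1) / (τ / 4) with hK
  have hK0 : 0 ≤ K := by positivity
  set θ : ℝ := 1 / (4 * (K + 1)) with hθ
  have hθ0 : 0 < θ := by positivity
  have hθ1 : θ ≤ 1 / 2 := by
    rw [hθ, div_le_div_iff₀ (by positivity) two_pos]; linarith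
  obtain ⟨b2, hb20, hb2⟩ := core_bound κ (2 * θ) h.pos (by positivity)
  set c0 := -Real.log (1 - Real.exp (-η)) with hc0
  have hc00 : 0 ≤ c0 := by
    have := Real.exp_pos (-η)
    have hr : Real.exp (-η) < 1 := Real.exp_lt_one_iff.2 (by linarith)
    have := Real.log_nonpos (x := 1 - Real.exp (-η)) (by linarith) (by linarith)
    linarith
  have hev : ∀ᶠ l : ℝ in atTop, (1 * l + 1) ^ 3 / l ^ 3 < 1 + σ :=
    (tendsto_cube_ratio 1 1).eventually (gt_mem_nhds (by linarith))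
  have hev2 := (tendsto_natCast_atTop_atTop (R := ℝ)).eventually (hev.and
    ((eventually_ge_atTop 1).and ((eventually_ge_atTop (2 * r)).and
    ((eventually_ge_atTop (Real.exp (μ + b1 + (K + 1) * (b2 / 2)) * (6 * r))).and
    (eventually_ge_atTop ((c0 + 1) / (τ / 4)))))))
  obtain ⟨l, hl1, hl2, hl3, hl4, hl5⟩ := hev2.exists
  have hl0 : (0 : ℝ) < l := by linarith
  have hlN : 0 < l := by exact_mod_cast hl0
  have hev3 : ∀ᶠ R : ℝ in atTop, (1 * R + 2 * l) ^ 3 / R ^ 3 < 1 + σ :=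
    (tendsto_cube_ratio 1 (2 * l)).eventually (gt_mem_nhds (by linarith))
  obtain ⟨R, hR1, hR2⟩ := (hev3.and (eventually_ge_atTop 1)).exists
  have hR0 : 0 < R := by linarith
  refine ⟨R, hR2, ?_⟩
  have h' := h.add (Att_J hR2 hε.le)
  set g : Multiset E → ℝ := fun m => ex ψ μ m + ε' / (2 * l ^ 3) * (m.card : ℝ) ^ 2 +
    (θ * Dd core m + b2 / 2 * S ((inn r l)ᶜ.indicator 1) m) with hg
  have hgm0 : Measurable (fun m : Multiset E => ex ψ μ m + ε' / (2 * l ^ 3) * (m.card : ℝ) ^ 2) :=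
    (measurable_ex h.meas μ).add ((measurable_cardR.pow_const 2).const_mul _)
  have hgm : Measurable g := hgm0.add (((measurable_Dd measurable_core).const_mul _).add
    ((measurable_S (measurable_one.indicator (measurableSet_Box _ _).compl)).const_mul _))
  have hbox : XE (Box 0 l) g ≤ ENNReal.ofReal (Real.exp ((m + τ) * l ^ 3)) := by
    have a1 := XE_split (Box 0 l) (measurableSet_Box _ _) hgm0
      (fun m => θ * Dd core m + b2 / 2 * S ((inn r l)ᶜ.indicator 1) m) (τ / 4 * l ^ 3) K hK0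
    have a2 := box_mf h (μ := μ) (B := (m + τ / 2) * l ^ 3) hε'0 hη0 hlN (fun u => by
      have b1 := mul_le_mul_of_nonneg_right (hση u) (pow_pos hl0 3).le
      have b2 : ((l : ℝ) + 1) ^ 3 ≤ (1 + σ) * l ^ 3 := by
        rw [div_lt_iff₀ (by positivity), one_mul] at hl1; exact hl1.le
      have b3 := mul_le_mul_of_nonneg_left b2 (P_nonneg h (μ + η + u))
      nlinarith)
    have a3 := hb1 ψ h μ ((K + 1) * (b2 / 2)) r l hr0 hl3 hl2
    have e : (fun m : Multiset E => ex ψ μ m + ε' / (2 * l ^ 3) * (m.card : ℝ) ^ 2 +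
        (K + 1) * (θ * Dd core m + b2 / 2 * S ((inn r l)ᶜ.indicator 1) m)) =
        (fun m : Multiset E => ex ψ μ m + ε' / (2 * l ^ 3) * (m.card : ℝ) ^ 2 +
        (Dd core m / 4 + (K + 1) * (b2 / 2) * S ((inn r l)ᶜ.indicator 1) m)) := by
      funext m
      have : (K + 1) * θ = 1 / 4 := by rw [hθ]; field_simp
      rw [mul_add, ← mul_assoc, this]; ring
    rw [e] at a1
    refine a1.trans ((add_le_add (mul_le_mul_right a2 _) (mul_le_mul_right a3 _)).trans ?_)
    rw [oe_mul, oe_mul]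
    have a4 : K * (τ / 4 * l ^ 3) = (Real.exp (μ + b1) + 1) * l ^ 3 := by rw [hK]; field_simp
    have a5 : Real.exp (μ + b1 + (K + 1) * (b2 / 2)) * (6 * r * l ^ 2) ≤ l ^ 3 := by
      nlinarith [mul_le_mul_of_nonneg_right hl4 (pow_pos hl0 2).le]
    have a6 : c0 + 1 ≤ τ / 4 * l ^ 3 := by
      rw [div_le_iff₀ (by positivity)] at hl5
      have : (l : ℝ) ≤ l ^ 3 := le_self_pow₀ hl2 (by norm_num)
      have := mul_le_mul_of_nonneg_left this (show 0 ≤ τ / 4 by positivity)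
      linarith
    refine (add_le_add le_rfl (oe_le_one (by linarith))).trans ((oe_add_one ?_).trans ?_)
    · have : 0 ≤ τ / 4 * l ^ 3 + (m + τ / 2) * l ^ 3 := by positivity
      linarith
    · exact oe_le_iff.2 (by linarith)
  refine P_le h' (C := l) (C' := 0) fun n => ?_
  rw [add_zero, A_le_iff h']
  set M := n / l + 1 with hM
  have hM1 : (M : ℝ) * l ≤ n + l := by
    have : M * l ≤ n + l := by rw [hM, add_mul, one_mul]; gcongr; exact Nat.div_mul_le_self n l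
    exact_mod_cast this
  have hM2 : (n : ℝ) < M * l := by
    have : n < M * l := by rw [hM, mul_comm]; exact Nat.lt_mul_div_succ n hlN
    exact_mod_cast this
  have hsub : Box 0 n ⊆ ⋃ k ∈ grid M, Box (pt l k) l := by
    intro x hx
    refine mem_biUnion (x := idx l x) ?_ ((mem_Box_pt hl0 _ x).2 rfl)
    refine Finset.mem_coe.2 (Fintype.mem_piFinset.2 fun i => Finset.mem_Ico.2 ⟨?_, ?_⟩)
    · exact Int.floor_nonneg.2 (div_nonneg (by simpa using (hx i).1) hl0.le)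
    · refine Int.floor_lt.2 ?_
      have := (hx i).2
      simp only [PiLp.zero_apply, zero_add] at this
      rw [div_lt_iff₀ hl0]; push_cast; linarith
  refine (XE_subset hsub _).trans (le_trans (XE_mono (MeasurableSet.biUnion
    (Finset.countable_toSet _) fun _ _ => measurableSet_Box _ _) fun m hm hm' => ?_)
    ((XE_tile hl0 le_rfl (grid M) hgm).le.trans ?_))
  · simp only [mem_iUnion, exists_prop] at hm'
    refine decouple h hr hl0 hR0 hε.le ?_ hθ1 hθ0.le (fun m hm => ?_) _ hm hm'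
    · have : (1 + 2 * (l : ℝ) / R) ^ 3 = (1 * R + 2 * l) ^ 3 / R ^ 3 := by field_simp
      rw [this, hε']; gcongr
    · have := hb2 m hm _ h.ctl
      linarith
  · refine (pow_le_pow_left' hbox _).trans ?_
    rw [oe_pow, card_grid]
    refine oe_le_iff.2 ?_
    push_cast
    have : ((M : ℝ) * l) ^ 3 ≤ (n + l) ^ 3 := by gcongr
    nlinarith [mul_le_mul_of_nonneg_left this (show 0 ≤ m + τ by linarith)]

end Vale.Agent.P171
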