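import Vale.Agent.P171.Main

/-! Translation to the partition functions of the problem statement. -/

open MeasureTheory Set Metric Filter Topology
open scoped ENNReal Nat

namespace Vale.Agent.P171

lemma energy_eq (f : ℝ → ℝ) {N : ℕ} (x : Fin N → E) :
    energy f x = (Dd f (cfg x) - N * f 0) / 2 := by
  have h := Finset.sum_sum_Ioi_add_eq_sum_sum_off_diag (fun i j : Fin N => f (dist (x i) (x j)))
  have h1 : ∑ i : Fin N, ∑ j ∈ Finset.Ioi i, (f (dist (x j) (x i)) + f (dist (x i) (x j))) =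
      2 * energy f x := by
    simp only [energy, Finset.mul_sum]
    refine Finset.sum_congr rfl fun i _ => Finset.sum_congr rfl fun j _ => ?_
    rw [dist_comm (x j)]; ring
  have h2 : Dd f (cfg x) = ∑ i : Fin N, ∑ j ∈ {i}ᶜ, f (dist (x j) (x i)) + N * f 0 := by
    rw [Dd, D_cfg, Finset.sum_comm]
    have : (N : ℝ) * f 0 = ∑ _i : Fin N, f 0 := by simp
    rw [this, ← Finset.sum_add_distrib]
    refine Finset.sum_congr rfl fun i _ => ?_
    rw [← Finset.sum_compl_add_sum {i}]
    simp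
  rw [h2, ← h, h1]; ring

variable {κ : ℝ} {ψ : ℝ → ℝ}

lemma energy_pot (ψ : ℝ → ℝ) {N : ℕ} (x : Fin N → E) :
    energy (fun r => core r - ψ r) x = (Dd core (cfg x) - Dd ψ (cfg x) + N * ψ 0) / 2 := by
  have : (fun r => core r - ψ r) = fun r => core r + (-1) * ψ r := by funext r; ring
  rw [energy_eq, this, Dd_add, Dd_mul, core_zero]; ring

lemma measurableSet_cube (L : ℝ) : MeasurableSet (cube L) := by
  have : cube L = ⋂ i, (fun x : E => x i) ⁻¹' Icc 0 L := by ext x; simp [cube]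
  rw [this]
  exact MeasurableSet.iInter fun i => measurable_coord i measurableSet_Icc

lemma Box_subset_cube (L : ℝ) : Box 0 L ⊆ cube L := fun x hx i => by
  have := hx i
  simp only [PiLp.zero_apply, zero_add] at this
  exact ⟨this.1, this.2.le⟩

lemma cube_subset_Box (L : ℝ) : cube L ⊆ Box 0 (L + 1) := fun x hx i => by
  have := hx i
  simp only [PiLp.zero_apply, zero_add]
  exact ⟨this.1, by linarith [this.2]⟩

lemma XE_cube_ne_top (h : Att κ ψ) (μ L : ℝ) : XE (cube L) (ex ψ μ) ≠ ∞ :=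
  ne_top_of_le_ne_top (XE_ne_top h μ (L + 1)) (XE_subset (cube_subset_Box L) _)

lemma term_ne_top (h : Att κ ψ) (μ L : ℝ) (N : ℕ) : ((N ! : ℕ) : ℝ≥0∞)⁻¹ *
    I (volume.restrict (cube L)) N (fun m => ENNReal.ofReal (Real.exp (ex ψ μ m))) ≠ ∞ :=
  ne_top_of_le_ne_top (XE_cube_ne_top h μ L) (le_Xi _ _ N)

lemma I_cube (h : Att κ ψ) (μ L : ℝ) (N : ℕ) :
    I (volume.restrict (cube L)) N (fun m => ENNReal.ofReal (Real.exp (ex ψ μ m))) =
      ∫⁻ x in cubeConf L N, ENNReal.ofReal (Real.exp ((μ + ψ 0 / 2) * N) *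
        Real.exp (-1 * energy (fun r => core r - ψ r) x)) := by
  rw [I_eq_pi _ _ _ (measurable_oe (measurable_ex h.meas μ)), cubeConf, volume_pi,
    Measure.restrict_pi_pi]
  congr 1; funext x
  rw [← Real.exp_add, energy_pot, ex, card_cfg]
  congr 2; ring

lemma measurable_boltz (h : Att κ ψ) (N : ℕ) :
    Measurable (fun x : Fin N → E => Real.exp (-1 * energy (fun r => core r - ψ r) x)) := by
  simp only [energy_pot]
  have h1 : Measurable (fun x : Fin N → E => Dd core (cfg x)) :=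
    (measurable_Dd measurable_core).comp (measurable_cfg N)
  have h2 : Measurable (fun x : Fin N → E => Dd ψ (cfg x)) :=
    (measurable_Dd h.meas).comp (measurable_cfg N)
  exact ((((h1.sub h2).add_const _).div_const _).const_mul _).exp

lemma integrable_boltz (h : Att κ ψ) (L : ℝ) (N : ℕ) :
    IntegrableOn (fun x : Fin N → E => Real.exp (-1 * energy (fun r => core r - ψ r) x))
      (cubeConf L N) := by
  refine ⟨(measurable_boltz h N).aestronglyMeasurable,
    (hasFiniteIntegral_iff_ofReal (ae_of_all _ fun _ => (Real.exp_pos _).le)).2 ?_⟩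
  have h1 := term_ne_top h (-(ψ 0 / 2)) L N
  rw [I_cube h] at h1
  simp only [neg_add_cancel, zero_mul, Real.exp_zero, one_mul] at h1
  refine lt_top_iff_ne_top.2 fun hc => h1 ?_
  rw [hc, ENNReal.mul_top (by simp)]

lemma term_eq (h : Att κ ψ) {z : ℝ} (hz : 0 < z) (L : ℝ) (N : ℕ) :
    z ^ N * canonicalZ (fun r => core r - ψ r) 1 L N = (((N ! : ℕ) : ℝ≥0∞)⁻¹ *
      I (volume.restrict (cube L)) N
        (fun m => ENNReal.ofReal (Real.exp (ex ψ (Real.log z - ψ 0 / 2) m)))).toReal := by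
  rw [I_cube h, ← ofReal_integral_eq_lintegral_ofReal ((integrable_boltz h L N).const_mul _)
    (ae_of_all _ fun _ => by positivity), ENNReal.toReal_mul, ENNReal.toReal_ofReal
    (integral_nonneg fun _ => by positivity), integral_const_mul, canonicalZ]
  rw [sub_add_cancel, mul_comm (Real.log z), Real.exp_nat_mul, Real.exp_log hz]
  simp only [ENNReal.toReal_inv, ENNReal.toReal_natCast]
  ring

lemma grandZ_eq (h : Att κ ψ) {z : ℝ} (hz : 0 < z) (L : ℝ) :
    grandZ (fun r => core r - ψ r) 1 z L = (XE (cube L) (ex ψ (Real.log z - ψ 0 / 2))).toReal := by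
  simp only [grandZ, term_eq h hz]
  rw [XE, Xi, ENNReal.tsum_toReal_eq fun N => term_ne_top h _ L N]

lemma summable_terms (h : Att κ ψ) {z : ℝ} (hz : 0 < z) (L : ℝ) :
    Summable fun N => z ^ N * canonicalZ (fun r => core r - ψ r) 1 L N := by
  simp only [term_eq h hz]
  exact ENNReal.summable_toReal (XE_cube_ne_top h _ L)

lemma tendsto_grandZ (h : Att κ ψ) {z : ℝ} (hz : 0 < z) :
    Tendsto (fun L : ℝ => Real.log (grandZ (fun r => core r - ψ r) 1 z L) / L ^ 3) atTop
      (𝓝 (P ψ (Real.log z - ψ 0 / 2))) := by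
  simp only [grandZ_eq h hz]
  refine tendsto_P h _ _ (fun L => ?_) (fun L => ?_)
  · rw [A_le_iff h, ofReal_exp_log (one_le_XE _ _ _) (XE_cube_ne_top h _ L)]
    exact XE_subset (Box_subset_cube L) _
  · rw [le_A_iff h, ofReal_exp_log (one_le_XE _ _ _) (XE_cube_ne_top h _ L)]
    exact XE_subset (cube_subset_Box L) _

lemma stable_pot (h : Att κ ψ) : Stable (fun r => core r - ψ r) := by
  obtain ⟨b, -, hb⟩ := core_bound κ 1 h.pos one_pos
  refine ⟨b / 2, fun N x hx => ?_⟩
  have h1 := hb (cfg x) (Multiset.coe_nodup.2 (List.nodup_ofFn.2 hx)) _ h.ctl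
  rw [card_cfg] at h1
  have h2 : 0 ≤ (N : ℝ) * ψ 0 := mul_nonneg (Nat.cast_nonneg N) (h.nonneg 0)
  rw [energy_pot]
  linarith

lemma tempered_pot (h : Att κ ψ) : Tempered (fun r => core r - ψ r) := by
  refine ⟨1, 1, 1, one_pos, one_pos, one_pos, fun r hr => ?_⟩
  have h1 : 0 ≤ r ^ (-3 - 1 : ℝ) := Real.rpow_nonneg (by linarith) _
  have h2 := h.nonneg r
  simp only [core, if_neg (not_lt.2 hr)]
  linarith

lemma locBdd_pot (h : Att κ ψ) {M : ℝ} (hM : ∀ r, ψ r ≤ M) :
    LocallyBoundedPos (fun r => core r - ψ r) := by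
  intro a b ha
  refine ⟨(a⁻¹) ^ 4 + M, fun r hr => ?_⟩
  have h1 : core r ≤ (a⁻¹) ^ 4 := by
    unfold core
    split_ifs
    · have : r⁻¹ ≤ a⁻¹ := inv_anti₀ ha hr.1
      have : 0 ≤ r⁻¹ := inv_nonneg.2 (ha.le.trans hr.1)
      gcongr
    · positivity
  have h2 := core_nonneg r
  have h3 := h.nonneg r
  have h4 := hM r
  have h5 : 0 ≤ (a⁻¹) ^ 4 := by positivity
  exact abs_le.2 ⟨by simp only []; linarith, by simp only []; linarith⟩

end Vale.Agent.P171
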