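import Vale.Agent.P171.LP
import Vale.Agent.P171.Kink

/-! The iteration of Kac potentials. -/

open MeasureTheory Set Metric Filter Topology
open scoped ENNReal Nat

namespace Vale.Agent.P171

lemma summable_aJ {a R : ℕ → ℝ} (ha : ∀ j, 0 ≤ a j) (hR : ∀ j, 1 ≤ R j) (hs : Summable a)
    (r : ℝ) : Summable fun j => a j * J (R j) r :=
  Summable.of_nonneg_of_le (fun j => mul_nonneg (ha j) (J_nonneg _ _))
    (fun j => mul_le_mul_of_nonneg_left (J_le (hR j) r) (ha j)) (hs.mul_right _)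

lemma Att_tsum {a R : ℕ → ℝ} (ha : ∀ j, 0 ≤ a j) (hR : ∀ j, 1 ≤ R j) (hs : Summable a) :
    Att ((∑' j, a j) * 27) (fun r => ∑' j, a j * J (R j) r) := by
  refine ⟨?_, fun r => tsum_nonneg fun j => mul_nonneg (ha j) (J_nonneg _ _), ?_,
    mul_nonneg (tsum_nonneg ha) (by norm_num)⟩
  · refine measurable_of_tendsto_metrizable
      (f := fun n r => ∑ j ∈ Finset.range n, a j * J (R j) r)
      (fun n => Finset.measurable_sum _ fun j _ => (measurable_J _).const_mul _) ?_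
    exact tendsto_pi_nhds.2 fun r => (summable_aJ ha hR hs r).hasSum.tendsto_sum_nat
  · intro l hl hl1 m
    have h1 := D_hasSum (f := fun j (x y : E) => a j * J (R j) (dist x y))
      (fun x y => (summable_aJ ha hR hs (dist x y)).hasSum) m
    have h2 := (hs.hasSum.mul_right 27).mul_right (Q l m / l ^ 3)
    exact hasSum_le (fun j => (Att_J (hR j) (ha j)).ctl l hl hl1 m) h1 h2

noncomputable def cs (k : ℕ) : ℝ := (1 + (1 / 2) ^ k) / 32

noncomputable def es (E0 : ℝ) : ℕ → ℝ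
  | 0 => E0
  | k + 1 => es E0 k * (1 / 2) ^ (k + 2)

lemma cs_ge (k : ℕ) : 1 / 32 ≤ cs k := by
  have : (0 : ℝ) ≤ (1 / 2) ^ k := by positivity
  unfold cs; linarith

lemma cs_le (k : ℕ) : cs k ≤ 1 / 16 := by
  have : ((1 : ℝ) / 2) ^ k ≤ 1 := pow_le_one₀ (by norm_num) (by norm_num)
  unfold cs; linarith

lemma es_pos {E0 : ℝ} (h : 0 < E0) (k : ℕ) : 0 < es E0 k := by
  induction k with
  | zero => exact h
  | succ k ih => unfold es; positivity

lemma es_le {E0 : ℝ} (h : 0 < E0) (k j : ℕ) : es E0 (j + k) ≤ es E0 k * (1 / 2) ^ j := by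
  induction j with
  | zero => simp
  | succ j ih =>
    rw [show j + 1 + k = (j + k) + 1 by ring, es, pow_succ _ j, ← mul_assoc]
    refine mul_le_mul ih ?_ (by positivity) (by have := es_pos h k; positivity)
    exact pow_le_of_le_one (by norm_num) (by norm_num) (by omega)

lemma es_sum {E0 : ℝ} (h : 0 < E0) (k : ℕ) :
    Summable (fun j => es E0 (j + k)) ∧ ∑' j, es E0 (j + k) ≤ 2 * es E0 k := by
  have hg := hasSum_geometric_two.mul_left (es E0 k)
  have hs := Summable.of_nonneg_of_le (fun j => (es_pos h _).le) (es_le h k) hg.summable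
  exact ⟨hs, (hasSum_le (es_le h k) hs.hasSum hg).trans (le_of_eq (mul_comm _ _))⟩

def Inv (E0 : ℝ) (k : ℕ) (p : (ℝ → ℝ) × ℝ) : Prop :=
  (∃ κ, Att κ p.1) ∧ (∃ r, 0 ≤ r ∧ ∀ s, r ≤ s → p.1 s = 0) ∧
    cs k * (es E0 k * cs k / 2) ≤ Dl (P p.1) p.2 (es E0 k * cs k / 2)

lemma Inv_step {E0 : ℝ} (hE : 0 < E0) (k : ℕ) (p : (ℝ → ℝ) × ℝ) (h : Inv E0 k p) :
    ∃ R μ', 1 ≤ R ∧ μ' ≤ p.2 ∧ Inv E0 (k + 1) (fun r => p.1 r + es E0 k * J R r, μ') := by
  obtain ⟨⟨κ, hκ⟩, ⟨r, hr0, hr⟩, hD⟩ := h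
  have he := es_pos hE k
  have hc := cs_ge k
  have hc' := cs_ge (k + 1)
  obtain ⟨C, hC0, hC⟩ := P_growth hκ he p.2
  obtain ⟨μ', m, hμ', hm, hq⟩ := kink_step (P_convex hκ) (P_monotone hκ) (P_nonneg hκ) he hC0 hC
    (by linarith) hD
  set s := es E0 (k + 1) * cs (k + 1) / 2 with hs
  have hs0 : 0 < s := by have := es_pos hE (k + 1); positivity
  set t : ℝ := (1 / 2) ^ (k + 2) with ht
  have ht0 : 0 < t := by positivity
  obtain ⟨R, hR, hP⟩ := LP_upper hκ hr0 hr he (τ := s * t / 64) (by positivity) hm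
  refine ⟨R, μ', hR, hμ', ⟨_, hκ.add (Att_J hR he.le)⟩, ⟨r + 2 * R, by linarith, fun x hx => ?_⟩, ?_⟩
  · simp only []
    rw [hr x (by linarith), J_eq_zero (by linarith) (by linarith)]; simp
  · refine le_trans ?_ (hq _ _ s (fun a x => LP_lower hκ hR he a x) hP hs0.le)
    have e1 : s ^ 2 / es E0 k = s * (t * cs (k + 1) / 2) := by
      rw [hs, es, ← ht]; field_simp
    have e2 : cs k = cs (k + 1) + t / 16 := by
      simp only [cs, ht, pow_succ]; ring
    have e3 : s * (t * cs (k + 1) / 2) ≤ s * (t * (1 / 16) / 2) := by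
      have := cs_le (k + 1); gcongr
    rw [e1, e2]
    nlinarith

lemma P_zero_ge (s : ℝ) : s / 8 ≤ P (fun _ => 0) s := by
  have h1 := A_le_P Att_zero s 1
  have h2 : s ≤ A (fun _ => 0) s ((1 : ℕ) : ℝ) := by
    rw [le_A_iff Att_zero]
    refine le_trans (le_of_eq ?_) (le_Xi _ _ 1)
    have : ∀ x : E, ex (fun _ => 0) s (x ::ₘ 0) = s := fun x => by
      simp only [ex, Dd, D_single, dist_self, core_zero]; simp
    simp only [I, this]
    rw [setLIntegral_const, volume_Box _ (by positivity)]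
    simp
  norm_num at h1 h2
  linarith

lemma Inv_zero : ∃ E0, 0 < E0 ∧ Inv E0 0 (fun _ => 0, 0) := by
  have h0 := P_nonneg Att_zero 0
  refine ⟨32 * (32 * P (fun _ => 0) 0 + 1), by positivity, ⟨0, Att_zero⟩,
    ⟨0, le_rfl, fun _ _ => rfl⟩, ?_⟩
  have e : es (32 * (32 * P (fun _ => 0) 0 + 1)) 0 * cs 0 / 2 = 32 * P (fun _ => 0) 0 + 1 := by
    simp only [es, cs]; ring
  rw [e]
  have h1 := P_zero_ge (0 + (32 * P (fun _ => 0) 0 + 1))
  have h2 := P_nonneg Att_zero (0 - (32 * P (fun _ => 0) 0 + 1))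
  have h3 : cs 0 = 1 / 16 := by norm_num [cs]
  simp only [Dl, h3]
  linarith

theorem exists_kink : ∃ (κ : ℝ) (ψ : ℝ → ℝ), Att κ ψ ∧ (∃ M, ∀ r, ψ r ≤ M) ∧
    ∃ a, ¬DifferentiableAt ℝ (P ψ) a := by
  obtain ⟨E0, hE, h0⟩ := Inv_zero
  have step := Inv_step hE
  choose! R0 μ0 hR0 hμ0 hI using step
  let st : ℕ → (ℝ → ℝ) × ℝ := fun k => Nat.rec (fun _ => 0, 0)
    (fun k p => (fun r => p.1 r + es E0 k * J (R0 k p) r, μ0 k p)) k
  have hst : ∀ k, Inv E0 k (st k) := fun k => by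
    induction k with
    | zero => exact h0
    | succ k ih => exact hI k _ ih
  set R : ℕ → ℝ := fun k => R0 k (st k) with hRdef
  have hR : ∀ k, 1 ≤ R k := fun k => hR0 k _ (hst k)
  set μ : ℕ → ℝ := fun k => (st k).2 with hμdef
  have hanti : Antitone μ := antitone_nat_of_succ_le fun k => hμ0 k _ (hst k)
  have hμ0' : ∀ k, μ k ≤ 0 := fun k => hanti (Nat.zero_le k)
  have hpos : ∀ j, 0 ≤ es E0 j := fun j => (es_pos hE j).le
  have hsum : Summable (es E0) := by simpa using (es_sum hE 0).1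
  have hψk : ∀ k r, (st k).1 r = ∑ j ∈ Finset.range k, es E0 j * J (R j) r := fun k r => by
    induction k with
    | zero => simp [st]
    | succ k ih => rw [Finset.sum_range_succ, ← ih]
  have hAk : ∀ k, Att ((∑ j ∈ Finset.range k, es E0 j) * 27) (st k).1 := fun k => by
    induction k with
    | zero => simpa [st] using Att_zero
    | succ k ih => rw [Finset.sum_range_succ, add_mul]; exact ih.add (Att_J (hR k) (hpos k))
  set κ := (∑' j, es E0 j) * 27 with hκ
  have hAk' : ∀ k, Att κ (st k).1 := fun k => (hAk k).mono (by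
    have := hsum.sum_le_tsum (Finset.range k) fun j _ => hpos j
    rw [hκ]; gcongr)
  set ψ : ℝ → ℝ := fun r => ∑' j, es E0 j * J (R j) r with hψ
  have hA : Att κ ψ := Att_tsum hpos hR hsum
  have hχ : ∀ k, Att (54 * es E0 k) (fun r => ∑' j, es E0 (j + k) * J (R (j + k)) r) := fun k =>
    (Att_tsum (fun j => hpos _) (fun j => hR _) (es_sum hE k).1).mono (by
      linarith [(es_sum hE k).2])
  have hdec : ∀ k, ψ = fun r => (st k).1 r + ∑' j, es E0 (j + k) * J (R (j + k)) r := fun k => by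
    funext r
    rw [hψk, (summable_aJ hpos hR hsum r).sum_add_tsum_nat_add k]
  obtain ⟨C, hC0, hC⟩ := P_pert κ hA.pos
  have hlim : Tendsto (es E0) atTop (𝓝 0) := hsum.tendsto_atTop_zero
  set K : ℝ := 64 * 108 * C + 1 with hK
  have hK1 : 1 ≤ K := by rw [hK]; linarith [mul_nonneg (show (0 : ℝ) ≤ 64 * 108 by norm_num) hC0]
  have hslim : Tendsto (fun k => K * es E0 k) atTop (𝓝 0) := by simpa using hlim.const_mul K
  have hev : ∀ᶠ k in atTop, 0 < K * es E0 k ∧
      1 / 64 * (K * es E0 k) ≤ Dl (P ψ) (μ k) (K * es E0 k) := by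
    filter_upwards [hlim.eventually (gt_mem_nhds (show (0 : ℝ) < 1 / 108 by norm_num))] with k hk
    have he := es_pos hE k
    refine ⟨by positivity, ?_⟩
    have hc := cs_ge k
    have hc' := cs_le k
    have h1 := Dl_scale (P_convex (hAk' k)) (s := K * es E0 k) (by positivity)
      (by nlinarith) (hst k).2.2
    have h2 := hC _ _ _ (μ k) (hAk' k) (hχ k) (by positivity) (by linarith) (hμ0' k)
    rw [← hdec k] at h2
    have hle : ∀ r, (st k).1 r ≤ ψ r := fun r => by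
      rw [hdec k]; exact le_add_of_nonneg_right ((hχ k).nonneg r)
    have h3 := P_mono_of (hAk' k) hA hle (le_refl (μ k + K * es E0 k))
    have h4 := P_mono_of (hAk' k) hA hle (le_refl (μ k - K * es E0 k))
    have h5 : 1 / 32 * (K * es E0 k) ≤ cs k * (K * es E0 k) := by gcongr
    have h6 : K * es E0 k = 64 * 108 * (C * es E0 k) + es E0 k := by rw [hK]; ring
    unfold Dl at h1 ⊢
    simp only [hμdef] at h2 h3 h4 ⊢
    linarith
  obtain ⟨b, hb⟩ := P_stab κ hA.pos
  have hbdd : BddBelow (range μ) := by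
    refine ⟨Real.log (1 / 128) - 1 - b, ?_⟩
    rintro _ ⟨k, rfl⟩
    obtain ⟨j, ⟨⟨h1, h2⟩, h3⟩, h4⟩ := ((hev.and (hslim.eventually (gt_mem_nhds one_pos))).and
      (eventually_ge_atTop k)).exists
    refine le_trans ?_ (hanti h4)
    have h5 := Dl_scale (P_convex hA) h1 h3.le h2
    have h6 := hb ψ hA (μ j + 1)
    have h7 := P_monotone hA (show μ j - 1 ≤ μ j + 1 by linarith)
    have h8 := P_nonneg hA (μ j)
    have h9 : 1 / 128 ≤ Real.exp (μ j + 1 + b) := by unfold Dl at h5; linarith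
    have := (Real.log_le_iff_le_exp (by norm_num)).2 h9
    linarith
  refine ⟨κ, ψ, hA, ⟨(∑' j, es E0 j) * v1⁻¹, fun r => ?_⟩, _,
    not_diff (P_convex hA) (by norm_num) (tendsto_atTop_ciInf hanti hbdd) hslim hev⟩
  exact hasSum_le (fun j => mul_le_mul_of_nonneg_left (J_le (hR j) r) (hpos j))
    (summable_aJ hpos hR hsum r).hasSum (hsum.hasSum.mul_right _)

end Vale.Agent.P171
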