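import Vale.Agent.P171.Kac

/-! The pressure of the core potential with an attractive tail. -/

open MeasureTheory Set Metric Filter Topology
open scoped ENNReal Nat

namespace Vale.Agent.P171

noncomputable def XE (Λ : Set E) (g : Multiset E → ℝ) : ℝ≥0∞ :=
  Xi (volume.restrict Λ) (fun m => ENNReal.ofReal (Real.exp (g m)))

lemma measurable_oe {g : Multiset E → ℝ} (hg : Measurable g) :
    Measurable (fun m => ENNReal.ofReal (Real.exp (g m))) := hg.exp.ennreal_ofReal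

lemma XE_mono {Λ : Set E} (hΛ : MeasurableSet Λ) {g g' : Multiset E → ℝ}
    (h : ∀ m, m.Nodup → (∀ x ∈ m, x ∈ Λ) → g m ≤ g' m) : XE Λ g ≤ XE Λ g' :=
  Xi_mono _ (· ∈ Λ) (ae_restrict_mem hΛ) fun m h1 h2 =>
    ENNReal.ofReal_le_ofReal (Real.exp_le_exp.2 (h m h1 h2))

lemma XE_subset {Λ Λ' : Set E} (h : Λ ⊆ Λ') (g : Multiset E → ℝ) : XE Λ g ≤ XE Λ' g :=
  Xi_mono_meas (Measure.restrict_mono h le_rfl) _

lemma XE_const_add (Λ : Set E) (c : ℝ) (g : Multiset E → ℝ) :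
    XE Λ (fun m => c + g m) = ENNReal.ofReal (Real.exp c) * XE Λ g := by
  simp only [XE, Real.exp_add, ENNReal.ofReal_mul (Real.exp_pos _).le]
  exact Xi_const_mul _ _ ENNReal.ofReal_ne_top _

lemma XE_field {Λ : Set E} {f : E → ℝ} (hf : Measurable f) {t : ℝ} (ht : 0 ≤ t)
    (h : ∫⁻ x in Λ, ENNReal.ofReal (Real.exp (f x)) ≤ ENNReal.ofReal t) :
    XE Λ (S f) ≤ ENNReal.ofReal (Real.exp t) := by
  simp only [XE, ofReal_exp_S]
  exact Xi_ideal _ hf.exp.ennreal_ofReal (fun _ => ENNReal.ofReal_ne_top) ht h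

lemma XE_ideal (a : E) {L : ℝ} (hL : 0 ≤ L) (c : ℝ) :
    XE (Box a L) (fun m => c * m.card) ≤ ENNReal.ofReal (Real.exp (Real.exp c * L ^ 3)) := by
  have : (fun m : Multiset E => c * m.card) = S (fun _ => c) := by
    funext m; rw [S_const]
  rw [this]
  refine XE_field measurable_const (by positivity) ?_
  rw [setLIntegral_const, volume_Box a hL, ENNReal.ofReal_mul (Real.exp_pos _).le]

lemma XE_split (Λ : Set E) (hΛ : MeasurableSet Λ) {g : Multiset E → ℝ} (hg : Measurable g)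
    (W : Multiset E → ℝ) (t K : ℝ) (hK : 0 ≤ K) :
    XE Λ (fun m => g m + W m) ≤ ENNReal.ofReal (Real.exp t) * XE Λ g +
      ENNReal.ofReal (Real.exp (-(K * t))) * XE Λ (fun m => g m + (K + 1) * W m) := by
  rw [← XE_const_add, ← XE_const_add, XE, XE, XE, ← Xi_add _ _ (measurable_oe (hg.const_add t))]
  refine Xi_mono _ (· ∈ Λ) (ae_restrict_mem hΛ) fun m _ _ => ?_
  rcases le_total (W m) t with h | h
  · exact le_add_right (ENNReal.ofReal_le_ofReal (Real.exp_le_exp.2 (by linarith)))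
  · refine le_add_left (ENNReal.ofReal_le_ofReal (Real.exp_le_exp.2 ?_))
    nlinarith [mul_nonneg hK (sub_nonneg.2 h)]

lemma XE_translate (a : E) (L : ℝ) (g : Multiset E → ℝ) :
    XE (Box a L) (fun m => g (m.map (· - a))) = XE (Box 0 L) g := by
  have he : MeasurableEmbedding (fun x : E => x - a) := measurableEmbedding_subRight a
  have h1 : (volume.restrict (Box a L)).map (fun x : E => x - a) = volume.restrict (Box 0 L) := by
    have h2 : Box a L = (fun x : E => x - a) ⁻¹' Box 0 L := by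
      ext x
      simp only [Box, mem_ofPred_eq, mem_preimage, PiLp.sub_apply, PiLp.zero_apply]
      refine forall_congr' fun i => ?_
      constructor <;> rintro ⟨h1, h2⟩ <;> constructor <;> linarith
    rw [h2, ← he.restrict_map, (measurePreserving_sub_right volume a).map_eq]
  rw [XE, XE, ← h1, Xi_map he]

lemma Box_mono (a : E) {L L' : ℝ} (h : L ≤ L') : Box a L ⊆ Box a L' :=
  fun x hx i => ⟨(hx i).1, by linarith [(hx i).2]⟩

open Classical in
lemma XE_tile {l L : ℝ} (hl : 0 < l) (hL : L ≤ l) (T : Finset (Fin 3 → ℤ))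
    {g : Multiset E → ℝ} (hg : Measurable g) :
    XE (⋃ k ∈ T, Box (pt l k) L)
      (fun m => ∑ k ∈ T, g ((m.filter (· ∈ Box (pt l k) L)).map (· - pt l k))) =
      (XE (Box 0 L) g) ^ T.card := by
  have h := Xi_prod (volume : Measure E) T (fun k => Box (pt l k) L)
    (fun k => measurableSet_Box _ _)
    (fun j _ k _ h => (Box_disjoint hl h).mono (Box_mono _ hL) (Box_mono _ hL))
    (fun k m => ENNReal.ofReal (Real.exp (g (m.map (· - pt l k)))))
    (fun k => measurable_oe (hg.comp (measurable_mapm (measurable_id.sub_const _))))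
  rw [← Finset.prod_const, ← Finset.prod_congr rfl fun k _ => XE_translate (pt l k) L g]
  simp only [XE, Real.exp_sum]
  rw [← h]
  congr 1; funext m
  exact ENNReal.ofReal_prod_of_nonneg fun _ _ => (Real.exp_pos _).le

noncomputable def grid (M : ℕ) : Finset (Fin 3 → ℤ) :=
  Fintype.piFinset fun _ => Finset.Ico (0 : ℤ) M

lemma card_grid (M : ℕ) : (grid M).card = M ^ 3 := by simp [grid]

structure Att (κ : ℝ) (ψ : ℝ → ℝ) : Prop where
  meas : Measurable ψ
  nonneg : ∀ r, 0 ≤ ψ r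
  ctl : Ctl κ (Dd ψ)
  pos : 0 ≤ κ

lemma Ctl.mono {κ κ' : ℝ} {W : Multiset E → ℝ} (h : Ctl κ W) (hk : κ ≤ κ') : Ctl κ' W := by
  intro l hl hl1 m
  have := Q_nonneg l m
  exact (h l hl hl1 m).trans (mul_le_mul_of_nonneg_right hk (by positivity))

lemma Ctl.add {κ κ' : ℝ} {W W' : Multiset E → ℝ} (h : Ctl κ W) (h' : Ctl κ' W') :
    Ctl (κ + κ') (fun m => W m + W' m) := by
  intro l hl hl1 m
  linarith [h l hl hl1 m, h' l hl hl1 m]

lemma Ctl.mul {κ c : ℝ} {W : Multiset E → ℝ} (h : Ctl κ W) (hc : 0 ≤ c) :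
    Ctl (c * κ) (fun m => c * W m) := by
  intro l hl hl1 m
  rw [mul_assoc]
  exact mul_le_mul_of_nonneg_left (h l hl hl1 m) hc

lemma Att.mono {κ κ' : ℝ} {ψ : ℝ → ℝ} (h : Att κ ψ) (hk : κ ≤ κ') : Att κ' ψ :=
  ⟨h.meas, h.nonneg, h.ctl.mono hk, h.pos.trans hk⟩

lemma Att.add {κ κ' : ℝ} {ψ χ : ℝ → ℝ} (h : Att κ ψ) (h' : Att κ' χ) :
    Att (κ + κ') (fun r => ψ r + χ r) :=
  ⟨h.meas.add h'.meas, fun r => add_nonneg (h.nonneg r) (h'.nonneg r),
    by simpa only [← Dd_add] using h.ctl.add h'.ctl, add_nonneg h.pos h'.pos⟩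

lemma Att_J {R ε : ℝ} (hR : 1 ≤ R) (hε : 0 ≤ ε) : Att (ε * 27) (fun r => ε * J R r) :=
  ⟨(measurable_J R).const_mul ε, fun r => mul_nonneg hε (J_nonneg R r),
    by simpa only [← Dd_mul] using (Ctl_J hR).mul hε, by positivity⟩

lemma Att_zero : Att 0 (fun _ => 0) :=
  ⟨measurable_const, fun _ => le_rfl, fun l _ _ m => by simp [Dd, D_const], le_rfl⟩

noncomputable def ex (ψ : ℝ → ℝ) (μ : ℝ) (m : Multiset E) : ℝ :=
  μ * m.card - Dd core m / 2 + Dd ψ m / 2

lemma measurable_ex {ψ : ℝ → ℝ} (hψ : Measurable ψ) (μ : ℝ) : Measurable (ex ψ μ) :=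
  ((measurable_cardR.const_mul μ).sub ((measurable_Dd measurable_core).div_const 2)).add
    ((measurable_Dd hψ).div_const 2)

lemma ex_map_sub (ψ : ℝ → ℝ) (μ : ℝ) (t : E) (m : Multiset E) :
    ex ψ μ (m.map (· - t)) = ex ψ μ m := by
  simp [ex, Dd_map_sub]

noncomputable def A (ψ : ℝ → ℝ) (μ L : ℝ) : ℝ := Real.log (XE (Box 0 L) (ex ψ μ)).toReal

noncomputable def P (ψ : ℝ → ℝ) (μ : ℝ) : ℝ := ⨆ n : ℕ, A ψ μ n / (n + 1) ^ 3

lemma one_le_XE (Λ : Set E) (ψ : ℝ → ℝ) (μ : ℝ) : 1 ≤ XE Λ (ex ψ μ) := by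
  have := le_Xi (volume.restrict Λ) (fun m => ENNReal.ofReal (Real.exp (ex ψ μ m))) 0
  refine le_trans (le_of_eq ?_) this
  simp [I, ex, Dd]

lemma stab (κ : ℝ) (hκ : 0 ≤ κ) : ∃ b : ℝ, ∀ ψ, Att κ ψ → ∀ μ L, 0 ≤ L →
    XE (Box 0 L) (ex ψ μ) ≤ ENNReal.ofReal (Real.exp (Real.exp (μ + b) * L ^ 3)) := by
  obtain ⟨b, -, hb⟩ := core_bound κ 1 hκ one_pos
  refine ⟨b / 2, fun ψ hψ μ L hL => le_trans (XE_mono (measurableSet_Box _ _) ?_)
    (XE_ideal 0 hL _)⟩
  intro m hm _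
  have := hb m hm _ hψ.ctl
  unfold ex; linarith

variable {κ : ℝ} {ψ : ℝ → ℝ}

lemma XE_ne_top (h : Att κ ψ) (μ L : ℝ) : XE (Box 0 L) (ex ψ μ) ≠ ∞ := by
  obtain ⟨b, hb⟩ := stab κ h.pos
  refine ne_top_of_le_ne_top ENNReal.ofReal_ne_top
    ((XE_subset (Box_mono 0 (le_abs_self L)) _).trans (hb ψ h μ _ (abs_nonneg L)))

lemma ofReal_exp_log {x : ℝ≥0∞} (h1 : 1 ≤ x) (h2 : x ≠ ∞) :
    ENNReal.ofReal (Real.exp (Real.log x.toReal)) = x := by
  rw [Real.exp_log (ENNReal.toReal_pos (lt_of_lt_of_le one_pos h1).ne' h2),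
    ENNReal.ofReal_toReal h2]

lemma XE_eq (h : Att κ ψ) (μ L : ℝ) :
    XE (Box 0 L) (ex ψ μ) = ENNReal.ofReal (Real.exp (A ψ μ L)) :=
  (ofReal_exp_log (one_le_XE _ ψ μ) (XE_ne_top h μ L)).symm

lemma oe_le_iff {s t : ℝ} : ENNReal.ofReal (Real.exp s) ≤ ENNReal.ofReal (Real.exp t) ↔ s ≤ t := by
  rw [ENNReal.ofReal_le_ofReal_iff (Real.exp_pos _).le, Real.exp_le_exp]

lemma oe_mul (s t : ℝ) : ENNReal.ofReal (Real.exp s) * ENNReal.ofReal (Real.exp t) =
    ENNReal.ofReal (Real.exp (s + t)) := by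
  rw [Real.exp_add, ENNReal.ofReal_mul (Real.exp_pos _).le]

lemma oe_pow (s : ℝ) (n : ℕ) : ENNReal.ofReal (Real.exp s) ^ n =
    ENNReal.ofReal (Real.exp (n * s)) := by
  rw [Real.exp_nat_mul, ENNReal.ofReal_pow (Real.exp_pos _).le]

lemma A_le_iff (h : Att κ ψ) {μ L t : ℝ} :
    A ψ μ L ≤ t ↔ XE (Box 0 L) (ex ψ μ) ≤ ENNReal.ofReal (Real.exp t) := by
  rw [XE_eq h, oe_le_iff]

lemma le_A_iff (h : Att κ ψ) {μ L t : ℝ} :
    t ≤ A ψ μ L ↔ ENNReal.ofReal (Real.exp t) ≤ XE (Box 0 L) (ex ψ μ) := by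
  rw [XE_eq h, oe_le_iff]

lemma A_nonneg (h : Att κ ψ) (μ L : ℝ) : 0 ≤ A ψ μ L :=
  (le_A_iff h).2 (by simpa using one_le_XE _ ψ μ)

lemma A_mono (h : Att κ ψ) (μ : ℝ) {L L' : ℝ} (hL : L ≤ L') : A ψ μ L ≤ A ψ μ L' := by
  rw [A_le_iff h, ← XE_eq h]
  exact XE_subset (Box_mono 0 hL) _

lemma A_super (h : Att κ ψ) (μ : ℝ) (n M : ℕ) {L : ℝ} (hL : M * (n + 1 : ℝ) ≤ L) :
    (M : ℝ) ^ 3 * A ψ μ n ≤ A ψ μ L := by
  classical
  have hl : (0 : ℝ) < n + 1 := by positivity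
  have hd : ((grid M : Finset _) : Set (Fin 3 → ℤ)).PairwiseDisjoint
      (fun k => Box (pt (n + 1) k) n) := fun j _ k _ h =>
    (Box_disjoint hl h).mono (Box_mono _ (by linarith)) (Box_mono _ (by linarith))
  have h1 := XE_tile (l := n + 1) (L := n) hl (by linarith) (grid M) (measurable_ex h.meas μ)
  rw [XE_eq h, oe_pow, card_grid] at h1
  rw [le_A_iff h]
  push_cast at h1
  rw [← h1]
  refine le_trans (XE_mono (g' := ex ψ μ) (MeasurableSet.biUnion (Finset.countable_toSet _)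
    fun _ _ => measurableSet_Box _ _) ?_) (XE_subset ?_ _)
  · intro m _ hm
    simp only [mem_iUnion, exists_prop] at hm
    simp only [ex_map_sub]
    have e1 := S_split (grid M) _ hd (fun _ => μ) hm
    have e2 := D_split (grid M) _ hd (fun x y => core (dist x y) + (-1) * ψ (dist x y)) hm ?_
    · simp only [S_const] at e1
      simp only [D_add, D_mul, Finset.sum_add_distrib, ← Finset.mul_sum] at e2
      simp only [ex, Finset.sum_add_distrib, Finset.sum_sub_distrib, ← Finset.sum_div, Dd]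
      linarith
    · intro k _ j _ hjk x hx y hy
      obtain ⟨i, hi⟩ := Function.ne_iff.1 hjk
      have h2 : 1 ≤ dist x y := by
        refine le_trans ?_ (coord_le_dist x y i)
        have a1 := hx i
        have a2 := hy i
        simp only [pt_apply] at a1 a2
        rcases lt_or_gt_of_ne hi with hi | hi
        · have : (j i : ℝ) + 1 ≤ k i := by exact_mod_cast hi
          exact le_abs.2 (Or.inl (by nlinarith [a1.1, a2.2]))
        · have : (k i : ℝ) + 1 ≤ j i := by exact_mod_cast hi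
          exact le_abs.2 (Or.inr (by nlinarith [a1.2, a2.1]))
      simp only [core, if_neg (not_lt.2 h2)]
      linarith [h.nonneg (dist x y)]
  · intro x hx
    simp only [mem_iUnion, exists_prop] at hx
    obtain ⟨k, hk, hx⟩ := hx
    intro i
    have a1 := hx i
    have a2 := Finset.mem_Ico.1 (Fintype.mem_piFinset.1 hk i)
    have a3 : (0 : ℝ) ≤ k i := by exact_mod_cast a2.1
    have a4 : (k i : ℝ) + 1 ≤ M := by exact_mod_cast a2.2
    simp only [pt_apply, PiLp.zero_apply] at a1 ⊢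
    constructor <;> nlinarith [a1.1, a1.2]

lemma tendsto_cube_ratio (a b : ℝ) :
    Tendsto (fun L : ℝ => (a * L + b) ^ 3 / L ^ 3) atTop (𝓝 (a ^ 3)) := by
  have h : Tendsto (fun L : ℝ => (a + b * L⁻¹) ^ 3) atTop (𝓝 ((a + b * 0) ^ 3)) :=
    ((tendsto_inv_atTop_zero.const_mul b).const_add a).pow 3
  rw [mul_zero, add_zero] at h
  refine h.congr' ?_
  filter_upwards [eventually_gt_atTop 0] with L hL
  field_simp

lemma P_le (h : Att κ ψ) {μ c C C' : ℝ} (hb : ∀ n : ℕ, A ψ μ n ≤ c * (n + C) ^ 3 + C') :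
    P ψ μ ≤ c := by
  refine ciSup_le fun n => ?_
  rw [div_le_iff₀ (by positivity)]
  have h1 : Tendsto (fun M : ℝ => c * (((n + 1) * M + C) ^ 3 / M ^ 3) + C' * (M⁻¹) ^ 3) atTop
      (𝓝 (c * (n + 1) ^ 3 + C' * 0 ^ 3)) :=
    ((tendsto_cube_ratio _ _).const_mul c).add ((tendsto_inv_atTop_zero.pow 3).const_mul C')
  have h2 := h1.comp tendsto_natCast_atTop_atTop
  simp only [ne_eq, OfNat.ofNat_ne_zero, not_false_eq_true, zero_pow, mul_zero, add_zero] at h2
  refine ge_of_tendsto h2 ?_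
  filter_upwards [eventually_gt_atTop 0] with M hM
  have hM' : (0 : ℝ) < M := by exact_mod_cast hM
  have h3 := (A_super h μ n M (L := ((M * (n + 1) : ℕ) : ℝ)) (by push_cast; rfl)).trans (hb _)
  push_cast at h3
  simp only [Function.comp]
  have : c * (((n + 1) * M + C) ^ 3 / M ^ 3) + C' * ((M : ℝ)⁻¹) ^ 3 =
      (c * (M * (n + 1) + C) ^ 3 + C') / M ^ 3 := by field_simp
  rw [this, le_div_iff₀ (by positivity)]
  linarith

lemma bddAbove_A (h : Att κ ψ) (μ : ℝ) :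
    BddAbove (range fun n : ℕ => A ψ μ n / (n + 1) ^ 3) := by
  obtain ⟨b, hb⟩ := stab κ h.pos
  refine ⟨Real.exp (μ + b), ?_⟩
  rintro _ ⟨n, rfl⟩
  simp only []
  rw [div_le_iff₀ (by positivity)]
  refine ((A_le_iff h).2 (hb ψ h μ n (by positivity))).trans ?_
  gcongr; linarith

lemma A_le_P (h : Att κ ψ) (μ : ℝ) (n : ℕ) : A ψ μ n ≤ P ψ μ * (n + 1) ^ 3 := by
  rw [← div_le_iff₀ (by positivity)]
  exact le_ciSup (bddAbove_A h μ) n

lemma P_nonneg (h : Att κ ψ) (μ : ℝ) : 0 ≤ P ψ μ := by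
  have h1 := A_le_P h μ 0
  have h2 := A_nonneg h μ ((0 : ℕ) : ℝ)
  simp only [Nat.cast_zero, zero_add, one_pow, mul_one] at h1 h2
  linarith

lemma P_stab (κ : ℝ) (hκ : 0 ≤ κ) : ∃ b : ℝ, ∀ ψ, Att κ ψ → ∀ μ, P ψ μ ≤ Real.exp (μ + b) := by
  obtain ⟨b, hb⟩ := stab κ hκ
  refine ⟨b, fun ψ h μ => P_le h (C := 0) (C' := 0) fun n => ?_⟩
  simpa using (A_le_iff h).2 (hb ψ h μ n (by positivity))

lemma P_mono_of {κ' : ℝ} {ψ' : ℝ → ℝ} (h : Att κ ψ) (h' : Att κ' ψ') {μ μ' : ℝ}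
    (hψ : ∀ r, ψ r ≤ ψ' r) (hμ : μ ≤ μ') : P ψ μ ≤ P ψ' μ' := by
  refine P_le h (C := 1) (C' := 0) fun n => ?_
  rw [add_zero]
  refine le_trans ?_ (A_le_P h' μ' n)
  rw [A_le_iff h, ← XE_eq h']
  refine XE_mono (measurableSet_Box _ _) fun m _ _ => ?_
  have h1 : Dd ψ m ≤ Dd ψ' m := D_mono fun _ _ _ _ => hψ _
  have h2 : μ * m.card ≤ μ' * m.card := by gcongr
  unfold ex; linarith

lemma P_monotone (h : Att κ ψ) : Monotone (P ψ) := fun _ _ hμ => P_mono_of h h (fun _ => le_rfl) hμ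

lemma P_convex (h : Att κ ψ) : ConvexOn ℝ univ (P ψ) := by
  refine ⟨convex_univ, fun μ _ ν _ a b ha hb hab => ?_⟩
  refine P_le h (C := 1) (C' := 0) fun n => ?_
  have h1 : A ψ (a • μ + b • ν) n ≤ a * A ψ μ n + b * A ψ ν n := by
    rw [A_le_iff h]
    set α := A ψ μ n
    set β := A ψ ν n
    have hm : Measurable (fun m => ENNReal.ofReal (a * Real.exp (b * (β - α))) *
        ENNReal.ofReal (Real.exp (ex ψ μ m))) := (measurable_oe (measurable_ex h.meas μ)).const_mul _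
    calc XE (Box 0 n) (ex ψ (a • μ + b • ν))
        ≤ Xi (volume.restrict (Box 0 n)) (fun m => ENNReal.ofReal (a * Real.exp (b * (β - α))) *
          ENNReal.ofReal (Real.exp (ex ψ μ m)) + ENNReal.ofReal (b * Real.exp (a * (α - β))) *
          ENNReal.ofReal (Real.exp (ex ψ ν m))) := by
          refine Xi_mono _ (fun _ => True) (by simp) fun m _ _ => ?_
          rw [← ENNReal.ofReal_mul (by positivity), ← ENNReal.ofReal_mul (by positivity),
            ← ENNReal.ofReal_add (by positivity) (by positivity)]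
          refine ENNReal.ofReal_le_ofReal ?_
          have := convexOn_exp.2 (mem_univ (b * (β - α) + ex ψ μ m))
            (mem_univ (a * (α - β) + ex ψ ν m)) ha hb hab
          simp only [smul_eq_mul, Real.exp_add (b * _), Real.exp_add (a * (α - β))] at this
          refine le_trans (le_of_eq ?_) (this.trans (le_of_eq (by ring)))
          congr 1
          have hb' : b = 1 - a := by linarith
          simp only [ex, smul_eq_mul, hb']; ring
      _ = ENNReal.ofReal (Real.exp (a * α + b * β)) := by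
          rw [Xi_add _ _ hm, Xi_const_mul _ _ ENNReal.ofReal_ne_top,
            Xi_const_mul _ _ ENNReal.ofReal_ne_top]
          have e1 := XE_eq h μ n
          have e2 := XE_eq h ν n
          rw [XE] at e1 e2
          rw [e1, e2, ← ENNReal.ofReal_mul (by positivity), ← ENNReal.ofReal_mul (by positivity),
            ← ENNReal.ofReal_add (by positivity) (by positivity)]
          congr 1
          rw [mul_assoc, mul_assoc, ← Real.exp_add, ← Real.exp_add]
          have hb' : b = 1 - a := by linarith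
          have e3 : b * (β - α) + α = a * α + b * β := by rw [hb']; ring
          have e4 : a * (α - β) + β = a * α + b * β := by rw [hb']; ring
          rw [e3, e4, ← add_mul, hab, one_mul]
  have h2 := mul_le_mul_of_nonneg_left (A_le_P h μ n) ha
  have h3 := mul_le_mul_of_nonneg_left (A_le_P h ν n) hb
  simp only [smul_eq_mul] at h1 ⊢
  linarith

lemma tendsto_P (h : Att κ ψ) (μ : ℝ) (f : ℝ → ℝ) (h1 : ∀ L, A ψ μ L ≤ f L)
    (h2 : ∀ L, f L ≤ A ψ μ (L + 1)) : Tendsto (fun L => f L / L ^ 3) atTop (𝓝 (P ψ μ)) := by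
  rw [tendsto_order]
  constructor
  · intro a ha
    obtain ⟨n, hn⟩ := exists_lt_of_lt_ciSup ha
    have hn1 : (0 : ℝ) < n + 1 := by positivity
    have h3 := (tendsto_cube_ratio ((n + 1 : ℝ)⁻¹) (-1)).mul_const (A ψ μ n)
    have h4 : a < ((n + 1 : ℝ)⁻¹) ^ 3 * A ψ μ n := by
      rw [inv_pow, ← div_eq_inv_mul]; exact hn
    filter_upwards [h3.eventually (lt_mem_nhds h4), eventually_ge_atTop (n + 1 : ℝ)] with L hL hL1
    refine hL.trans_le ?_
    have hL0 : 0 < L := by linarith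
    have h5 := A_super h μ n ⌊L / (n + 1)⌋₊ (L := L) (by
      rw [← le_div_iff₀ hn1]; exact Nat.floor_le (by positivity))
    have h6 : (n + 1 : ℝ)⁻¹ * L + -1 ≤ ⌊L / (n + 1)⌋₊ := by
      have := Nat.lt_floor_add_one (L / (n + 1))
      rw [div_eq_inv_mul] at this ⊢; linarith
    have h7 : 0 ≤ (n + 1 : ℝ)⁻¹ * L + -1 := by
      have : 1 ≤ L / (n + 1) := by rw [le_div_iff₀ hn1]; linarith
      rw [div_eq_inv_mul] at this; linarith
    rw [div_mul_eq_mul_div]
    gcongr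
    refine le_trans ?_ (h5.trans (h1 L))
    have := A_nonneg h μ n
    gcongr
  · intro a ha
    have h3 := (tendsto_cube_ratio 1 3).const_mul (P ψ μ)
    rw [one_pow, mul_one] at h3
    filter_upwards [h3.eventually (gt_mem_nhds ha), eventually_gt_atTop 0] with L hL hL0
    refine lt_of_le_of_lt ?_ hL
    rw [← mul_div_assoc]
    gcongr
    have h4 := Nat.ceil_lt_add_one (show 0 ≤ L + 1 by linarith)
    refine (h2 L).trans ((A_mono h μ (Nat.le_ceil (L + 1))).trans ((A_le_P h μ _).trans ?_))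
    have := P_nonneg h μ
    have h5 : (⌈L + 1⌉₊ : ℝ) + 1 ≤ 1 * L + 3 := by linarith
    exact mul_le_mul_of_nonneg_left (pow_le_pow_left₀ (by positivity) h5 3) this

end Vale.Agent.P171
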