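import Vale.Agent.P171.Gas

/-! One-body and two-body sums over multisets. -/

open MeasureTheory Set
open scoped ENNReal Nat

namespace Vale.Agent.P171

variable {α : Type}

def S (f : α → ℝ) (m : Multiset α) : ℝ := (m.map f).sum

def D (w : α → α → ℝ) (m : Multiset α) : ℝ := S (fun x => S (w x) m) m

@[simp] lemma S_zero (f : α → ℝ) : S f 0 = 0 := by simp [S]

@[simp] lemma S_cons (f : α → ℝ) (a : α) (m : Multiset α) : S f (a ::ₘ m) = f a + S f m := by
  simp [S]

@[simp] lemma D_zero (w : α → α → ℝ) : D w 0 = 0 := by simp [D]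

lemma D_single (w : α → α → ℝ) (a : α) : D w (a ::ₘ 0) = w a a := by simp [D, S]

lemma S_cfg (f : α → ℝ) {N : ℕ} (x : Fin N → α) : S f (cfg x) = ∑ i, f (x i) := by
  rw [S, cfg_map, sum_cfg]

lemma D_cfg (w : α → α → ℝ) {N : ℕ} (x : Fin N → α) :
    D w (cfg x) = ∑ i, ∑ j, w (x i) (x j) := by
  simp [D, S_cfg]

lemma S_mono {f g : α → ℝ} {m : Multiset α} (h : ∀ x ∈ m, f x ≤ g x) : S f m ≤ S g m :=
  Multiset.sum_map_le_sum_map f g h

lemma S_congr {f g : α → ℝ} {m : Multiset α} (h : ∀ x ∈ m, f x = g x) : S f m = S g m :=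
  le_antisymm (S_mono fun x hx => (h x hx).le) (S_mono fun x hx => (h x hx).ge)

lemma S_const (c : ℝ) (m : Multiset α) : S (fun _ => c) m = c * m.card := by
  simp [S, mul_comm]

lemma S_nonneg {f : α → ℝ} {m : Multiset α} (h : ∀ x ∈ m, 0 ≤ f x) : 0 ≤ S f m := by
  have := S_mono (f := fun _ => 0) h
  rwa [S_const, zero_mul] at this

lemma S_add (f g : α → ℝ) (m : Multiset α) : S (fun x => f x + g x) m = S f m + S g m := by
  simp [S, Multiset.sum_map_add]

lemma S_mul (c : ℝ) (f : α → ℝ) (m : Multiset α) : S (fun x => c * f x) m = c * S f m := by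
  simp [S, Multiset.sum_map_mul_left]

lemma S_sum {ι : Type} (T : Finset ι) (f : ι → α → ℝ) (m : Multiset α) :
    S (fun x => ∑ k ∈ T, f k x) m = ∑ k ∈ T, S (f k) m := by
  induction m using Multiset.induction_on with
  | empty => simp
  | cons a m ih => simp [ih, Finset.sum_add_distrib]

lemma S_hasSum {f : ℕ → α → ℝ} {g : α → ℝ} (h : ∀ x, HasSum (fun k => f k x) (g x))
    (m : Multiset α) : HasSum (fun k => S (f k) m) (S g m) := by
  induction m using Multiset.induction_on with
  | empty => simp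
  | cons a m ih => simpa using (h a).add ih

lemma S_filter (p : α → Prop) [DecidablePred p] (f : α → ℝ) (m : Multiset α) :
    S f (m.filter p) = S (fun x => if p x then f x else 0) m := by
  induction m using Multiset.induction_on with
  | empty => simp
  | cons a m ih => by_cases h : p a <;> simp [h, ih]

lemma S_map {β : Type} (e : α → β) (f : β → ℝ) (m : Multiset α) :
    S f (m.map e) = S (fun x => f (e x)) m := by
  simp [S]

lemma D_mono {w v : α → α → ℝ} {m : Multiset α} (h : ∀ x ∈ m, ∀ y ∈ m, w x y ≤ v x y) :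
    D w m ≤ D v m :=
  S_mono fun x hx => S_mono fun y hy => h x hx y hy

lemma D_congr {w v : α → α → ℝ} {m : Multiset α} (h : ∀ x ∈ m, ∀ y ∈ m, w x y = v x y) :
    D w m = D v m :=
  le_antisymm (D_mono fun x hx y hy => (h x hx y hy).le) (D_mono fun x hx y hy => (h x hx y hy).ge)

lemma D_nonneg {w : α → α → ℝ} {m : Multiset α} (h : ∀ x ∈ m, ∀ y ∈ m, 0 ≤ w x y) :
    0 ≤ D w m :=
  S_nonneg fun x hx => S_nonneg fun y hy => h x hx y hy

lemma D_add (w v : α → α → ℝ) (m : Multiset α) :
    D (fun x y => w x y + v x y) m = D w m + D v m := by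
  simp only [D, S_add]

lemma D_mul (c : ℝ) (w : α → α → ℝ) (m : Multiset α) :
    D (fun x y => c * w x y) m = c * D w m := by
  simp only [D, S_mul]

lemma D_sum {ι : Type} (T : Finset ι) (w : ι → α → α → ℝ) (m : Multiset α) :
    D (fun x y => ∑ k ∈ T, w k x y) m = ∑ k ∈ T, D (w k) m := by
  simp only [D, S_sum]

lemma D_hasSum {f : ℕ → α → α → ℝ} {g : α → α → ℝ}
    (h : ∀ x y, HasSum (fun k => f k x y) (g x y)) (m : Multiset α) :
    HasSum (fun k => D (f k) m) (D g m) :=
  S_hasSum (fun x => S_hasSum (h x) m) m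

lemma D_prod (f g : α → ℝ) (m : Multiset α) : D (fun x y => f x * g y) m = S f m * S g m := by
  simp only [D, S_mul]
  simp_rw [mul_comm (f _) (S g m)]
  rw [S_mul, mul_comm]

lemma D_const (c : ℝ) (m : Multiset α) : D (fun _ _ => c) m = c * (m.card : ℝ) ^ 2 := by
  simp only [D, S_const]; ring

lemma D_filter (p : α → Prop) [DecidablePred p] (w : α → α → ℝ) (m : Multiset α) :
    D w (m.filter p) = D (fun x y => if p x ∧ p y then w x y else 0) m := by
  simp only [D, S_filter]
  refine S_congr fun x _ => ?_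
  by_cases h : p x
  · simp [h]
  · simp [h, S_const]

lemma D_map {β : Type} (e : α → β) (w : β → β → ℝ) (m : Multiset α) :
    D w (m.map e) = D (fun x y => w (e x) (e y)) m := by
  simp only [D, S_map]

lemma D_diag [DecidableEq α] {m : Multiset α} (hm : m.Nodup) :
    D (fun x y => if x = y then 1 else 0) m = m.card := by
  rw [D, S_congr (g := fun _ => 1), S_const, one_mul]
  intro x hx
  have := S_filter (fun y => x = y) (fun _ => (1 : ℝ)) m
  rw [← this, S_const, one_mul, ← Multiset.count_eq_card_filter_eq,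
    Multiset.count_eq_one_of_mem hm hx, Nat.cast_one]

open Classical in
lemma S_split {ι : Type} (T : Finset ι) (A : ι → Set α) (hd : (T : Set ι).PairwiseDisjoint A)
    (f : α → ℝ) {m : Multiset α} (hm : ∀ x ∈ m, ∃ k ∈ T, x ∈ A k) :
    S f m = ∑ k ∈ T, S f (m.filter (· ∈ A k)) := by
  simp only [S_filter]
  rw [← S_sum]
  refine S_congr fun x hx => ?_
  obtain ⟨k, hk, hxk⟩ := hm x hx
  rw [Finset.sum_eq_single k]
  · simp [hxk]
  · intro j hj hjk
    have : x ∉ A j := fun h => Set.disjoint_left.1 (hd hj hk hjk) h hxk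
    simp [this]
  · intro h; exact absurd hk h

open Classical in
lemma D_split {ι : Type} (T : Finset ι) (A : ι → Set α) (hd : (T : Set ι).PairwiseDisjoint A)
    (w : α → α → ℝ) {m : Multiset α} (hm : ∀ x ∈ m, ∃ k ∈ T, x ∈ A k)
    (hw : ∀ k ∈ T, ∀ j ∈ T, j ≠ k → ∀ x ∈ A k, ∀ y ∈ A j, w x y ≤ 0) :
    D w m ≤ ∑ k ∈ T, D w (m.filter (· ∈ A k)) := by
  simp only [D_filter]
  rw [← D_sum]
  refine D_mono fun x hx y hy => ?_
  obtain ⟨k, hk, hxk⟩ := hm x hx
  obtain ⟨j, hj, hyj⟩ := hm y hy
  rw [Finset.sum_eq_single k]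
  · by_cases hyk : y ∈ A k
    · simp [hxk, hyk]
    · simp only [hyk, and_false, if_false]
      exact hw k hk j hj (fun h => hyk (h ▸ hyj)) x hxk y hyj
  · intro i hi hik
    have : x ∉ A i := fun h => Set.disjoint_left.1 (hd hi hk hik) h hxk
    simp [this]
  · intro h; exact absurd hk h

section meas
variable [MeasurableSpace α]

lemma measurable_S {f : α → ℝ} (hf : Measurable f) : Measurable (S f) := by
  refine measurable_of_cfg fun N => ?_
  simp_rw [S_cfg]
  exact Finset.measurable_sum _ fun i _ => hf.comp (measurable_pi_apply i)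

lemma measurable_D {w : α → α → ℝ} (hw : Measurable (Function.uncurry w)) :
    Measurable (D w) := by
  refine measurable_of_cfg fun N => ?_
  simp_rw [D_cfg]
  refine Finset.measurable_sum _ fun i _ => Finset.measurable_sum _ fun j _ => ?_
  have h : Measurable (fun x : Fin N → α => (x i, x j)) :=
    (measurable_pi_apply i).prodMk (measurable_pi_apply j)
  exact hw.comp h

lemma measurable_cardR : Measurable (fun m : Multiset α => (m.card : ℝ)) :=
  measurable_from_top.comp measurable_card

end meas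

lemma S_integral {β : Type} [MeasurableSpace β] (ν : Measure β) {g : α → β → ℝ}
    (hg : ∀ x, Integrable (g x) ν) (m : Multiset α) :
    Integrable (fun u => S (fun x => g x u) m) ν ∧
      ∫ u, S (fun x => g x u) m ∂ν = S (fun x => ∫ u, g x u ∂ν) m := by
  induction m using Multiset.induction_on with
  | empty => simp
  | cons a m ih =>
    simp only [S_cons]
    exact ⟨(hg a).add ih.1, by rw [integral_add (hg a) ih.1, ih.2]⟩

lemma D_integral {β : Type} [MeasurableSpace β] (ν : Measure β) {g : α → α → β → ℝ}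
    (hg : ∀ x y, Integrable (g x y) ν) (m : Multiset α) :
    Integrable (fun u => D (fun x y => g x y u) m) ν ∧
      ∫ u, D (fun x y => g x y u) m ∂ν = D (fun x y => ∫ u, g x y u ∂ν) m := by
  have h := S_integral ν (g := fun x u => S (fun y => g x y u) m)
    (fun x => (S_integral ν (hg x) m).1) m
  refine ⟨h.1, ?_⟩
  have h2 := h.2
  simp only [D]
  rw [h2]
  exact S_congr fun x _ => (S_integral ν (hg x) m).2

lemma ofReal_exp_S (f : α → ℝ) (m : Multiset α) :
    ENNReal.ofReal (Real.exp (S f m)) = (m.map fun x => ENNReal.ofReal (Real.exp (f x))).prod := by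
  induction m using Multiset.induction_on with
  | empty => simp
  | cons a m ih => simp [Real.exp_add, ENNReal.ofReal_mul (Real.exp_pos _).le, ih]

end Vale.Agent.P171
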